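import Crest.Agent.R149.Defs

/-! Row 149: algebra of pair energies, elementary properties of partition functions. -/

set_option autoImplicit false

namespace Crest.Agent.R149

open MeasureTheory Filter Set Crest.ProbabilityR.Continuum
open scoped ENNReal Topology

section En
variable {A A' ι : Type*} [Fintype A] [DecidableEq A] [Fintype A'] [DecidableEq A'] [DecidableEq ι]

theorem energy_eq_En (φ : ℝ → ℝ) {N : ℕ} (x : Fin N → Pt) : energy φ x = En φ x := by
  unfold energy En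
  have h1 : ∑ p : {p : Fin N × Fin N // p.1 < p.2}, φ (dist (x p.1.1) (x p.1.2)) =
      ∑ a, ∑ b, if a < b then φ (dist (x a) (x b)) else 0 := by
    rw [← Fintype.sum_prod_type', ← Finset.sum_filter]
    symm
    exact Finset.sum_subtype _ (by simp) fun p : Fin N × Fin N => φ (dist (x p.1) (x p.2))
  have h2 : (∑ a, ∑ b, if b < a then φ (dist (x a) (x b)) else 0) =
      ∑ a, ∑ b, if a < b then φ (dist (x a) (x b)) else 0 := by
    rw [Finset.sum_comm]
    simp only [dist_comm]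
  have h3 : (∑ a, ∑ b, if a = b then 0 else φ (dist (x a) (x b))) =
      (∑ a, ∑ b, if a < b then φ (dist (x a) (x b)) else 0) +
        ∑ a, ∑ b, if b < a then φ (dist (x a) (x b)) else 0 := by
    rw [← Finset.sum_add_distrib]
    refine Finset.sum_congr rfl fun a _ => ?_
    rw [← Finset.sum_add_distrib]
    refine Finset.sum_congr rfl fun b _ => ?_
    rcases lt_trichotomy a b with h | h | h
    · simp [h, h.ne, h.not_gt]
    · simp [h]
    · simp [h, h.ne', h.not_gt]
  rw [h3, h2, h1]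
  ring

theorem measurable_En {φ : ℝ → ℝ} (hφ : Measurable φ) : Measurable fun x : A → Pt => En φ x := by
  unfold En
  refine Measurable.div_const ?_ _
  refine Finset.measurable_sum _ fun a _ => Finset.measurable_sum _ fun b _ => ?_
  split_ifs
  · exact measurable_const
  · exact hφ.comp ((measurable_pi_apply a).dist (measurable_pi_apply b))

theorem measurable_EnI {φ : ℝ → ℝ} (hφ : Measurable φ) (τ : A → ι) :
    Measurable fun x : A → Pt => EnI φ τ x := by
  unfold EnI
  refine Measurable.div_const ?_ _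
  refine Finset.measurable_sum _ fun a _ => Finset.measurable_sum _ fun b _ => ?_
  split_ifs
  · exact measurable_const
  · exact hφ.comp ((measurable_pi_apply a).dist (measurable_pi_apply b))

theorem En_comp_equiv (φ : ℝ → ℝ) (e : A' ≃ A) (x : A → Pt) : En φ (x ∘ e) = En φ x := by
  unfold En
  congr 1
  rw [← e.sum_comp]
  refine Finset.sum_congr rfl fun a _ => ?_
  rw [← e.sum_comp]
  refine Finset.sum_congr rfl fun b _ => ?_
  simp only [Function.comp_apply, e.apply_eq_iff_eq]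

theorem En_add_const (φ : ℝ → ℝ) (x : A → Pt) (v : Pt) : En φ (fun a => x a + v) = En φ x := by
  unfold En
  simp only [dist_add_right]

theorem En_eq_EnI_add_Cr (φ : ℝ → ℝ) (τ : A → ι) (x : A → Pt) :
    En φ x = EnI φ τ x + Cr φ τ x := by
  unfold En EnI Cr
  rw [← add_div, ← Finset.sum_add_distrib]
  congr 1
  refine Finset.sum_congr rfl fun a _ => ?_
  rw [← Finset.sum_add_distrib]
  refine Finset.sum_congr rfl fun b _ => ?_
  by_cases h : a = b
  · simp [h]
  · by_cases h' : τ a = τ b <;> simp [h, h']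

theorem EnI_eq_sum [Fintype ι] (φ : ℝ → ℝ) (τ : A → ι) (x : A → Pt) :
    EnI φ τ x = ∑ i, En φ fun a : {a // τ a = i} => x a := by
  unfold EnI En
  rw [← Finset.sum_div]
  congr 1
  rw [← Fintype.sum_fiberwise τ]
  refine Finset.sum_congr rfl fun i _ => Finset.sum_congr rfl fun a _ => ?_
  have h1 : (∑ b : {a // τ a = i}, if a = b then 0 else φ (dist (x a) (x b))) =
      ∑ b ∈ Finset.univ.filter fun b => τ b = i,
        if (a : A) = b then 0 else φ (dist (x a) (x b)) := by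
    rw [Finset.sum_subtype (Finset.univ.filter fun b => τ b = i) (p := fun b => τ b = i)
      (by simp)]
    refine Finset.sum_congr rfl fun b _ => ?_
    simp only [Subtype.ext_iff]
  rw [h1, Finset.sum_filter]
  refine Finset.sum_congr rfl fun b _ => ?_
  have ha : τ a = i := a.2
  by_cases h : τ b = i
  · simp [h, ha]
  · have : ¬ i = τ b := fun h' => h h'.symm
    simp [h, ha, this]

/-- class-wise translations do not change the energy inside the classes -/
theorem EnI_add_mv (φ : ℝ → ℝ) (τ : A → ι) (x : A → Pt) (v : ι → Pt) :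
    EnI φ τ (fun a => x a + v (τ a)) = EnI φ τ x := by
  unfold EnI
  congr 1
  refine Finset.sum_congr rfl fun a _ => Finset.sum_congr rfl fun b _ => ?_
  by_cases h : τ a = τ b
  · simp only [h, dist_add_right]
  · simp [h]

theorem En_add (φ ψ : ℝ → ℝ) (x : A → Pt) : En (fun r => φ r + ψ r) x = En φ x + En ψ x := by
  unfold En
  rw [← add_div, ← Finset.sum_add_distrib]
  congr 1
  refine Finset.sum_congr rfl fun a _ => ?_
  rw [← Finset.sum_add_distrib]
  refine Finset.sum_congr rfl fun b _ => ?_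
  split_ifs <;> simp

theorem En_sub (φ ψ : ℝ → ℝ) (x : A → Pt) : En (fun r => φ r - ψ r) x = En φ x - En ψ x := by
  unfold En
  rw [← sub_div, ← Finset.sum_sub_distrib]
  congr 1
  refine Finset.sum_congr rfl fun a _ => ?_
  rw [← Finset.sum_sub_distrib]
  refine Finset.sum_congr rfl fun b _ => ?_
  split_ifs <;> simp

theorem En_const_mul (c : ℝ) (φ : ℝ → ℝ) (x : A → Pt) : En (fun r => c * φ r) x = c * En φ x := by
  unfold En
  rw [← mul_div_assoc, Finset.mul_sum]
  congr 1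
  refine Finset.sum_congr rfl fun a _ => ?_
  rw [Finset.mul_sum]
  refine Finset.sum_congr rfl fun b _ => ?_
  split_ifs <;> simp

theorem En_sum {κ : Type*} (s : Finset κ) (φ : κ → ℝ → ℝ) (x : A → Pt) :
    En (fun r => ∑ i ∈ s, φ i r) x = ∑ i ∈ s, En (φ i) x := by
  classical
  induction s using Finset.induction_on with
  | empty => simp [En]
  | insert i s hi ih => simp only [Finset.sum_insert hi]; rw [En_add, ih]

theorem hasSum_En {φ : ℕ → ℝ → ℝ} (h : ∀ r, Summable fun i => φ i r) (x : A → Pt) :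
    HasSum (fun i => En (φ i) x) (En (fun r => ∑' i, φ i r) x) := by
  unfold En
  refine HasSum.div_const ?_ _
  refine hasSum_sum fun a _ => hasSum_sum fun b _ => ?_
  split_ifs
  · exact hasSum_zero
  · exact (h _).hasSum

theorem En_mono {φ ψ : ℝ → ℝ} (h : ∀ r, φ r ≤ ψ r) (x : A → Pt) : En φ x ≤ En ψ x := by
  unfold En
  gcongr with a _ b _
  split_ifs
  · exact le_rfl
  · exact h _

theorem En_nonneg {φ : ℝ → ℝ} (h : ∀ r, 0 ≤ φ r) (x : A → Pt) : 0 ≤ En φ x := by
  unfold En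
  refine div_nonneg (Finset.sum_nonneg fun a _ => Finset.sum_nonneg fun b _ => ?_) zero_le_two
  split_ifs
  · exact le_rfl
  · exact h _

theorem EnI_sub (φ ψ : ℝ → ℝ) (τ : A → ι) (x : A → Pt) :
    EnI (fun r => φ r - ψ r) τ x = EnI φ τ x - EnI ψ τ x := by
  unfold EnI
  rw [← sub_div, ← Finset.sum_sub_distrib]
  congr 1
  refine Finset.sum_congr rfl fun a _ => ?_
  rw [← Finset.sum_sub_distrib]
  refine Finset.sum_congr rfl fun b _ => ?_
  split_ifs <;> simp

theorem EnI_nonneg {φ : ℝ → ℝ} (h : ∀ r, 0 ≤ φ r) (τ : A → ι) (x : A → Pt) : 0 ≤ EnI φ τ x := by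
  unfold EnI
  refine div_nonneg (Finset.sum_nonneg fun a _ => Finset.sum_nonneg fun b _ => ?_) zero_le_two
  split_ifs
  · exact le_rfl
  · exact h _

theorem Cr_add (φ ψ : ℝ → ℝ) (τ : A → ι) (x : A → Pt) :
    Cr (fun r => φ r + ψ r) τ x = Cr φ τ x + Cr ψ τ x := by
  unfold Cr
  rw [← add_div, ← Finset.sum_add_distrib]
  congr 1
  refine Finset.sum_congr rfl fun a _ => ?_
  rw [← Finset.sum_add_distrib]
  refine Finset.sum_congr rfl fun b _ => ?_
  split_ifs <;> simp

theorem Cr_sub (φ ψ : ℝ → ℝ) (τ : A → ι) (x : A → Pt) :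
    Cr (fun r => φ r - ψ r) τ x = Cr φ τ x - Cr ψ τ x := by
  unfold Cr
  rw [← sub_div, ← Finset.sum_sub_distrib]
  congr 1
  refine Finset.sum_congr rfl fun a _ => ?_
  rw [← Finset.sum_sub_distrib]
  refine Finset.sum_congr rfl fun b _ => ?_
  split_ifs <;> simp

theorem Cr_nonneg {φ : ℝ → ℝ} (h : ∀ r, 0 ≤ φ r) (τ : A → ι) (x : A → Pt) : 0 ≤ Cr φ τ x := by
  unfold Cr
  refine div_nonneg (Finset.sum_nonneg fun a _ => Finset.sum_nonneg fun b _ => ?_) zero_le_two
  split_ifs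
  · exact le_rfl
  · exact h _

theorem Cr_le_En {φ : ℝ → ℝ} (h : ∀ r, 0 ≤ φ r) (τ : A → ι) (x : A → Pt) : Cr φ τ x ≤ En φ x := by
  rw [En_eq_EnI_add_Cr φ τ x]
  exact le_add_of_nonneg_left (EnI_nonneg h τ x)

theorem Cr_nonpos {φ : ℝ → ℝ} {τ : A → ι} {x : A → Pt}
    (h : ∀ a b, τ a ≠ τ b → φ (dist (x a) (x b)) ≤ 0) : Cr φ τ x ≤ 0 := by
  unfold Cr
  refine div_nonpos_of_nonpos_of_nonneg
    (Finset.sum_nonpos fun a _ => Finset.sum_nonpos fun b _ => ?_) zero_le_two
  split_ifs with h'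
  · exact le_rfl
  · exact h a b h'

theorem sum_cnt [Fintype ι] (τ : A → ι) : ∑ i, cnt τ i = Fintype.card A := by
  unfold cnt
  rw [← Finset.card_univ, Finset.card_eq_sum_card_fiberwise (f := τ) (t := Finset.univ)
    fun _ _ => Finset.mem_coe.2 (Finset.mem_univ _)]

theorem Nn_eq_sum [Fintype ι] (τ : A → ι) : Nn τ = ∑ i, (cnt τ i : ℝ) ^ 2 := by
  unfold Nn
  have h1 : ∀ a, (∑ b, if τ a = τ b then (1 : ℝ) else 0) = cnt τ (τ a) := by
    intro a
    unfold cnt
    rw [Finset.card_filter]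
    push_cast
    refine Finset.sum_congr rfl fun b _ => ?_
    simp only [eq_comm]
  simp only [h1]
  rw [← Finset.sum_fiberwise Finset.univ τ]
  refine Finset.sum_congr rfl fun i _ => ?_
  rw [Finset.sum_congr rfl (g := fun _ => (cnt τ i : ℝ))
    fun a ha => by rw [(Finset.mem_filter.1 ha).2]]
  rw [Finset.sum_const, nsmul_eq_mul, sq]
  rfl

theorem Nn_comp {ι' : Type*} [DecidableEq ι'] {f : ι → ι'} (hf : Function.Injective f)
    (τ : A → ι) : Nn (f ∘ τ) = Nn τ := by
  unfold Nn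
  simp only [Function.comp_apply, hf.eq_iff]

theorem ix_injective {m : ℕ} : Function.Injective (ix (m := m)) := by
  intro d d' h
  funext i
  have := congrFun h i
  simp only [ix, Nat.cast_inj] at this
  exact Fin.ext this

theorem one_le_kd {σ : ℝ} (hσ : 0 < σ) (x : A → Pt) (a : A) : 1 ≤ kd σ x a := by
  unfold kd
  exact Finset.card_pos.2 ⟨a, by simp [hσ]⟩

theorem td_lt_kd {σ δ : ℝ} (hσ : 0 < σ) (h : δ ≤ σ) (x : A → Pt) (a : A) :
    td δ x a + 1 ≤ kd σ x a := by
  classical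
  unfold td kd
  rw [← Finset.card_insert_of_notMem (a := a) (by simp)]
  refine Finset.card_le_card fun b hb => ?_
  simp only [Finset.mem_insert, Finset.mem_filter, Finset.mem_univ, true_and] at hb ⊢
  rcases hb with rfl | hb
  · simpa using hσ
  · exact hb.2.trans_le h

theorem Mt_nonneg (δ : ℝ) (x : A → Pt) : 0 ≤ Mt δ x := by
  unfold Mt
  positivity

theorem Mt_le (δ : ℝ) (x : A → Pt) : Mt δ x ≤ Fintype.card A := by
  unfold Mt
  calc ∑ a, (td δ x a : ℝ) / (td δ x a + 1) ≤ ∑ _a : A, (1 : ℝ) :=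
        Finset.sum_le_sum fun a _ => (div_le_one (by positivity)).2 (by linarith)
    _ = Fintype.card A := by simp

/-- energy of a two-step potential -/
theorem En_step {σ : ℝ} (hσ : 0 < σ) (δ K c : ℝ) (x : A → Pt) :
    En (fun r => (if r < σ then K else 0) - if r < δ then c else 0) x =
      ∑ a, (K * ((kd σ x a : ℝ) - 1) / 2 - c * td δ x a / 2) := by
  classical
  unfold En
  rw [Finset.sum_div]
  refine Finset.sum_congr rfl fun a _ => ?_
  have hk : (kd σ x a : ℝ) = ∑ b, if dist (x a) (x b) < σ then (1 : ℝ) else 0 := by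
    unfold kd
    rw [Finset.card_filter]
    push_cast
    rfl
  have ht : (td δ x a : ℝ) = ∑ b, if b ≠ a ∧ dist (x a) (x b) < δ then (1 : ℝ) else 0 := by
    unfold td
    rw [Finset.card_filter]
    push_cast
    rfl
  have h1 : (1 : ℝ) = ∑ b, if a = b then (1 : ℝ) else 0 := by simp
  have key : (∑ b, if a = b then 0 else
      ((if dist (x a) (x b) < σ then K else 0) - if dist (x a) (x b) < δ then c else 0)) =
      K * ((kd σ x a : ℝ) - ∑ b, if a = b then (1 : ℝ) else 0) - c * td δ x a := by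
    rw [hk, ht, ← Finset.sum_sub_distrib, Finset.mul_sum, Finset.mul_sum,
      ← Finset.sum_sub_distrib]
    refine Finset.sum_congr rfl fun b _ => ?_
    by_cases h : a = b
    · subst h; simp [hσ]
    · have h' : b ≠ a := fun e => h e.symm
      simp [h, h']
  rw [key, ← h1]
  ring

end En

section Z
variable {φ : ℝ → ℝ} {β : ℝ} {Λ Λ' : Set Pt} {N : ℕ} {E E' : Set (Fin N → Pt)}

theorem measurableSet_cube (L : ℝ) : MeasurableSet (cube L) := by
  have h : cube L = ⋂ k : Fin 3, (fun x : Pt => x k) ⁻¹' Icc 0 L := by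
    ext x
    simp [cube]
  rw [h]
  exact MeasurableSet.iInter fun k => measurableSet_Icc.preimage (by fun_prop)

theorem volume_cube {L : ℝ} (hL : 0 ≤ L) : volume (cube L) = ENNReal.ofReal (L ^ 3) := by
  have h : cube L = (WithLp.ofLp : Pt → Fin 3 → ℝ) ⁻¹' Set.pi univ fun _ => Icc 0 L := by
    ext x
    simp only [cube, mem_ofPred_eq, mem_preimage, Set.mem_pi, mem_univ, forall_const, mem_Icc]
  rw [h, (PiLp.volume_preserving_ofLp (Fin 3)).measure_preimage
    (MeasurableSet.univ_pi fun _ => measurableSet_Icc).nullMeasurableSet, volume_pi_pi]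
  simp [ENNReal.ofReal_pow hL]

theorem measurableSet_box (hΛ : MeasurableSet Λ) (N : ℕ) : MeasurableSet (box Λ N) := by
  exact MeasurableSet.univ_pi fun _ => hΛ

theorem volume_box (Λ : Set Pt) (N : ℕ) : volume (box Λ N) = volume Λ ^ N := by
  rw [box, volume_pi_pi]
  simp

theorem measurable_bw (hφ : Measurable φ) (β : ℝ) (N : ℕ) :
    Measurable fun x : Fin N → Pt => bw φ β x := by
  exact ((measurable_En hφ).const_mul (-β)).exp.ennreal_ofReal

theorem ZA_mono (h : E ∩ box Λ N ⊆ E') : ZA φ β Λ N E ≤ ZA φ β Λ N E' := by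
  exact mul_le_mul_right (lintegral_mono_set (subset_inter h inter_subset_right)) _

theorem ZA_union_le : ZA φ β Λ N (E ∪ E') ≤ ZA φ β Λ N E + ZA φ β Λ N E' := by
  rw [ZA, ZA, ZA, ← mul_add, union_inter_distrib_right]
  exact mul_le_mul_right (lintegral_union_le _ _ _) _

theorem ZA_biUnion_le {κ : Type*} (s : Finset κ) (F : κ → Set (Fin N → Pt)) :
    ZA φ β Λ N (⋃ i ∈ s, F i) ≤ ∑ i ∈ s, ZA φ β Λ N (F i) := by
  classical
  induction s using Finset.induction_on with
  | empty => simp [ZA]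
  | insert i s hi ih =>
    rw [Finset.set_biUnion_insert, Finset.sum_insert hi]
    exact ZA_union_le.trans (add_le_add le_rfl ih)

/-- no measurability of `E` is needed (`setLIntegral_mono`) -/
theorem ZA_le_of {F : (Fin N → Pt) → ℝ≥0∞} (hF : Measurable F)
    (h : ∀ x ∈ E ∩ box Λ N, bw φ β x ≤ F x) :
    ZA φ β Λ N E ≤ (N.factorial : ℝ≥0∞)⁻¹ * ∫⁻ x in box Λ N, F x := by
  exact mul_le_mul_right
    ((setLIntegral_mono hF h).trans (lintegral_mono_set inter_subset_right)) _

/-- comparison of two weights on an event -/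
theorem ZA_le_mul {φ' : ℝ → ℝ} (hφ' : Measurable φ') {β' y : ℝ}
    (h : ∀ x ∈ E ∩ box Λ N, y + β' * En φ' x ≤ β * En φ x) :
    ZA φ β Λ N E ≤ ENNReal.ofReal (Real.exp (-y)) * ZA φ' β' Λ N E := by
  rw [ZA, ZA, mul_left_comm, ← lintegral_const_mul _ (measurable_bw hφ' β' N)]
  refine mul_le_mul_right (setLIntegral_mono ((measurable_bw hφ' β' N).const_mul _)
    fun x hx => ?_) _
  rw [bw, bw, ← ENNReal.ofReal_mul (Real.exp_pos _).le, ← Real.exp_add]
  refine ENNReal.ofReal_le_ofReal (Real.exp_le_exp.2 ?_)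
  have := h x hx
  linarith

theorem Zr_mono (h : Λ ⊆ Λ') : Zr φ β Λ N ≤ Zr φ β Λ' N := by
  refine mul_le_mul_right (lintegral_mono_set ?_) _
  exact inter_subset_inter_right _ (pi_mono fun _ _ => h)

theorem Zr_translate (hφ : Measurable φ) (hΛ : MeasurableSet Λ) (v : Pt) :
    Zr φ β {y | y - v ∈ Λ} N = Zr φ β Λ N := by
  have hΛ' : MeasurableSet {y : Pt | y - v ∈ Λ} := hΛ.preimage (measurable_id.sub_const v)
  rw [Zr, Zr, ZA, ZA, univ_inter, univ_inter, ← lintegral_indicator (measurableSet_box hΛ' N),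
    ← lintegral_indicator (measurableSet_box hΛ N),
    ← lintegral_add_right_eq_self _ (fun _ => v : Fin N → Pt)]
  congr 1
  refine lintegral_congr fun x => ?_
  have h1 : (x + fun _ => v) ∈ box {y : Pt | y - v ∈ Λ} N ↔ x ∈ box Λ N := by
    simp [box]
  have h2 : bw φ β (x + fun _ => v) = bw φ β x := by
    rw [bw, bw, ← En_add_const φ x v]
    rfl
  by_cases hx : x ∈ box Λ N
  · rw [indicator_of_mem hx, indicator_of_mem (h1.2 hx), h2]
  · rw [indicator_of_notMem hx, indicator_of_notMem fun h => hx (h1.1 h)]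

theorem Zr_zero (φ : ℝ → ℝ) (β : ℝ) (Λ : Set Pt) : Zr φ β Λ 0 = 1 := by
  have h : ∀ x : Fin 0 → Pt, bw φ β x = 1 := fun x => by simp [bw, En]
  simp [Zr, ZA, h, volume_box]

/-- `L^{3N} / N! ≤ exp (L³)` -/
theorem ZA_le_of_energy {L y : ℝ} (hL : 0 ≤ L) (h : ∀ x ∈ E ∩ box (cube L) N, y ≤ β * En φ x) :
    ZA φ β (cube L) N E ≤ ENNReal.ofReal (Real.exp (L ^ 3 - y)) := by
  refine (ZA_le_of (F := fun _ => ENNReal.ofReal (Real.exp (-y))) measurable_const
    fun x hx => ?_).trans ?_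
  · refine ENNReal.ofReal_le_ofReal (Real.exp_le_exp.2 ?_)
    have := h x hx
    linarith
  · have h3 : 0 ≤ L ^ 3 := by positivity
    have hN : (0 : ℝ) < N.factorial := by exact_mod_cast N.factorial_pos
    rw [setLIntegral_const, volume_box, volume_cube hL, ← ENNReal.ofReal_pow h3,
      ← ENNReal.ofReal_natCast, ← ENNReal.ofReal_inv_of_pos hN,
      ← ENNReal.ofReal_mul (Real.exp_pos _).le, ← ENNReal.ofReal_mul (inv_pos.2 hN).le]
    refine ENNReal.ofReal_le_ofReal ?_
    have h4 := Real.pow_div_factorial_le_exp (L ^ 3) h3 N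
    rw [sub_eq_add_neg, Real.exp_add, mul_left_comm, mul_comm (Real.exp (L ^ 3))]
    refine mul_le_mul_of_nonneg_left ?_ (Real.exp_pos _).le
    rwa [div_eq_inv_mul] at h4

theorem Zr_pos (hφ : Measurable φ) {L : ℝ} (hL : 0 < L) : 0 < Zr φ β (cube L) N := by
  refine ENNReal.mul_pos (ENNReal.inv_ne_zero.2 (ENNReal.natCast_ne_top _)) (ne_of_gt ?_)
  rw [setLIntegral_pos_iff (measurable_bw hφ β N)]
  have h : Function.support (fun x : Fin N → Pt => bw φ β x) = univ := by
    refine eq_univ_of_forall fun x => ?_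
    exact (ENNReal.ofReal_pos.2 (Real.exp_pos _)).ne'
  rw [h, univ_inter, univ_inter, volume_box, volume_cube hL.le]
  exact ENNReal.pow_pos (ENNReal.ofReal_pos.2 (by positivity)) _

theorem Adm.Zr_ne_top (hφ : Adm φ) (hβ : 0 < β) {L : ℝ} (hL : 0 ≤ L) :
    Zr φ β (cube L) N ≠ ⊤ := by
  obtain ⟨B, -, hB⟩ := hφ.stable
  refine ne_top_of_le_ne_top ENNReal.ofReal_ne_top
    (ZA_le_of_energy (y := β * (-B * N)) hL fun x _ => ?_)
  exact mul_le_mul_of_nonneg_left (hB N x) hβ.le

theorem Adm.Zr_eq (hφ : Adm φ) (hβ : 0 < β) {L : ℝ} (hL : 0 < L) (N : ℕ) :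
    Zr φ β (cube L) N = ENNReal.ofReal (Real.exp (-fe φ β L N)) := by
  have h1 := hφ.Zr_ne_top hβ hL.le (N := N)
  have h2 := Zr_pos hφ.meas hL (β := β) (N := N)
  rw [fe, neg_neg, Real.exp_log (ENNReal.toReal_pos h2.ne' h1), ENNReal.ofReal_toReal h1]

theorem Adm.le_fe_iff (hφ : Adm φ) (hβ : 0 < β) {L : ℝ} (hL : 0 < L) {y : ℝ} :
    y ≤ fe φ β L N ↔ Zr φ β (cube L) N ≤ ENNReal.ofReal (Real.exp (-y)) := by
  rw [hφ.Zr_eq hβ hL, ENNReal.ofReal_le_ofReal_iff (Real.exp_pos _).le, Real.exp_le_exp,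
    neg_le_neg_iff]

theorem Adm.fe_le_iff (hφ : Adm φ) (hβ : 0 < β) {L : ℝ} (hL : 0 < L) {y : ℝ} :
    fe φ β L N ≤ y ↔ ENNReal.ofReal (Real.exp (-y)) ≤ Zr φ β (cube L) N := by
  rw [hφ.Zr_eq hβ hL, ENNReal.ofReal_le_ofReal_iff (Real.exp_pos _).le, Real.exp_le_exp,
    neg_le_neg_iff]

theorem partitionFn_eq (hφ : Measurable φ) (β L : ℝ) (N : ℕ) :
    partitionFn φ L N β = (Zr φ β (cube L) N).toReal := by
  rw [partitionFn, Zr, ZA, univ_inter, ENNReal.toReal_mul, ENNReal.toReal_inv,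
    ENNReal.toReal_natCast, one_div]
  congr 1
  simp_rw [energy_eq_En]
  exact integral_eq_lintegral_of_nonneg_ae (ae_of_all _ fun x => (Real.exp_pos _).le)
    ((measurable_En hφ).const_mul (-β)).exp.aestronglyMeasurable

theorem fe_zero (φ : ℝ → ℝ) (β L : ℝ) : fe φ β L 0 = 0 := by
  simp [fe, Zr_zero]

/-- Hölder (`ENNReal.lintegral_mul_norm_pow_le`) -/
theorem Adm.concaveOn_fe (hφ : Adm φ) {L : ℝ} (hL : 0 < L) (N : ℕ) :
    ConcaveOn ℝ (Ioi 0) fun β => fe φ β L N := by
  refine ⟨convex_Ioi 0, fun β₁ h₁ β₂ h₂ a b ha hb hab => ?_⟩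
  have h0 : 0 < a • β₁ + b • β₂ := convex_Ioi 0 h₁ h₂ ha hb hab
  have key : ∀ s t : ℝ, ENNReal.ofReal (Real.exp (a * s + b * t)) =
      ENNReal.ofReal (Real.exp s) ^ a * ENNReal.ofReal (Real.exp t) ^ b := by
    intro s t
    rw [ENNReal.ofReal_rpow_of_nonneg (Real.exp_pos _).le ha,
      ENNReal.ofReal_rpow_of_nonneg (Real.exp_pos _).le hb,
      ← ENNReal.ofReal_mul (by positivity), ← Real.exp_mul, ← Real.exp_mul, ← Real.exp_add,
      mul_comm s, mul_comm t]
  rw [hφ.le_fe_iff h0 hL]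
  simp only [smul_eq_mul]
  rw [show -(a * fe φ β₁ L N + b * fe φ β₂ L N) = a * -fe φ β₁ L N + b * -fe φ β₂ L N by ring,
    key, ← hφ.Zr_eq h₁ hL, ← hφ.Zr_eq h₂ hL, Zr, Zr, Zr, ZA, ZA, ZA,
    ENNReal.mul_rpow_of_nonneg _ _ ha, ENNReal.mul_rpow_of_nonneg _ _ hb, mul_mul_mul_comm,
    ← ENNReal.rpow_add_of_nonneg _ _ ha hb, hab, ENNReal.rpow_one]
  refine mul_le_mul_right (le_trans (le_of_eq ?_) (ENNReal.lintegral_mul_norm_pow_le
    (measurable_bw hφ.meas β₁ N).aemeasurable (measurable_bw hφ.meas β₂ N).aemeasurable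
    ha hb hab)) _
  refine lintegral_congr fun x => ?_
  rw [bw, bw, bw, ← key]
  congr 2
  ring

end Z

end Crest.Agent.R149
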