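import Crest.Agent.R149.Neg

/-! Row 149: the Caro–Wei bound and the entropy cost of tight binding. -/

set_option autoImplicit false

namespace Crest.Agent.R149

open MeasureTheory Filter Set Crest.ProbabilityR.Continuum
open scoped ENNReal Topology

/-- the counts for different `v ∈ S` agree (swap) and add up to `N!` -/
theorem card_perm_min {N : ℕ} (S : Finset (Fin N)) {v : Fin N} (hv : v ∈ S) :
    (Finset.univ.filter fun π : Equiv.Perm (Fin N) => ∀ u ∈ S, π v ≤ π u).card * S.card =
      N.factorial := by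
  have h1 : ∀ w ∈ S,
      (Finset.univ.filter fun π : Equiv.Perm (Fin N) => ∀ u ∈ S, π w ≤ π u).card =
      (Finset.univ.filter fun π : Equiv.Perm (Fin N) => ∀ u ∈ S, π v ≤ π u).card := by
    intro w hw
    have hsw : ∀ u ∈ S, Equiv.swap v w u ∈ S := by
      intro u hu
      rw [Equiv.swap_apply_def]
      split_ifs <;> assumption
    refine Finset.card_equiv (Equiv.mulRight (Equiv.swap v w)) fun π => ?_
    simp only [Finset.mem_filter, Finset.mem_univ, true_and, Equiv.coe_mulRight,
      Equiv.Perm.coe_mul, Function.comp_apply, Equiv.swap_apply_left]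
    refine ⟨fun h u hu => h _ (hsw u hu), fun h u hu => ?_⟩
    have := h _ (hsw u hu)
    rwa [Equiv.swap_apply_self] at this
  have h2 : ∀ π : Equiv.Perm (Fin N), (S.filter fun w => ∀ u ∈ S, π w ≤ π u).card = 1 := by
    intro π
    obtain ⟨w, hw, hmin⟩ := S.exists_min_image π ⟨v, hv⟩
    refine Finset.card_eq_one.2 ⟨w, Finset.eq_singleton_iff_unique_mem.2
      ⟨Finset.mem_filter.2 ⟨hw, hmin⟩, fun w' hw' => ?_⟩⟩
    obtain ⟨h3, h4⟩ := Finset.mem_filter.1 hw'
    exact π.injective (le_antisymm (h4 w hw) (hmin w' h3))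
  calc _ = ∑ w ∈ S,
        (Finset.univ.filter fun π : Equiv.Perm (Fin N) => ∀ u ∈ S, π w ≤ π u).card := by
        rw [Finset.sum_congr rfl h1, Finset.sum_const, smul_eq_mul, mul_comm]
    _ = ∑ π : Equiv.Perm (Fin N), (S.filter fun w => ∀ u ∈ S, π w ≤ π u).card := by
        simp only [Finset.card_filter]
        exact Finset.sum_comm
    _ = N.factorial := by
        simp only [h2]
        rw [Finset.sum_const, Finset.card_univ, Fintype.card_perm, Fintype.card_fin, smul_eq_mul,
          mul_one]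

open Classical in
/-- the proportion of orders in which `a` is minimal in its closed neighbourhood is `1 / kd` -/
theorem sum_perm_min {σ : ℝ} (hσ : 0 < σ) {N : ℕ} (x : Fin N → Pt) (a : Fin N) :
    (∑ π : Equiv.Perm (Fin N), if ∀ b, dist (x a) (x b) < σ → π a ≤ π b then (1 : ℝ) else 0) =
      N.factorial * (kd σ x a : ℝ)⁻¹ := by
  have h1 := card_perm_min (Finset.univ.filter fun b => dist (x a) (x b) < σ) (v := a)
    (by simp [hσ])
  have h2 : (0 : ℝ) < kd σ x a := by exact_mod_cast one_le_kd hσ x a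
  rw [← div_eq_mul_inv, eq_div_iff h2.ne', ← h1, Finset.card_filter]
  push_cast
  congr 1
  refine Finset.sum_congr rfl fun π _ => if_congr ?_ rfl rfl
  simp

/-- For each `π` the particles that are `π`-minimal in their closed neighbourhood form a
`σ`-separated set; average over `π`. -/
theorem caro_wei {σ α : ℝ} (hσ : 0 < σ) {Λ : Set Pt} {N : ℕ} {x : Fin N → Pt} (hx : x ∈ box Λ N)
    (h : ∀ Y : Finset Pt, (∀ y ∈ Y, y ∈ Λ) → (∀ y ∈ Y, ∀ z ∈ Y, y ≠ z → σ ≤ dist y z) →
      (Y.card : ℝ) ≤ α) : ∑ a, (kd σ x a : ℝ)⁻¹ ≤ α := by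
  classical
  have h1 : ∀ π : Equiv.Perm (Fin N),
      (∑ a, if ∀ b, dist (x a) (x b) < σ → π a ≤ π b then (1 : ℝ) else 0) ≤ α := by
    intro π
    set I : Finset (Fin N) :=
      Finset.univ.filter fun a => ∀ b, dist (x a) (x b) < σ → π a ≤ π b with hI
    have hsep : ∀ a ∈ I, ∀ b ∈ I, a ≠ b → σ ≤ dist (x a) (x b) := by
      intro a ha b hb hab
      by_contra hlt
      rw [not_le] at hlt
      exact hab (π.injective (le_antisymm ((Finset.mem_filter.1 ha).2 b hlt)
        ((Finset.mem_filter.1 hb).2 a (by rwa [dist_comm]))))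
    have hinj : Set.InjOn x I := by
      intro a ha b hb hab
      by_contra hne
      have := hsep a ha b hb hne
      rw [hab, dist_self] at this
      exact absurd hσ (not_lt.2 this)
    have h2 := h (I.image x) (fun y hy => by
        obtain ⟨a, _, rfl⟩ := Finset.mem_image.1 hy
        exact hx a (mem_univ a)) (fun y hy z hz hyz => by
        obtain ⟨a, ha, rfl⟩ := Finset.mem_image.1 hy
        obtain ⟨b, hb, rfl⟩ := Finset.mem_image.1 hz
        exact hsep a ha b hb fun e => hyz (by rw [e]))
    rw [Finset.card_image_of_injOn hinj, hI, Finset.card_filter] at h2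
    push_cast at h2
    exact h2
  have h2 := Finset.sum_le_sum (s := Finset.univ) fun π _ => h1 π
  rw [Finset.sum_comm, Finset.sum_const, Finset.card_univ, Fintype.card_perm, Fintype.card_fin,
    nsmul_eq_mul] at h2
  have h3 : ∀ a, (∑ π : Equiv.Perm (Fin N),
      if ∀ b, dist (x a) (x b) < σ → π a ≤ π b then (1 : ℝ) else 0) =
      N.factorial * (kd σ x a : ℝ)⁻¹ := fun a => by
    convert sum_perm_min hσ x a
  simp only [h3] at h2
  rw [← Finset.mul_sum] at h2
  exact le_of_mul_le_mul_left h2 (by exact_mod_cast N.factorial_pos)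

theorem measurable_Mt (δ : ℝ) (N : ℕ) : Measurable fun x : Fin N → Pt => Mt δ x := by
  classical
  have h1 : ∀ a : Fin N, Measurable fun x : Fin N → Pt => (td δ x a : ℝ) := by
    intro a
    have : (fun x : Fin N → Pt => (td δ x a : ℝ)) =
        fun x => ∑ b, if b ≠ a ∧ dist (x a) (x b) < δ then (1 : ℝ) else 0 := by
      funext x
      unfold td
      rw [Finset.card_filter]
      push_cast
      rfl
    rw [this]
    refine Finset.measurable_sum _ fun b _ => Measurable.ite ?_ measurable_const measurable_const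
    exact (MeasurableSet.const _).inter
      (measurableSet_lt ((measurable_pi_apply a).dist (measurable_pi_apply b)) measurable_const)
  unfold Mt
  exact Finset.measurable_sum _ fun a _ => (h1 a).div ((h1 a).add_const 1)

open Classical in
/-- number of particles with an earlier particle at distance `< δ` -/
noncomputable def Ml (δ : ℝ) {N : ℕ} (x : Fin N → Pt) : ℝ :=
  ∑ a, if ∃ b, b < a ∧ dist (x a) (x b) < δ then 1 else 0

theorem measurable_Ml (δ : ℝ) (N : ℕ) : Measurable fun x : Fin N → Pt => Ml δ x := by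
  unfold Ml
  refine Finset.measurable_sum _ fun a _ => Measurable.ite ?_ measurable_const measurable_const
  rw [Set.ofPred_exists]
  refine MeasurableSet.iUnion fun b => ?_
  exact (MeasurableSet.const _).inter
    (measurableSet_lt ((measurable_pi_apply a).dist (measurable_pi_apply b)) measurable_const)

open Classical in
theorem Ml_succ (δ : ℝ) {N : ℕ} (x : Fin (N + 1) → Pt) :
    Ml δ x = Ml δ (fun a => x (Fin.castSucc a)) +
      if ∃ b : Fin N, dist (x (Fin.last N)) (x (Fin.castSucc b)) < δ then 1 else 0 := by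
  unfold Ml
  rw [Fin.sum_univ_castSucc]
  congr 1
  · refine Finset.sum_congr rfl fun a _ => if_congr ?_ rfl rfl
    constructor
    · rintro ⟨b, hb, hd⟩
      obtain ⟨b', rfl⟩ := Fin.exists_castSucc_eq.2 (hb.trans (Fin.castSucc_lt_last a)).ne
      exact ⟨b', Fin.castSucc_lt_castSucc_iff.1 hb, hd⟩
    · rintro ⟨b, hb, hd⟩
      exact ⟨_, Fin.castSucc_lt_castSucc_iff.2 hb, hd⟩
  · refine if_congr ?_ rfl rfl
    constructor
    · rintro ⟨b, hb, hd⟩
      obtain ⟨b', rfl⟩ := Fin.exists_castSucc_eq.2 hb.ne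
      exact ⟨b', hd⟩
    · rintro ⟨b, hd⟩
      exact ⟨_, Fin.castSucc_lt_last b, hd⟩

theorem td_add_one {δ : ℝ} (hδ : 0 < δ) {N : ℕ} (x : Fin N → Pt) (a : Fin N) :
    td δ x a + 1 = kd δ x a := by
  classical
  unfold td kd
  rw [← Finset.card_insert_of_notMem (a := a) (by simp)]
  congr 1
  ext b
  simp only [Finset.mem_insert, Finset.mem_filter, Finset.mem_univ, true_and]
  by_cases h : b = a
  · subst h; simp [hδ]
  · simp [h]

/-- `Mt` is the average of `Ml` over the orders -/
theorem sum_Ml_perm {δ : ℝ} (hδ : 0 < δ) {N : ℕ} (x : Fin N → Pt) :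
    ∑ π : Equiv.Perm (Fin N), Ml δ (fun a => x (π.symm a)) = N.factorial * Mt δ x := by
  classical
  have h1 : ∀ π : Equiv.Perm (Fin N), Ml δ (fun a => x (π.symm a)) =
      ∑ a, (1 - if ∀ b, dist (x a) (x b) < δ → π a ≤ π b then (1 : ℝ) else 0) := by
    intro π
    unfold Ml
    rw [← Equiv.sum_comp π]
    refine Finset.sum_congr rfl fun a _ => ?_
    simp only [Equiv.symm_apply_apply]
    by_cases h : ∀ b, dist (x a) (x b) < δ → π a ≤ π b
    · rw [if_pos h, if_neg, sub_self]
      rintro ⟨b, hb, hd⟩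
      have := h _ hd
      rw [Equiv.apply_symm_apply] at this
      exact absurd hb (not_lt.2 this)
    · rw [if_neg h, if_pos, sub_zero]
      push Not at h
      obtain ⟨b, hd, hb⟩ := h
      exact ⟨π b, hb, by rwa [Equiv.symm_apply_apply]⟩
  simp only [h1]
  rw [Finset.sum_comm]
  unfold Mt
  rw [Finset.mul_sum]
  refine Finset.sum_congr rfl fun a _ => ?_
  have h3 : (∑ π : Equiv.Perm (Fin N),
      if ∀ b, dist (x a) (x b) < δ → π a ≤ π b then (1 : ℝ) else 0) =
      N.factorial * (kd δ x a : ℝ)⁻¹ := by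
    convert sum_perm_min hδ x a
  rw [Finset.sum_sub_distrib, h3, Finset.sum_const, Finset.card_univ, Fintype.card_perm,
    Fintype.card_fin, nsmul_eq_mul, ← td_add_one hδ]
  push_cast
  field_simp
  ring

theorem exp_Mt_le {δ : ℝ} (hδ : 0 < δ) (lam : ℝ) {N : ℕ} (x : Fin N → Pt) :
    Real.exp (lam * Mt δ x) ≤ ∑ π : Equiv.Perm (Fin N),
      (N.factorial : ℝ)⁻¹ * Real.exp (lam * Ml δ fun a => x (π.symm a)) := by
  have hN : (0 : ℝ) < N.factorial := by exact_mod_cast N.factorial_pos
  have h1 := convexOn_exp.map_sum_le (t := (Finset.univ : Finset (Equiv.Perm (Fin N))))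
    (w := fun _ => (N.factorial : ℝ)⁻¹) (p := fun π => lam * Ml δ fun a => x (π.symm a))
    (fun _ _ => by positivity) (by
      rw [Finset.sum_const, Finset.card_univ, Fintype.card_perm, Fintype.card_fin, nsmul_eq_mul,
        mul_inv_cancel₀ hN.ne']) (fun _ _ => mem_univ _)
  simp only [smul_eq_mul] at h1
  rw [← Finset.mul_sum, ← Finset.mul_sum, sum_Ml_perm hδ] at h1
  refine le_trans (le_of_eq ?_) h1
  congr 1
  field_simp

theorem lintegral_Ml {δ lam : ℝ}
    (hv : volume (Metric.ball (0 : Pt) δ) ≤ ENNReal.ofReal (Real.exp (-lam))) (Λ : Set Pt)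
    (N : ℕ) : ∫⁻ x : Fin N → Pt, ENNReal.ofReal (Real.exp (lam * Ml δ x))
      ∂(Measure.pi fun _ => volume.restrict Λ) ≤ (volume Λ + N) ^ N := by
  classical
  induction N with
  | zero => simp [Ml]
  | succ N ih =>
    set μ : Measure Pt := volume.restrict Λ with hμ
    have hF : ∀ n, Measurable fun x : Fin n → Pt => ENNReal.ofReal (Real.exp (lam * Ml δ x)) :=
      fun n => ((measurable_Ml δ n).const_mul lam).exp.ennreal_ofReal
    set k : Pt × (Fin N → Pt) → ℝ≥0∞ := fun p => 1 + ENNReal.ofReal (Real.exp lam) *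
      ∑ b, (Metric.ball (p.2 b) δ).indicator (fun _ => (1 : ℝ≥0∞)) p.1 with hk
    have hkm : Measurable k := by
      refine Measurable.const_add (Measurable.const_mul ?_ _) _
      refine Finset.measurable_sum _ fun b _ => ?_
      simp only [Set.indicator_apply, Metric.mem_ball]
      refine Measurable.ite ?_ measurable_const measurable_const
      exact measurableSet_lt (measurable_fst.dist ((measurable_pi_apply b).comp measurable_snd))
        measurable_const
    have hmp := measurePreserving_piFinSuccAbove (fun _ : Fin (N + 1) => μ) (Fin.last N)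
    set G : Pt × (Fin N → Pt) → ℝ≥0∞ :=
      fun p => ENNReal.ofReal (Real.exp (lam * Ml δ p.2)) * k p with hG
    have hGm : Measurable G := ((hF N).comp measurable_snd).mul hkm
    have hle : ∀ x : Fin (N + 1) → Pt, ENNReal.ofReal (Real.exp (lam * Ml δ x)) ≤
        G (MeasurableEquiv.piFinSuccAbove (fun _ => Pt) (Fin.last N) x) := by
      intro x
      have e1 : MeasurableEquiv.piFinSuccAbove (fun _ => Pt) (Fin.last N) x =
          (x (Fin.last N), fun a => x (Fin.castSucc a)) := by
        simp only [MeasurableEquiv.piFinSuccAbove_apply, Fin.insertNthEquiv_symm_apply]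
        refine Prod.ext rfl (funext fun a => ?_)
        simp [Fin.removeNth]
      rw [e1, Ml_succ, mul_add, Real.exp_add, ENNReal.ofReal_mul (Real.exp_pos _).le]
      refine mul_le_mul_right ?_ _
      simp only [hk]
      split_ifs with h
      · obtain ⟨b, hb⟩ := h
        rw [mul_one]
        refine le_add_left (le_mul_of_one_le_right' ?_)
        refine le_trans ?_ (Finset.single_le_sum (f := fun b : Fin N =>
          (Metric.ball (x (Fin.castSucc b)) δ).indicator (fun _ => (1 : ℝ≥0∞)) (x (Fin.last N)))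
          (fun _ _ => zero_le) (Finset.mem_univ b))
        rw [Set.indicator_of_mem (Metric.mem_ball.2 hb)]
      · simp
    have hinner : ∀ x' : Fin N → Pt, ∫⁻ y, k (y, x') ∂μ ≤ volume Λ + N := by
      intro x'
      simp only [hk]
      rw [lintegral_add_left measurable_const, lintegral_const, one_mul, hμ,
        Measure.restrict_apply_univ, lintegral_const_mul _ (Finset.measurable_sum _ fun b _ =>
          measurable_const.indicator Metric.isOpen_ball.measurableSet),
        lintegral_finsetSum _ fun b _ =>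
          measurable_const.indicator Metric.isOpen_ball.measurableSet]
      refine add_le_add le_rfl ?_
      have hb : ∀ b : Fin N, ∫⁻ y in Λ, (Metric.ball (x' b) δ).indicator
          (fun _ => (1 : ℝ≥0∞)) y ≤ ENNReal.ofReal (Real.exp (-lam)) := by
        intro b
        refine (setLIntegral_le_lintegral _ _).trans ?_
        rw [lintegral_indicator_const Metric.isOpen_ball.measurableSet, one_mul,
          Measure.addHaar_ball_center]
        exact hv
      refine (mul_le_mul_right (Finset.sum_le_sum fun b _ => hb b) _).trans ?_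
      rw [Finset.sum_const, Finset.card_univ, Fintype.card_fin, nsmul_eq_mul, mul_left_comm,
        ← ENNReal.ofReal_mul (Real.exp_pos _).le, ← Real.exp_add, add_neg_cancel, Real.exp_zero,
        ENNReal.ofReal_one, mul_one]
    calc ∫⁻ x : Fin (N + 1) → Pt, ENNReal.ofReal (Real.exp (lam * Ml δ x))
          ∂(Measure.pi fun _ => μ)
        ≤ ∫⁻ x, G (MeasurableEquiv.piFinSuccAbove (fun _ => Pt) (Fin.last N) x)
          ∂(Measure.pi fun _ => μ) := lintegral_mono hle
      _ = ∫⁻ p, G p ∂(μ.prod (Measure.pi fun _ : Fin N => μ)) := hmp.lintegral_comp hGm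
      _ = ∫⁻ x', ∫⁻ y, G (y, x') ∂μ ∂(Measure.pi fun _ : Fin N => μ) :=
          lintegral_prod_symm' _ hGm
      _ ≤ ∫⁻ x', ENNReal.ofReal (Real.exp (lam * Ml δ x')) * (volume Λ + N)
          ∂(Measure.pi fun _ : Fin N => μ) := by
          refine lintegral_mono fun x' => ?_
          simp only [hG]
          rw [lintegral_const_mul' _ _ ENNReal.ofReal_ne_top]
          exact mul_le_mul_right (hinner x') _
      _ ≤ (volume Λ + N) ^ N * (volume Λ + N) := by
          rw [lintegral_mul_const _ (hF N)]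
          exact mul_le_mul_left ih _
      _ ≤ (volume Λ + (N + 1 : ℕ)) ^ (N + 1) := by
          rw [← pow_succ]
          gcongr
          exact Nat.le_succ N

/-- `Mt δ x` is the average over `π` of the number `M_π x` of particles having a `δ`-neighbour
that is `π`-smaller (or larger); Jensen for `exp`; `M_π x = M_1 (x ∘ π⁻¹)`; and
`∫ exp (lam M_1) ≤ (|Λ| + N)^N` by induction (`Fin.cons`, `measurePreserving_piFinSuccAbove`):
the new particle contributes `≤ 1 + e^lam ∑_b 1_{B(x b, δ)}`. -/
theorem lintegral_Mt {δ lam : ℝ} (hδ : 0 < δ) (hlam : 0 ≤ lam)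
    (hv : volume (Metric.ball (0 : Pt) δ) ≤ ENNReal.ofReal (Real.exp (-lam))) {Λ : Set Pt}
    (hΛ : MeasurableSet Λ) (N : ℕ) :
    ∫⁻ x in box Λ N, ENNReal.ofReal (Real.exp (lam * Mt δ x)) ≤ (volume Λ + N) ^ N := by
  have hN : (0 : ℝ) < N.factorial := by exact_mod_cast N.factorial_pos
  have hF : Measurable fun x : Fin N → Pt => ENNReal.ofReal (Real.exp (lam * Ml δ x)) :=
    ((measurable_Ml δ N).const_mul lam).exp.ennreal_ofReal
  have hbox : (volume : Measure (Fin N → Pt)).restrict (box Λ N) =
      Measure.pi fun _ => volume.restrict Λ := by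
    rw [box, volume_pi, Measure.restrict_pi_pi]
  rw [hbox]
  have hπ : ∀ π : Equiv.Perm (Fin N), MeasurePreserving (fun (x : Fin N → Pt) a => x (π.symm a))
      (Measure.pi fun _ => volume.restrict Λ) (Measure.pi fun _ => volume.restrict Λ) := by
    intro π
    exact (measurePreserving_piCongrLeft (fun _ : Fin N => (volume : Measure Pt).restrict Λ)
      π.symm).symm
  calc ∫⁻ x, ENNReal.ofReal (Real.exp (lam * Mt δ x)) ∂(Measure.pi fun _ => volume.restrict Λ)
      ≤ ∫⁻ x, ∑ π : Equiv.Perm (Fin N), ENNReal.ofReal (N.factorial : ℝ)⁻¹ *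
          ENNReal.ofReal (Real.exp (lam * Ml δ fun a => x (π.symm a)))
          ∂(Measure.pi fun _ => volume.restrict Λ) := by
        refine lintegral_mono fun x => ?_
        refine (ENNReal.ofReal_le_ofReal (exp_Mt_le hδ lam x)).trans (le_of_eq ?_)
        rw [ENNReal.ofReal_sum_of_nonneg fun _ _ => by positivity]
        exact Finset.sum_congr rfl fun π _ => ENNReal.ofReal_mul (by positivity)
    _ = ∑ π : Equiv.Perm (Fin N), ENNReal.ofReal (N.factorial : ℝ)⁻¹ *
          ∫⁻ x : Fin N → Pt, ENNReal.ofReal (Real.exp (lam * Ml δ x))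
            ∂(Measure.pi fun _ => volume.restrict Λ) := by
        have hm : ∀ π : Equiv.Perm (Fin N), Measurable fun x : Fin N → Pt =>
            ENNReal.ofReal (Real.exp (lam * Ml δ fun a => x (π.symm a))) :=
          fun π => hF.comp (hπ π).measurable
        rw [lintegral_finsetSum _ fun π _ => (hm π).const_mul _]
        refine Finset.sum_congr rfl fun π _ => ?_
        rw [lintegral_const_mul _ (hm π), (hπ π).lintegral_comp hF]
    _ ≤ ∑ _π : Equiv.Perm (Fin N), ENNReal.ofReal (N.factorial : ℝ)⁻¹ * (volume Λ + N) ^ N :=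
        Finset.sum_le_sum fun _ _ => mul_le_mul_right (lintegral_Ml hv Λ N) _
    _ = (volume Λ + N) ^ N := by
        rw [Finset.sum_const, Finset.card_univ, Fintype.card_perm, Fintype.card_fin,
          nsmul_eq_mul, ← mul_assoc, ← ENNReal.ofReal_natCast, ← ENNReal.ofReal_mul hN.le,
          mul_inv_cancel₀ hN.ne', ENNReal.ofReal_one, one_mul]

/-- `(L³ + N)^N / N! ≤ exp (L³ + N)` -/
theorem neg_entropy (φ : ℝ → ℝ) (β : ℝ) {ρ δ lam : ℝ} (hρ : 0 ≤ ρ) (hδ : 0 < δ) (hlam : 0 ≤ lam)
    (hv : volume (Metric.ball (0 : Pt) δ) ≤ ENNReal.ofReal (Real.exp (-lam))) :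
    Neg φ β ρ fun L => {x | (g φ β ρ + ρ + 2) * L ^ 3 ≤ β * En φ x + lam * Mt δ x} := by
  refine ⟨1, one_pos, ?_⟩
  filter_upwards [eventually_ge_atTop 0] with L hL
  set N : ℕ := ⌊ρ * L ^ 3⌋₊ with hNdef
  set y : ℝ := (g φ β ρ + ρ + 2) * L ^ 3 with hy
  have h3 : 0 ≤ L ^ 3 := by positivity
  have hNle : (N : ℝ) ≤ ρ * L ^ 3 := Nat.floor_le (mul_nonneg hρ h3)
  have hN : (0 : ℝ) < N.factorial := by exact_mod_cast N.factorial_pos
  have hF : Measurable fun x : Fin N → Pt => ENNReal.ofReal (Real.exp (lam * Mt δ x)) :=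
    ((measurable_Mt δ N).const_mul lam).exp.ennreal_ofReal
  refine (ZA_le_of (F := fun x => ENNReal.ofReal (Real.exp (-y)) *
    ENNReal.ofReal (Real.exp (lam * Mt δ x))) (hF.const_mul _) fun x hx => ?_).trans ?_
  · rw [← ENNReal.ofReal_mul (Real.exp_pos _).le, ← Real.exp_add]
    refine ENNReal.ofReal_le_ofReal (Real.exp_le_exp.2 ?_)
    have : y ≤ β * En φ x + lam * Mt δ x := hx.1
    linarith
  · rw [lintegral_const_mul _ hF]
    refine (mul_le_mul_right (mul_le_mul_right
      (lintegral_Mt hδ hlam hv (measurableSet_cube L) N) _) _).trans ?_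
    have h5 : 0 ≤ L ^ 3 + N := by positivity
    rw [volume_cube hL, ← ENNReal.ofReal_natCast N, ← ENNReal.ofReal_add h3 (Nat.cast_nonneg _),
      ← ENNReal.ofReal_pow h5, ← ENNReal.ofReal_natCast, ← ENNReal.ofReal_inv_of_pos hN,
      ← ENNReal.ofReal_mul (Real.exp_pos _).le, ← ENNReal.ofReal_mul (inv_pos.2 hN).le]
    refine ENNReal.ofReal_le_ofReal ?_
    have h4 := Real.pow_div_factorial_le_exp (L ^ 3 + N) h5 N
    rw [div_eq_inv_mul] at h4
    rw [mul_left_comm]
    refine (mul_le_mul_of_nonneg_left h4 (Real.exp_pos _).le).trans ?_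
    rw [← Real.exp_add]
    refine Real.exp_le_exp.2 ?_
    rw [hy]
    linarith

end Crest.Agent.R149
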