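import Crest.Agent.R149.Defs

/-! Row 149: the dual certificates.

Multiply `Cert` by `k` and use `k t / (t+1) ≥ t`; what is left is affine in `t ∈ [0, k-1]`, with
the end values `β A (k-u)²/2 - m + 0.42 β (k-2)(k-3)` (`t = 0`) and
`β A (k-u)²/2 - m + 0.1 β (k-4)(k-3.8) + (1+s-β)(k-1)` (`t = k-1`). -/

set_option autoImplicit false

namespace Crest.Agent.R149

open MeasureTheory Filter Set Crest.ProbabilityR.Continuum
open scoped ENNReal Topology

variable {β A s u m : ℝ}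

theorem cert_of (hs : -1 ≤ s)
    (h0 : ∀ k : ℕ, 1 ≤ k → m ≤ β * A * (k - u) ^ 2 / 2 + 21 / 50 * β * ((k - 2) * (k - 3)))
    (h1 : ∀ k : ℕ, 1 ≤ k → m ≤ β * A * (k - u) ^ 2 / 2 + β * ((k - 4) * (k - 19 / 5)) / 10 +
      (1 + s - β) * (k - 1)) : Cert β A s u m := by
  intro k t hk
  have ht : (0 : ℝ) ≤ t := t.cast_nonneg
  have hk' : (t : ℝ) + 1 ≤ k := by exact_mod_cast hk
  have hq : (t : ℝ) ≤ k * (t / (t + 1)) := by
    rw [← mul_div_assoc, le_div_iff₀ (by positivity)]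
    nlinarith
  have h2 := mul_le_mul_of_nonneg_left hq (show 0 ≤ 1 + s by linarith)
  have h3 := h0 k (by omega)
  have h4 := h1 k (by omega)
  rw [sub_le_iff_le_add', ← sub_le_iff_le_add, le_div_iff₀ (by linarith)]
  rcases le_total 0 (1 + s - 8 / 25 * β * k) with h | h
  · have := mul_nonneg h ht
    linarith
  · have := mul_nonneg (neg_nonneg.2 h) (show 0 ≤ (k : ℝ) - 1 - t by linarith)
    linarith

theorem int_quad (n k : ℕ) : 0 ≤ ((k : ℝ) - n) * (k - (n + 1)) := by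
  rcases le_or_gt k n with h | h
  · have : (k : ℝ) ≤ n := by exact_mod_cast h
    nlinarith
  · have : (n : ℝ) + 1 ≤ k := by exact_mod_cast h
    nlinarith

theorem cert_low (hA : 0 < A) (hA' : A ≤ 1 / 10) (h1 : 1 - A / 200 ≤ β) (h2 : β ≤ 1 + A / 200)
    (hu : u ≤ 7 / 2) : Cert β A (-(A / 200)) u 0 := by
  have hβ : 99 / 100 ≤ β := by linarith
  refine cert_of (by linarith) (fun k hk => ?_) fun k hk => ?_
  · have := int_quad 2 k
    norm_num at this
    positivity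
  · have h3 : 0 ≤ β * A * (k - u) ^ 2 / 2 := by positivity
    obtain h | rfl | h : k ≤ 3 ∨ k = 4 ∨ 5 ≤ k := by omega
    · have h4 : (k : ℝ) ≤ 3 := by exact_mod_cast h
      have h5 : (1 : ℝ) ≤ k := by exact_mod_cast hk
      have h6 : 4 / 5 ≤ ((k : ℝ) - 4) * (k - 19 / 5) := by nlinarith
      nlinarith
    · have h6 : 1 / 4 ≤ (4 - u) ^ 2 := by nlinarith
      have h7 : 99 / 400 ≤ β * (4 - u) ^ 2 := by nlinarith
      push_cast
      nlinarith
    · have h4 : (5 : ℝ) ≤ k := by exact_mod_cast h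
      have h6 : ((k : ℝ) - 1) / 4 ≤ ((k : ℝ) - 4) * (k - 19 / 5) := by nlinarith
      nlinarith

theorem cert_gap (hA : 0 < A) (hA' : A ≤ 1 / 10) (h1 : 1 - A / 200 ≤ β) (h2 : β ≤ 1 + A / 200)
    (hu : 9 / 4 ≤ u) (hu' : u ≤ 11 / 4) : Cert β A 0 u (A / 200) := by
  have hβ : 99 / 100 ≤ β := by linarith
  refine cert_of (by linarith) (fun k hk => ?_) fun k hk => ?_
  · have h3 : 0 ≤ β * A * (k - u) ^ 2 / 2 := by positivity
    obtain rfl | rfl | rfl | h : k = 1 ∨ k = 2 ∨ k = 3 ∨ 4 ≤ k := by omega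
    · push_cast at h3 ⊢
      nlinarith
    · have h6 : 1 / 16 ≤ (2 - u) ^ 2 := by nlinarith
      have h7 : 99 / 1600 ≤ β * (2 - u) ^ 2 := by nlinarith
      push_cast
      nlinarith
    · have h6 : 1 / 16 ≤ (3 - u) ^ 2 := by nlinarith
      have h7 : 99 / 1600 ≤ β * (3 - u) ^ 2 := by nlinarith
      push_cast
      nlinarith
    · have h4 : (4 : ℝ) ≤ k := by exact_mod_cast h
      have h6 : 2 ≤ ((k : ℝ) - 2) * (k - 3) := by nlinarith
      nlinarith
  · have h3 : 0 ≤ β * A * (k - u) ^ 2 / 2 := by positivity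
    obtain h | rfl | h : k ≤ 3 ∨ k = 4 ∨ 5 ≤ k := by omega
    · have h4 : (k : ℝ) ≤ 3 := by exact_mod_cast h
      have h5 : (1 : ℝ) ≤ k := by exact_mod_cast hk
      have h6 : 4 / 5 ≤ ((k : ℝ) - 4) * (k - 19 / 5) := by nlinarith
      nlinarith
    · have h6 : 1 ≤ (4 - u) ^ 2 := by nlinarith
      have h7 : 99 / 100 ≤ β * (4 - u) ^ 2 := by nlinarith
      push_cast
      nlinarith
    · have h4 : (5 : ℝ) ≤ k := by exact_mod_cast h
      have h6 : ((k : ℝ) - 1) / 4 ≤ ((k : ℝ) - 4) * (k - 19 / 5) := by nlinarith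
      nlinarith

theorem cert_high (hA : 0 < A) (hA' : A ≤ 1 / 10) (h1 : 1 - A / 200 ≤ β) (h2 : β ≤ 1 + A / 200)
    (hu : 7 / 2 ≤ u) (hs : A / 200 ≤ 1 + s - β) : Cert β A s u (A / 200 * u / 2) := by
  have hβ : 99 / 100 ≤ β := by linarith
  have key : ∀ k : ℝ, A * ((u - k - 1) / 400) ≤ β * A * (k - u) ^ 2 / 2 := fun k => by
    have h3 : (u - k - 1) / 400 ≤ β * (k - u) ^ 2 / 2 := by
      nlinarith [sq_nonneg (k - u), sq_nonneg (k - u + 1)]
    nlinarith
  refine cert_of (by linarith) (fun k hk => ?_) fun k hk => ?_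
  · obtain h | h : k ≤ 3 ∨ 4 ≤ k := by omega
    · have h4 : (k : ℝ) ≤ 3 := by exact_mod_cast h
      have h5 := int_quad 2 k
      norm_num at h5
      have h6 : u / 100 ≤ (k - u) ^ 2 := by nlinarith
      have h7 : u / 200 ≤ β * (k - u) ^ 2 := by nlinarith
      have h8 : 0 ≤ β * (((k : ℝ) - 2) * (k - 3)) := by positivity
      nlinarith
    · have h4 : (4 : ℝ) ≤ k := by exact_mod_cast h
      have h6 : ((k : ℝ) + 1) / 4 ≤ ((k : ℝ) - 2) * (k - 3) := by nlinarith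
      nlinarith [key k]
  · have h5 : (1 : ℝ) ≤ k := by exact_mod_cast hk
    have h3 := mul_le_mul_of_nonneg_right hs (sub_nonneg.2 h5)
    obtain h | h | h : k ≤ 2 ∨ k = 3 ∨ 4 ≤ k := by omega
    · have h4 : (k : ℝ) ≤ 2 := by exact_mod_cast h
      have h6 : 1 ≤ ((k : ℝ) - 4) * (k - 19 / 5) := by nlinarith
      nlinarith [key k]
    · have h4 : (k : ℝ) = 3 := by exact_mod_cast h
      have := key k
      rw [h4] at *
      nlinarith
    · have h4 : (4 : ℝ) ≤ k := by exact_mod_cast h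
      have h6 : 0 ≤ β * (((k : ℝ) - 4) * (k - 19 / 5)) :=
        mul_nonneg (by linarith) (mul_nonneg (by linarith) (by linarith))
      nlinarith [key k]

end Crest.Agent.R149
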