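import Crest.Agent.R149.Defs

/-! Row 149: one-dimensional convex analysis. -/

set_option autoImplicit false

namespace Crest.Agent.R149

open MeasureTheory Filter Set Crest.ProbabilityR.Continuum
open scoped ENNReal Topology

section
variable {f : ℝ → ℝ} {μ π ρ : ℝ}

theorem exists_supp (hf : ConvexOn ℝ (Ici 0) f) (hρ : 0 < ρ) : ∃ μ π, Supp f μ π ρ := by
  have hi : ρ ∈ interior (Ici (0 : ℝ)) := by rw [interior_Ici]; exact hρ
  refine ⟨derivWithin f (Ioi ρ) ρ, derivWithin f (Ioi ρ) ρ * ρ - f ρ, fun u hu => ?_, by ring⟩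
  rcases lt_trichotomy u ρ with h | h | h
  · have h1 := (hf.slope_le_leftDeriv_of_mem_interior hu hi h).trans
      (hf.leftDeriv_le_rightDeriv_of_mem_interior hi)
    rw [slope_def_field, div_le_iff₀ (sub_pos.2 h)] at h1
    linarith
  · rw [h]; linarith
  · have h1 := hf.rightDeriv_le_slope_of_mem_interior hi hu h
    rw [slope_def_field, le_div_iff₀ (sub_pos.2 h)] at h1
    linarith

/-- three-point inequality for the defect -/
theorem conv_three (hf : ConvexOn ℝ (Ici 0) f) (μ π : ℝ) {x y z : ℝ} (hx : 0 ≤ x) (hxy : x < y)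
    (hyz : y < z) : (z - x) * (f y - (μ * y - π)) ≤
      (z - y) * (f x - (μ * x - π)) + (y - x) * (f z - (μ * z - π)) := by
  have := hf.secant_mono_aux1 hx (show z ∈ Ici 0 from (hx.trans (hxy.trans hyz).le)) hxy hyz
  linarith

theorem conv_closed (hf : ConvexOn ℝ (Ici 0) f) (μ π : ℝ) {a : ℝ} (ha : 0 < a) (b : ℝ) :
    IsClosed (Icc a b ∩ (fun u => f u - (μ * u - π)) ⁻¹' {0}) := by
  refine ContinuousOn.preimage_isClosed_of_isClosed ?_ isClosed_Icc isClosed_singleton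
  refine (hf.continuousOn_interior.mono fun u hu => ?_).sub (by fun_prop)
  rw [interior_Ici]
  exact ha.trans_le hu.1

theorem Supp.between (hf : ConvexOn ℝ (Ici 0) f) {a b u : ℝ} (ha0 : 0 ≤ a) (ha : Supp f μ π a)
    (hb : Supp f μ π b) (h1 : a ≤ u) (h2 : u ≤ b) : Supp f μ π u := by
  refine ⟨ha.1, ?_⟩
  rcases h1.eq_or_lt with rfl | h1
  · exact ha.2
  rcases h2.eq_or_lt with rfl | h2
  · exact hb.2
  have h3 := conv_three hf μ π ha0 h1 h2
  rw [ha.2, hb.2, sub_self, sub_self, mul_zero, mul_zero, add_zero] at h3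
  have h4 := ha.1 u (ha0.trans h1.le)
  have h5 : f u - (μ * u - π) ≤ 0 := by
    by_contra h
    have := mul_pos (sub_pos.2 (h1.trans h2)) (not_le.1 h)
    linarith
  linarith

/-- the largest contact point; `ζ = 0`, compactness (or monotonicity of the convex defect) -/
theorem exists_ext_right (hf : ConvexOn ℝ (Ici 0) f) (hρ : 0 < ρ) (hs : Supp f μ π ρ) {κ M : ℝ}
    (hκ : 0 < κ) (hM : 0 < M) (hg : ∀ u, M ≤ u → κ * u ^ 2 ≤ f u - (μ * u - π)) :
    ∃ u, ρ ≤ u ∧ u ≤ M ∧ Supp f μ π u ∧ Ext f μ π u := by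
  have hD : ∀ u, 0 ≤ u → 0 ≤ f u - (μ * u - π) := fun u hu => sub_nonneg.2 (hs.1 u hu)
  have hlt : ∀ u, f u - (μ * u - π) = 0 → u < M := by
    intro u hu
    by_contra h
    have h1 := hg u (not_lt.1 h)
    have : 0 < u := hM.trans_le (not_lt.1 h)
    have : 0 < κ * u ^ 2 := by positivity
    linarith
  set T := Icc ρ M ∩ (fun u => f u - (μ * u - π)) ⁻¹' {0} with hT
  have hρ0 : f ρ - (μ * ρ - π) = 0 := sub_eq_zero.2 hs.2
  have hne : T.Nonempty := ⟨ρ, ⟨le_rfl, (hlt ρ hρ0).le⟩, hρ0⟩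
  have hb : BddAbove T := ⟨M, fun u hu => hu.1.2⟩
  obtain ⟨⟨h1, h2⟩, h3⟩ := (conv_closed hf μ π hρ M).csSup_mem hne hb
  rw [← hT] at h1 h2 h3
  set v := sSup T with hv
  have h3 : f v - (μ * v - π) = 0 := h3
  have hv0 : 0 < v := hρ.trans_le h1
  refine ⟨v, h1, h2, ⟨hs.1, sub_eq_zero.1 h3⟩, fun ε hε => ?_⟩
  set η := min 1 (ε / (2 * v + 1)) with hη
  have η0 : 0 < η := lt_min one_pos (by positivity)
  have η1 : η ≤ 1 := min_le_left _ _
  have η2 : η * (2 * v + 1) ≤ ε := (le_div_iff₀ (by positivity)).1 (min_le_right _ _)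
  set m := f (v + η) - (μ * (v + η) - π) with hm
  have m0 : 0 < m := by
    refine (hD _ (by positivity)).lt_of_ne' fun h => ?_
    have : v + η ≤ v := le_csSup hb ⟨⟨by linarith, (hlt _ h).le⟩, h⟩
    linarith
  refine ⟨0, 1 / κ + M ^ 2 / m, le_rfl, by positivity, fun u hu => ?_⟩
  have a0 := hD u hu
  have a1 : 0 ≤ 1 / κ * (f u - (μ * u - π)) := by positivity
  have a2 : 0 ≤ M ^ 2 / m * (f u - (μ * u - π)) := by positivity
  rw [zero_mul, add_zero, add_mul]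
  rcases le_or_gt u (v + η) with h | h
  · have : u ^ 2 ≤ (v + η) ^ 2 := by gcongr
    nlinarith
  · rcases le_total M u with h' | h'
    · have : u ^ 2 ≤ 1 / κ * (f u - (μ * u - π)) := by
        rw [one_div, inv_mul_eq_div, le_div_iff₀ hκ]
        linarith [hg u h']
      nlinarith
    · have b1 := conv_three hf μ π hv0.le (lt_add_of_pos_right v η0) h
      rw [h3, ← hm] at b1
      have b2 : m ≤ f u - (μ * u - π) := by
        by_contra hc
        push Not at hc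
        nlinarith
      have b3 : M ^ 2 / m * m ≤ M ^ 2 / m * (f u - (μ * u - π)) := by gcongr
      rw [div_mul_cancel₀ _ m0.ne'] at b3
      have : u ^ 2 ≤ M ^ 2 := by gcongr
      nlinarith

/-- the smallest contact point `u`; `ζ = M + u`; the defect is antitone and positive on
`[0, u)` -/
theorem exists_ext_left (hf : ConvexOn ℝ (Ici 0) f) (hs : Supp f μ π ρ) {κ M u₀ : ℝ}
    (hκ : 0 < κ) (hM : 0 < M) (hg : ∀ u, M ≤ u → κ * u ^ 2 ≤ f u - (μ * u - π)) (h0 : 0 < u₀)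
    (h1 : u₀ ≤ ρ) (hpos : μ * u₀ - π < f u₀) :
    ∃ u, u₀ < u ∧ u ≤ ρ ∧ Supp f μ π u ∧ Ext f μ π u := by
  have hD : ∀ u, 0 ≤ u → 0 ≤ f u - (μ * u - π) := fun u hu => sub_nonneg.2 (hs.1 u hu)
  have hlt : ∀ u, f u - (μ * u - π) = 0 → u < M := by
    intro u hu
    by_contra h
    have h1 := hg u (not_lt.1 h)
    have : 0 < u := hM.trans_le (not_lt.1 h)
    have : 0 < κ * u ^ 2 := by positivity
    linarith
  set T := Icc u₀ ρ ∩ (fun u => f u - (μ * u - π)) ⁻¹' {0} with hT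
  have hρ0 : f ρ - (μ * ρ - π) = 0 := sub_eq_zero.2 hs.2
  have hne : T.Nonempty := ⟨ρ, ⟨h1, le_rfl⟩, hρ0⟩
  have hb : BddBelow T := ⟨u₀, fun u hu => hu.1.1⟩
  obtain ⟨⟨h2, h2'⟩, h3⟩ := (conv_closed hf μ π h0 ρ).csInf_mem hne hb
  rw [← hT] at h2 h2' h3
  set v := sInf T with hv
  have h3 : f v - (μ * v - π) = 0 := h3
  have hv1 : u₀ < v := h2.lt_of_ne fun e => by rw [← e] at h3; linarith
  have hv0 : 0 < v := h0.trans hv1
  have hvM : v < M := hlt v h3
  refine ⟨v, hv1, h2', ⟨hs.1, sub_eq_zero.1 h3⟩, fun ε hε => ?_⟩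
  set η := min (v - u₀) (ε / (M + v)) with hη
  have η0 : 0 < η := lt_min (sub_pos.2 hv1) (by positivity)
  have η1 : η ≤ v - u₀ := min_le_left _ _
  have η2 : η * (M + v) ≤ ε := (le_div_iff₀ (by positivity)).1 (min_le_right _ _)
  set m := f (v - η) - (μ * (v - η) - π) with hm
  have m0 : 0 < m := by
    refine (hD _ (by linarith)).lt_of_ne' fun h => ?_
    have : v ≤ v - η := csInf_le hb ⟨⟨by linarith, by linarith⟩, h⟩
    linarith
  refine ⟨M + v, 1 / κ + (M + v) * v / m, by positivity, by positivity, fun u hu => ?_⟩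
  have a0 := hD u hu
  have a1 : 0 ≤ 1 / κ * (f u - (μ * u - π)) := by positivity
  have a2 : 0 ≤ (M + v) * v / m * (f u - (μ * u - π)) := by positivity
  rw [add_mul (1 / κ)]
  rcases le_total M u with h' | h'
  · have : u ^ 2 ≤ 1 / κ * (f u - (μ * u - π)) := by
      rw [one_div, inv_mul_eq_div, le_div_iff₀ hκ]
      linarith [hg u h']
    nlinarith
  rcases le_total v u with h | h
  · nlinarith
  have c1 : u ^ 2 ≤ v ^ 2 := by gcongr
  rcases le_or_gt (v - η) u with h'' | h''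
  · nlinarith
  · have b1 := conv_three hf μ π hu h'' (sub_lt_self v η0)
    rw [h3, ← hm] at b1
    have b2 : m ≤ f u - (μ * u - π) := by
      by_contra hc
      push Not at hc
      nlinarith
    have b3 : (M + v) * v / m * m ≤ (M + v) * v / m * (f u - (μ * u - π)) := by gcongr
    rw [div_mul_cancel₀ _ m0.ne'] at b3
    nlinarith

theorem Supp.scale {a b u : ℝ} (ha : 0 < a) (hb : 0 < b)
    (h : Supp (fun u => f (u * a) / b) μ π u) : Supp f (μ * b / a) (π * b) (u * a) := by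
  constructor
  · intro v hv
    have h1 := h.1 (v / a) (by positivity)
    simp only [div_mul_cancel₀ v ha.ne'] at h1
    rw [le_div_iff₀ hb] at h1
    calc μ * b / a * v - π * b = (μ * (v / a) - π) * b := by ring
      _ ≤ f v := h1
  · have h1 := h.2
    simp only at h1
    rw [div_eq_iff hb.ne'] at h1
    rw [h1]
    field_simp

theorem Ext.scale {a b u : ℝ} (ha : 0 < a) (hb : 0 < b)
    (h : Ext (fun u => f (u * a) / b) μ π u) : Ext f (μ * b / a) (π * b) (u * a) := by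
  intro ε hε
  obtain ⟨ζ, Λ, h1, h2, h3⟩ := h (ε / a ^ 2) (by positivity)
  refine ⟨ζ * a, Λ * a ^ 2 / b, by positivity, by positivity, fun v hv => ?_⟩
  have h4 := h3 (v / a) (by positivity)
  simp only [div_mul_cancel₀ v ha.ne'] at h4
  have h5 := mul_le_mul_of_nonneg_right h4 (sq_nonneg a)
  calc v ^ 2 = (v / a) ^ 2 * a ^ 2 := by field_simp
    _ ≤ _ := h5
    _ = _ := by field_simp

end

section
variable {Γ : ℝ → ℝ → ℝ} {β u t t' : ℝ}

theorem Lo.mono (hβ : 0 < β) (h : Lo Γ β u t) (ht : t ≤ t') : Lo Γ β u t' := by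
  intro β' h1 h2
  refine (h β' h1 h2).trans ?_
  have := sub_pos.2 h2
  gcongr

theorem Hi.mono (hβ : 0 < β) (h : Hi Γ β u t) (ht : t' ≤ t) : Hi Γ β u t' := by
  intro β' h2
  refine (h β' h2).trans ?_
  have := sub_pos.2 h2
  gcongr

theorem conv_mix {f : ℝ → ℝ} (hf : ConvexOn ℝ (Ici 0) f) {μ π a b c : ℝ}
    (ha0 : 0 ≤ a) (hb0 : 0 ≤ b) (ha : Supp f μ π a) (hb : Supp f μ π b) (hc0 : 0 ≤ c)
    (hc1 : c ≤ 1) : f (c * a + (1 - c) * b) = c * f a + (1 - c) * f b := by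
  have h0 : 0 ≤ 1 - c := sub_nonneg.2 hc1
  refine le_antisymm (hf.2 ha0 hb0 hc0 h0 (by ring)) ?_
  have := ha.1 (c * a + (1 - c) * b) (by positivity)
  rw [ha.2, hb.2]
  linarith

theorem Lo.mix (hc : ∀ β, 0 < β → ConvexOn ℝ (Ici 0) (Γ β)) {μ π a b c : ℝ}
    (ha0 : 0 ≤ a) (hb0 : 0 ≤ b) (ha : Supp (Γ β) μ π a) (hb : Supp (Γ β) μ π b) (hc0 : 0 ≤ c)
    (hc1 : c ≤ 1) (hβ : 0 < β) (h1 : Lo Γ β a t) (h2 : Lo Γ β b t') :
    Lo Γ β (c * a + (1 - c) * b) (c * t + (1 - c) * t') := by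
  intro β' k1 k2
  have h0 : 0 ≤ 1 - c := sub_nonneg.2 hc1
  have e := conv_mix (hc β hβ) ha0 hb0 ha hb hc0 hc1
  have a1 : Γ β' (c * a + (1 - c) * b) ≤ c * Γ β' a + (1 - c) * Γ β' b :=
    (hc β' k1).2 ha0 hb0 hc0 h0 (by ring)
  have a2 := mul_le_mul_of_nonneg_left (h1 β' k1 k2) hc0
  have a3 := mul_le_mul_of_nonneg_left (h2 β' k1 k2) h0
  rw [e]
  refine a1.trans ((add_le_add a2 a3).trans (le_of_eq ?_))
  ring

theorem Hi.mix (hc : ∀ β, 0 < β → ConvexOn ℝ (Ici 0) (Γ β)) {μ π a b c : ℝ}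
    (ha0 : 0 ≤ a) (hb0 : 0 ≤ b) (ha : Supp (Γ β) μ π a) (hb : Supp (Γ β) μ π b) (hc0 : 0 ≤ c)
    (hc1 : c ≤ 1) (hβ : 0 < β) (h1 : Hi Γ β a t) (h2 : Hi Γ β b t') :
    Hi Γ β (c * a + (1 - c) * b) (c * t + (1 - c) * t') := by
  intro β' k2
  have h0 : 0 ≤ 1 - c := sub_nonneg.2 hc1
  have e := conv_mix (hc β hβ) ha0 hb0 ha hb hc0 hc1
  have a1 : Γ β' (c * a + (1 - c) * b) ≤ c * Γ β' a + (1 - c) * Γ β' b :=
    (hc β' (hβ.trans k2)).2 ha0 hb0 hc0 h0 (by ring)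
  have a2 := mul_le_mul_of_nonneg_left (h1 β' k2) hc0
  have a3 := mul_le_mul_of_nonneg_left (h2 β' k2) h0
  rw [e]
  refine a1.trans ((add_le_add a2 a3).trans (le_of_eq ?_))
  ring

theorem Lo.of_closure {T : Set ℝ} (hc : ContinuousAt (fun β => Γ β u) β) (hβ : 0 < β)
    (hT : β ∈ closure T) (h : ∀ x ∈ T, Lo Γ x u t) : Lo Γ β u t := by
  intro β' h1 h2
  by_contra hn
  have hF : ContinuousAt (fun x => Γ x u - (x - β') * ((Γ x u - t) / x)) β :=
    hc.sub ((continuousAt_id.sub continuousAt_const).mul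
      ((hc.sub continuousAt_const).div continuousAt_id hβ.ne'))
  obtain ⟨x, hx, a1, a2⟩ := ((mem_closure_iff_frequently.1 hT).and_eventually
    ((hF.eventually (gt_mem_nhds (not_le.1 hn))).and (lt_mem_nhds h2))).exists
  exact absurd (h x hx β' h1 a2) (not_le.2 a1)

theorem Hi.of_closure {T : Set ℝ} (hc : ContinuousAt (fun β => Γ β u) β) (hβ : 0 < β)
    (hT : β ∈ closure T) (h : ∀ x ∈ T, Hi Γ x u t) : Hi Γ β u t := by
  intro β' h2
  by_contra hn
  have hF : ContinuousAt (fun x => Γ x u + (β' - x) * ((Γ x u - t) / x)) β :=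
    hc.add ((continuousAt_const.sub continuousAt_id).mul
      ((hc.sub continuousAt_const).div continuousAt_id hβ.ne'))
  obtain ⟨x, hx, a1, a2⟩ := ((mem_closure_iff_frequently.1 hT).and_eventually
    ((hF.eventually (gt_mem_nhds (not_le.1 hn))).and (gt_mem_nhds h2))).exists
  exact absurd (h x hx β' a2) (not_le.2 a1)

/-- `βc = sSup {β ∈ [lo, hi] | Lo}`; `Lo` passes to limits from the left and `Hi` to limits from
the right (a concave function is continuous on `Ioi 0`), so both hold at `βc`.  One-sided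
derivatives of a concave function exist (`ConvexOn.hasDerivWithinAt_leftDeriv_of_mem_interior`,
`…rightDeriv…` for the negative); `Dl ≥ -θ₁ / βc²`, `Dr ≤ -θ₂ / βc²`. -/
theorem kink {I : Set ℝ} {lo hi θ₁ θ₂ : ℝ} (h0 : 0 < lo) (hlh : lo ≤ hi) (hθ : θ₁ < θ₂)
    (hc : ∀ u ∈ I, ConcaveOn ℝ (Ioi 0) fun β => Γ β u)
    (hd : ∀ β, lo ≤ β → β ≤ hi → (∀ u ∈ I, Lo Γ β u θ₁) ∨ ∀ u ∈ I, Hi Γ β u θ₂)
    (hlo : ∀ u ∈ I, Lo Γ lo u θ₁) (hhi : ∀ u ∈ I, Hi Γ hi u θ₂) :
    ∃ βc, lo ≤ βc ∧ βc ≤ hi ∧ ∀ u ∈ I, ∃ Dl Dr : ℝ,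
      HasDerivWithinAt (fun β => Γ β u / β) Dl (Iio βc) βc ∧
      HasDerivWithinAt (fun β => Γ β u / β) Dr (Ioi βc) βc ∧ Dr < Dl := by
  set T : Set ℝ := {β | β ∈ Icc lo hi ∧ ∀ u ∈ I, Lo Γ β u θ₁} with hT
  have hlo' : lo ∈ T := ⟨⟨le_rfl, hlh⟩, hlo⟩
  have hb : BddAbove T := ⟨hi, fun x hx => hx.1.2⟩
  have h1 : lo ≤ sSup T := le_csSup hb hlo'
  have h2 : sSup T ≤ hi := csSup_le ⟨lo, hlo'⟩ fun x hx => hx.1.2
  have hcl : sSup T ∈ closure T := csSup_mem_closure ⟨lo, hlo'⟩ hb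
  have hup : ∀ x, sSup T < x → x ∉ T := fun x hx hxT => absurd (le_csSup hb hxT) (not_le.2 hx)
  generalize sSup T = b at h1 h2 hcl hup
  have hb0 : 0 < b := h0.trans_le h1
  refine ⟨b, h1, h2, fun u hu => ?_⟩
  have hcont : ContinuousAt (fun β => Γ β u) b :=
    ((hc u hu).continuousOn isOpen_Ioi).continuousAt (Ioi_mem_nhds hb0)
  have hL : Lo Γ b u θ₁ := Lo.of_closure hcont hb0 hcl fun x hx => hx.2 u hu
  have hH : Hi Γ b u θ₂ := by
    rcases h2.eq_or_lt with e | hlt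
    · rw [e]; exact hhi u hu
    · refine Hi.of_closure (T := Ioc b hi) hcont hb0 ?_ fun x hx => ?_
      · rw [closure_Ioc hlt.ne]; exact ⟨le_rfl, h2⟩
      · have hx' : lo ≤ x := h1.trans hx.1.le
        rcases hd x hx' hx.2 with h | h
        · exact absurd ⟨⟨hx', hx.2⟩, h⟩ (hup x hx.1)
        · exact h u hu
  have hi' : b ∈ interior (Ioi (0 : ℝ)) := by rw [interior_Ioi]; exact hb0
  obtain ⟨dl, hdl⟩ : ∃ d, HasDerivWithinAt (fun β => Γ β u) d (Iio b) b :=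
    ⟨_, by simpa using ((hc u hu).neg.hasDerivWithinAt_leftDeriv_of_mem_interior hi').neg⟩
  obtain ⟨dr, hdr⟩ : ∃ d, HasDerivWithinAt (fun β => Γ β u) d (Ioi b) b :=
    ⟨_, by simpa using ((hc u hu).neg.hasDerivWithinAt_rightDeriv_of_mem_interior hi').neg⟩
  have k1 : (Γ b u - θ₁) / b ≤ dl := by
    refine ge_of_tendsto ((hasDerivWithinAt_iff_tendsto_slope' self_notMem_Iio).1 hdl) ?_
    filter_upwards [Ioo_mem_nhdsLT hb0] with x hx
    have := hL x hx.1 hx.2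
    rw [slope_def_field, le_div_iff_of_neg (sub_neg.2 hx.2)]
    linarith
  have k2 : dr ≤ (Γ b u - θ₂) / b := by
    refine le_of_tendsto ((hasDerivWithinAt_iff_tendsto_slope' self_notMem_Ioi).1 hdr) ?_
    filter_upwards [self_mem_nhdsWithin] with x hx
    have := hH x hx
    rw [slope_def_field, div_le_iff₀ (sub_pos.2 hx)]
    linarith
  have k3 : (Γ b u - θ₂) / b < (Γ b u - θ₁) / b := by gcongr
  refine ⟨_, _, hdl.div (hasDerivWithinAt_id b _) hb0.ne',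
    hdr.div (hasDerivWithinAt_id b _) hb0.ne', ?_⟩
  have k4 : dr < dl := by linarith
  gcongr

end

end Crest.Agent.R149
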