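import Mathlib
import Crest.Prelude.Def_PairPotential
import Crest.Prelude.Def_UnitPacking

/-! # Row 149 (a first-order phase transition for a radial pair potential in `ℝ³`): definitions

The potential is `φ = φ0 - J`.  `φ0 ≥ 0` has range `< 2`: a plateau `K` up to distance `σ`, lowered
by `c` below the tiny distance `δ`.  `J = ∑ a i * Jk (R i)` is a lacunary attractive tail.
* `Thermo`: the free energy density `g φ β ρ` exists, is convex in `ρ` and concave in `β`.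
* `Homog`: at an extreme point `ρ` of `g φ β ·` typical configurations are homogeneous at all
  scales (cut into tiles, sort the tiles by occupation number), so `En J ≤ (∑ a) (ρ²/2 + ε) L³`.
* `Facts`: Caro–Wei (`∑ 1/(deg+1) ≤` packing number) then gives the mean-field lower bound; trial
  states with 2, 3 (loose) or 4 (tight) particles per packing site give upper bounds.
* `Phase`: convex analysis turns this into a jump of `∂_β`. -/

set_option autoImplicit false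

namespace Crest.Agent.R149

open MeasureTheory Filter Set Crest.ProbabilityR.Continuum
open scoped ENNReal Topology

noncomputable section

/-! ### Energies and partition functions -/

section
variable {A ι : Type*} [Fintype A] [DecidableEq A] [DecidableEq ι]

/-- pair energy, for any finite label type -/
def En (φ : ℝ → ℝ) (x : A → Pt) : ℝ :=
  (∑ a, ∑ b, if a = b then 0 else φ (dist (x a) (x b))) / 2

/-- the part of the energy inside the classes of `τ` -/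
def EnI (φ : ℝ → ℝ) (τ : A → ι) (x : A → Pt) : ℝ :=
  (∑ a, ∑ b, if a = b ∨ τ a ≠ τ b then 0 else φ (dist (x a) (x b))) / 2

/-- the part of the energy between different classes of `τ` -/
def Cr (φ : ℝ → ℝ) (τ : A → ι) (x : A → Pt) : ℝ :=
  (∑ a, ∑ b, if τ a = τ b then 0 else φ (dist (x a) (x b))) / 2

/-- size of a class -/
def cnt (τ : A → ι) (i : ι) : ℕ := (Finset.univ.filter fun a => τ a = i).card

/-- number of ordered pairs in the same class (`= ∑ cnt²`) -/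
def Nn (τ : A → ι) : ℝ := ∑ a, ∑ b, if τ a = τ b then 1 else 0

open Classical in
/-- number of particles at distance `< σ` from particle `a`, itself included -/
def kd (σ : ℝ) (x : A → Pt) (a : A) : ℕ := (Finset.univ.filter fun b => dist (x a) (x b) < σ).card

open Classical in
/-- number of other particles at distance `< δ` from particle `a` -/
def td (δ : ℝ) (x : A → Pt) (a : A) : ℕ :=
  (Finset.univ.filter fun b => b ≠ a ∧ dist (x a) (x b) < δ).card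

/-- number of ordered pairs (diagonal included) at distance `< 1` -/
def P1 (x : A → Pt) : ℝ := ∑ a, (kd 1 x a : ℝ)

/-- the "number of tightly bound particles" -/
def Mt (δ : ℝ) (x : A → Pt) : ℝ := ∑ a, (td δ x a : ℝ) / (td δ x a + 1)

/-- the points `x a` lie in the (closed) cells `τ a` of the grid of mesh `h` shifted by `-s` -/
def InG (h s : ℝ) (τ : A → Fin 3 → ℤ) (x : A → Pt) : Prop :=
  ∀ a i, (τ a i : ℝ) * h ≤ x a i + s ∧ x a i + s ≤ (τ a i : ℝ) * h + h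

end

/-- configurations in `Λ` -/
def box (Λ : Set Pt) (N : ℕ) : Set (Fin N → Pt) := Set.pi univ fun _ => Λ

/-- Boltzmann weight -/
def bw (φ : ℝ → ℝ) (β : ℝ) {N : ℕ} (x : Fin N → Pt) : ℝ≥0∞ :=
  ENNReal.ofReal (Real.exp (-β * En φ x))

/-- partition function restricted to the (arbitrary) event `E` -/
def ZA (φ : ℝ → ℝ) (β : ℝ) (Λ : Set Pt) (N : ℕ) (E : Set (Fin N → Pt)) : ℝ≥0∞ :=
  (N.factorial : ℝ≥0∞)⁻¹ * ∫⁻ x in E ∩ box Λ N, bw φ β x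

/-- partition function -/
def Zr (φ : ℝ → ℝ) (β : ℝ) (Λ : Set Pt) (N : ℕ) : ℝ≥0∞ := ZA φ β Λ N univ

/-- `- log Z` in the cube -/
def fe (φ : ℝ → ℝ) (β L : ℝ) (N : ℕ) : ℝ := -Real.log (Zr φ β (cube L) N).toReal

/-- admissible potentials: measurable, stable, nonpositive beyond distance `2` -/
structure Adm (φ : ℝ → ℝ) : Prop where
  meas : Measurable φ
  stable : ∃ B : ℝ, 0 ≤ B ∧ ∀ (N : ℕ) (x : Fin N → Pt), -B * N ≤ En φ x
  neg : ∀ r, 2 ≤ r → φ r ≤ 0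

/-- chord values of the finite-volume free energies -/
def chords (φ : ℝ → ℝ) (β ρ : ℝ) : Set ℝ :=
  {v | ∃ (L t : ℝ) (N₁ N₂ : ℕ), 0 < L ∧ 0 ≤ t ∧ t ≤ 1 ∧
    t * N₁ + (1 - t) * N₂ = ρ * (L + 2) ^ 3 ∧
    v = (t * fe φ β L N₁ + (1 - t) * fe φ β L N₂) / (L + 2) ^ 3}

/-- `β` times the free energy density -/
def g (φ : ℝ → ℝ) (β ρ : ℝ) : ℝ := sInf (chords φ β ρ)

/-- configurations at density `ρ` in the cube of side `L` -/
abbrev Cf (ρ L : ℝ) : Type := Fin ⌊ρ * L ^ 3⌋₊ → Pt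

/-- exponentially negligible events -/
def Neg (φ : ℝ → ℝ) (β ρ : ℝ) (E : ∀ L : ℝ, Set (Cf ρ L)) : Prop :=
  ∃ c : ℝ, 0 < c ∧ ∀ᶠ L in atTop,
    ZA φ β (cube L) ⌊ρ * L ^ 3⌋₊ (E L) ≤ ENNReal.ofReal (Real.exp (-(g φ β ρ + c) * L ^ 3))

/-! ### Tiles -/

/-- cast of a tile index -/
def ix {m : ℕ} (d : Fin 3 → Fin m) : Fin 3 → ℤ := fun i => ((d i : ℕ) : ℤ)

/-- index of the tile of side `l` (grid shifted by `-s`) containing `y` -/
def lab (l s : ℝ) (k : ℕ) (y : Pt) : Fin 3 → Fin (k + 2) :=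
  fun i => Fin.ofNat (k + 2) ⌊(y i + s) / l⌋₊

/-- labels of a configuration in the cube of side `L` -/
def labs {N : ℕ} (l s L : ℝ) (x : Fin N → Pt) : Fin N → Fin 3 → Fin (⌊L / l⌋₊ + 2) :=
  fun a => lab l s ⌊L / l⌋₊ (x a)

/-- the point with coordinates `h * d` -/
def pos {m : ℕ} (h : ℝ) (d : Fin 3 → Fin m) : Pt := WithLp.toLp 2 fun i => ((d i : ℕ) : ℝ) * h

/-- new position of the tile `d` when the tiles are sorted by `ν` (lexicographic order):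
`ν ∘ (sp ν).symm ∘ finFunctionFinEquiv.symm` is monotone -/
def sp {m : ℕ} (ν : (Fin 3 → Fin m) → ℕ) : Equiv.Perm (Fin 3 → Fin m) :=
  finFunctionFinEquiv.trans
    ((Tuple.sort (ν ∘ finFunctionFinEquiv.symm)).symm.trans finFunctionFinEquiv.symm)

/-- the translation vector moving the tile `d` to the slot `π d` of the grid of mesh `l + 2` -/
def mv {m : ℕ} (l s : ℝ) (π : Equiv.Perm (Fin 3 → Fin m)) (d : Fin 3 → Fin m) : Pt :=
  pos (l + 2) (π d) - pos l d + WithLp.toLp 2 fun _ => s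

/-- the sorted configuration (tiles sorted by occupation number, corridors of width `2`) -/
def srt {N : ℕ} (l s L : ℝ) (x : Fin N → Pt) : Fin N → Pt :=
  fun a => x a + mv l s (sp (cnt (labs l s L x))) (labs l s L x a)

/-- total convexity defect of the tile densities -/
def DS {N : ℕ} (D : ℝ → ℝ) (l s L : ℝ) (x : Fin N → Pt) : ℝ :=
  ∑ d : Fin 3 → Fin (⌊L / l⌋₊ + 2), (l + 2) ^ 3 * D (cnt (labs l s L x) d / (l + 2) ^ 3)

/-! ### The long-range kernel -/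

/-- clamp to `[0, 1]` -/
def ramp (t : ℝ) : ℝ := min 1 (max 0 t)

/-- normalisation of the kernel -/
def iota : ℝ := ∫ y : Pt, ramp (1 - ‖y‖)

/-- the kernel of range `R` and integral one -/
def Jk (R r : ℝ) : ℝ := ramp (1 - r / R) / (iota * R ^ 3)

/-- Euclidean norm of a lattice vector -/
def zn (d : Fin 3 → ℤ) : ℝ := ‖(WithLp.toLp 2 fun i => (d i : ℝ) : Pt)‖

/-- constant of the lattice sum estimates -/
def CJ : ℝ := 4 * (volume (Metric.ball (0 : Pt) 5)).toReal / iota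

/-- constant of the crude bound `En (Jk R) ≤ CW * P1` -/
def CW : ℝ := 4 + 2 * CJ

/-- A short-range repulsion with a lacunary attractive tail.  Level `j` uses tiles of side `l j`,
`R i ≤ Q j ≪ l j` for `i < j`, and `l j ≪ R j`. -/
structure Sys where
  φ0 : ℝ → ℝ
  κ : ℝ
  a : ℕ → ℝ
  R : ℕ → ℝ
  Q : ℕ → ℝ
  l : ℕ → ℝ
  meas0 : Measurable φ0
  nonneg0 : ∀ r, 0 ≤ φ0 r
  zero0 : ∀ r, 2 ≤ r → φ0 r = 0
  core0 : ∀ r, r < 1 → κ ≤ φ0 r
  κ_ge : 1 ≤ κ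
  a_pos : ∀ i, 0 < a i
  a_sum : Summable a
  small : 4 * CW * ∑' i, a i ≤ κ
  R_mono : Monotone R
  Q_ge : ∀ j, 1 ≤ Q j
  R_le_Q : ∀ j i, i < j → R i ≤ Q j
  Q_le : ∀ j, 2 * Q j ≤ l j
  l_le : ∀ j, 3 * l j ≤ R j
  r_lim : Tendsto (fun j => Q j / l j + l j / R j) atTop (𝓝 0)

namespace Sys
variable (S : Sys)

/-- the attractive tail -/
def J (r : ℝ) : ℝ := ∑' i, S.a i * Jk (S.R i) r
/-- the terms `i < j` -/
def Jlo (j : ℕ) (r : ℝ) : ℝ := ∑ i ∈ Finset.range j, S.a i * Jk (S.R i) r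
/-- the potential -/
def φ (r : ℝ) : ℝ := S.φ0 r - S.J r
def tail (j : ℕ) : ℝ := ∑' i, S.a (i + j)
def r (j : ℕ) : ℝ := S.Q j / S.l j + S.l j / S.R j
def d (j : ℕ) : ℝ := ((S.tail j / S.κ) ^ 2 + S.r j) / (S.a (j + 1) / S.κ)
/-- energy of the `i`-th kernel -/
def W (i : ℕ) {N : ℕ} (x : Fin N → Pt) : ℝ := En (Jk (S.R i)) x
/-- number of shifts at level `j` -/
def ns (j : ℕ) : ℕ := ⌊S.l j / S.Q j⌋₊
/-- the `n`-th shift at level `j` -/
def sh (j n : ℕ) : ℝ := n * (S.l j / S.ns j)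

end Sys

/-! ### Convex analysis -/

/-- `u ↦ μ u - π` supports `f` at `ρ` -/
def Supp (f : ℝ → ℝ) (μ π ρ : ℝ) : Prop := (∀ u, 0 ≤ u → μ * u - π ≤ f u) ∧ f ρ = μ * ρ - π

/-- `ρ` is an end point of the contact set, in dual form -/
def Ext (f : ℝ → ℝ) (μ π ρ : ℝ) : Prop :=
  ∀ ε : ℝ, 0 < ε → ∃ ζ Λ : ℝ, 0 ≤ ζ ∧ 0 ≤ Λ ∧
    ∀ u, 0 ≤ u → u ^ 2 ≤ ρ ^ 2 + ε + ζ * (u - ρ) + Λ * (f u - (μ * u - π))

/-- `β ∂⁻Γ ≥ Γ - t` -/
def Lo (Γ : ℝ → ℝ → ℝ) (β u t : ℝ) : Prop :=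
  ∀ β', 0 < β' → β' < β → Γ β' u ≤ Γ β u - (β - β') * ((Γ β u - t) / β)

/-- `β ∂⁺Γ ≤ Γ - t` -/
def Hi (Γ : ℝ → ℝ → ℝ) (β u t : ℝ) : Prop :=
  ∀ β', β < β' → Γ β' u ≤ Γ β u + (β' - β) * ((Γ β u - t) / β)

/-- the common tangent of the phases `2` and `3` (`B = 21/25`) -/
def lin (β A u : ℝ) : ℝ := β * (84 / 25 - A) * u / 2 - 63 / 25 * β

/-- dual certificate for the per-particle free energy (`B = 21/25`, `γ = 16/25`) -/
def Cert (β A s u m : ℝ) : Prop :=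
  ∀ k t : ℕ, t + 1 ≤ k →
    (β * A * u + β * (84 / 25 - A) / 2) - (β * A * u ^ 2 / 2 + 63 / 25 * β - m) / k ≤
      β * (A + 21 / 25) * (k - 1) / 2 - β * (16 / 25) * t / 2 + (1 + s) * (t / (t + 1))

/-- what is known at an extreme point `u` of the normalised free energy -/
structure ExtFacts (Γ : ℝ → ℝ → ℝ) (A w ε β u : ℝ) : Prop where
  low : u ≤ 7 / 2 → -ε ≤ Γ β u - lin β A u
  gap : 9 / 4 ≤ u → u ≤ 11 / 4 → w - ε ≤ Γ β u - lin β A u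
  high : 7 / 2 ≤ u → -(2 * w * u) - ε ≤ Γ β u - lin β A u
  hot : β = 1 - w → 7 / 2 ≤ u → w * u / 2 - ε ≤ Γ β u - lin β A u
  loose : u ≤ 7 / 2 → Γ β u - lin β A u ≤ 7 * ε → Lo Γ β u (17 * ε / w)
  tight : 7 / 2 ≤ u → Γ β u - lin β A u ≤ 3 * ε * u → Hi Γ β u (u / 8 - ε)

/-- everything the convex analysis needs -/
structure Facts (Γ : ℝ → ℝ → ℝ) (A w ε : ℝ) : Prop where
  A_pos : 0 < A
  A_le : A ≤ 1 / 10
  w_eq : w = A / 200
  ε_pos : 0 < ε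
  ε_le : ε ≤ w / 2000
  cvx : ∀ β, 0 < β → ConvexOn ℝ (Ici 0) (Γ β)
  ccv : ∀ u, 0 ≤ u → ConcaveOn ℝ (Ioi 0) fun β => Γ β u
  crude : ∀ β, 1 / 2 ≤ β → β ≤ 2 → ∀ u, 0 ≤ u → u ^ 2 / 600 - u / 2 - 1 / 10 ≤ Γ β u
  two : ∀ β, 1 / 2 ≤ β → β ≤ 2 → Γ β 2 - lin β A 2 ≤ ε
  three : ∀ β, 1 / 2 ≤ β → β ≤ 2 → Γ β 3 - lin β A 3 ≤ ε
  four : ∀ β, 1 / 2 ≤ β → β ≤ 2 → Γ β 4 - lin β A 4 ≤ 3 * (1 - β) + ε
  any : ∀ β, 1 / 2 ≤ β → β ≤ 2 → ∀ u, 0 < u → u ≤ 30000 → Hi Γ β u (-ε)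
  ext : ∀ β, 1 - w ≤ β → β ≤ 1 + w → ∀ μ π u, 0 < u → u ≤ 30000 → |μ| ≤ 30000 → |π| ≤ 30000 →
    Supp (Γ β) μ π u → Ext (Γ β) μ π u → ExtFacts Γ A w ε β u

/-! ### The model -/

/-- The system with the data of the Caro–Wei analysis.  Energies are measured in units of
`lam = log (1 / |B_δ|)`, densities in units of `p'`; `e` is the basic small error. -/
structure Mod extends Sys where
  σ : ℝ
  δ : ℝ
  τ : ℝ
  lam : ℝ
  p' : ℝ
  A : ℝ
  e : ℝ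
  X : Finset Pt
  δ_pos : 0 < δ
  δ_le : δ ≤ σ
  τ_pos : 0 < τ
  A_pos : 0 < A
  A_le : A ≤ 1 / 10
  e_pos : 0 < e
  e_le : e ≤ A / 10 ^ 17
  lam_ge : 1 ≤ e * lam
  p'_ge : 3 / 5 ≤ p'
  p'_le : p' ≤ 8
  κ_eq : κ = lam * (A + 1 / 5)
  a_eq : ∑' i, a i = lam * A / p'
  vol : volume (Metric.ball (0 : Pt) δ) ≤ ENNReal.ofReal (Real.exp (-lam))
  lower0 : ∀ r, (if r < σ then lam * (A + 21 / 25) else 0) -
    (if r < δ then lam * (16 / 25) else 0) ≤ φ0 r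
  pack : ∀ᶠ L in atTop, ∀ Y : Finset Pt, (∀ y ∈ Y, y ∈ cube L) →
    (∀ y ∈ Y, ∀ z ∈ Y, y ≠ z → σ ≤ dist y z) → (Y.card : ℝ) ≤ (1 + e) * p' * L ^ 3
  hom : ∀ β ρ μ π : ℝ, 1 / 2 ≤ β → β ≤ 2 → 0 < ρ → ρ ≤ 10 ^ 7 → |μ| ≤ 10 ^ 7 * κ →
    |π| ≤ 10 ^ 7 * κ → Supp (g toSys.φ β) μ π ρ → Ext (g toSys.φ β) μ π ρ →
    Neg toSys.φ β ρ fun L => {x | (∑' i, a i) * (ρ ^ 2 / 2 + 1 / 10 ^ 8) * L ^ 3 < En toSys.J x}
  r0 : (CJ + iota⁻¹ + 1) * toSys.r 0 ≤ 1 / 10 ^ 9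
  X_card : (X.card : ℝ) = p' * (l 0 + 2) ^ 3
  X_mem : ∀ y ∈ X, Metric.ball y τ ⊆ cube (l 0)
  X_sep : ∀ y ∈ X, ∀ z ∈ X, y ≠ z → ∀ y' ∈ Metric.ball y τ, ∀ z' ∈ Metric.ball z τ,
    y' ≠ z' ∧ φ0 (dist y' z') = 0
  site2 : ∀ β, 1 / 2 ≤ β → β ≤ 2 → ENNReal.ofReal (Real.exp (-(lam * (β * (A + 21 / 25) + e)))) ≤
    Zr φ0 β (Metric.ball 0 τ) 2
  site3 : ∀ β, 1 / 2 ≤ β → β ≤ 2 →
    ENNReal.ofReal (Real.exp (-(lam * (3 * β * (A + 21 / 25) + e)))) ≤ Zr φ0 β (Metric.ball 0 τ) 3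
  site4 : ∀ β, 1 / 2 ≤ β → β ≤ 2 →
    ENNReal.ofReal (Real.exp (-(lam * (6 * β * (A + 1 / 5) + 3 + e)))) ≤
      Zr φ0 β (Metric.ball 0 τ) 4

/-- the normalised free energy -/
def Mod.Γ (M : Mod) (β u : ℝ) : ℝ := g M.toSys.φ β (u * M.p') / (M.lam * M.p')

/-- the short-range potential without its core -/
def φc0 (K c σ τ δ r : ℝ) : ℝ := K * ramp ((σ + τ - r) / τ) - c * ramp (2 - 2 * r / δ)

end

end Crest.Agent.R149
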