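import Crest.Agent.R149.Thermo

/-! Row 149: negligible events. -/

set_option autoImplicit false

namespace Crest.Agent.R149

open MeasureTheory Filter Set Crest.ProbabilityR.Continuum
open scoped ENNReal Topology

variable {φ : ℝ → ℝ} {β ρ : ℝ} {E E' : ∀ L : ℝ, Set (Cf ρ L)}

theorem eventually_exp_add_le (a : ℝ) {c c' : ℝ} (hc : 0 < c) (hc' : 0 < c') :
    ∀ᶠ L : ℝ in atTop, ENNReal.ofReal (Real.exp (-(a + c) * L ^ 3)) +
      ENNReal.ofReal (Real.exp (-(a + c') * L ^ 3)) ≤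
        ENNReal.ofReal (Real.exp (-(a + min c c' / 2) * L ^ 3)) := by
  have hm : 0 < min c c' / 2 := half_pos (lt_min hc hc')
  have ht : Tendsto (fun L : ℝ => min c c' / 2 * L ^ 3) atTop atTop :=
    (tendsto_pow_atTop three_ne_zero).const_mul_atTop hm
  filter_upwards [ht.eventually_ge_atTop 1, eventually_ge_atTop 0] with L h1 hL
  rw [← ENNReal.ofReal_add (Real.exp_pos _).le (Real.exp_pos _).le]
  refine ENNReal.ofReal_le_ofReal ?_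
  have hL3 : 0 ≤ L ^ 3 := by positivity
  have a1 : Real.exp (-(a + c) * L ^ 3) ≤ Real.exp (-(a + min c c') * L ^ 3) :=
    Real.exp_le_exp.2 (mul_le_mul_of_nonneg_right (by linarith [min_le_left c c']) hL3)
  have a2 : Real.exp (-(a + c') * L ^ 3) ≤ Real.exp (-(a + min c c') * L ^ 3) :=
    Real.exp_le_exp.2 (mul_le_mul_of_nonneg_right (by linarith [min_le_right c c']) hL3)
  have a3 : Real.exp (-(a + min c c' / 2) * L ^ 3) =
      Real.exp (min c c' / 2 * L ^ 3) * Real.exp (-(a + min c c') * L ^ 3) := by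
    rw [← Real.exp_add]
    congr 1
    ring
  have a4 : 2 ≤ Real.exp (min c c' / 2 * L ^ 3) := by
    linarith [Real.add_one_le_exp (min c c' / 2 * L ^ 3)]
  have a5 := mul_le_mul_of_nonneg_right a4 (Real.exp_pos (-(a + min c c') * L ^ 3)).le
  linarith

theorem ZA_empty (φ : ℝ → ℝ) (β : ℝ) (Λ : Set Pt) (N : ℕ) : ZA φ β Λ N ∅ = 0 := by
  simp [ZA]

theorem Neg.mono (h : Neg φ β ρ E') (hE : ∀ᶠ L in atTop, E L ∩ box (cube L) _ ⊆ E' L) :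
    Neg φ β ρ E := by
  obtain ⟨c, hc, h⟩ := h
  refine ⟨c, hc, ?_⟩
  filter_upwards [h, hE] with L h1 h2
  exact (ZA_mono h2).trans h1

theorem neg_empty (φ : ℝ → ℝ) (β ρ : ℝ) : Neg φ β ρ fun _ => ∅ :=
  ⟨1, one_pos, Eventually.of_forall fun L => by rw [ZA_empty]; exact zero_le⟩

theorem Neg.union (h : Neg φ β ρ E) (h' : Neg φ β ρ E') : Neg φ β ρ fun L => E L ∪ E' L := by
  obtain ⟨c, hc, h⟩ := h
  obtain ⟨c', hc', h'⟩ := h'
  refine ⟨min c c' / 2, half_pos (lt_min hc hc'), ?_⟩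
  filter_upwards [h, h', eventually_exp_add_le (g φ β ρ) hc hc'] with L h1 h2 h3
  exact ZA_union_le.trans ((add_le_add h1 h2).trans h3)

theorem Neg.biUnion {κ : Type*} (s : Finset κ) {F : κ → ∀ L : ℝ, Set (Cf ρ L)}
    (h : ∀ i ∈ s, Neg φ β ρ (F i)) : Neg φ β ρ fun L => ⋃ i ∈ s, F i L := by
  classical
  induction s using Finset.induction_on with
  | empty => simpa using neg_empty φ β ρ
  | insert a s _ ih =>
    simp only [Finset.set_biUnion_insert]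
    exact (h a (Finset.mem_insert_self _ _)).union
      (ih fun i hi => h i (Finset.mem_insert_of_mem hi))

/-- the complement of a negligible event carries the free energy -/
theorem Neg.le_compl (hφ : Adm φ) (hβ : 0 < β) (hρ : 0 ≤ ρ) (h : Neg φ β ρ E) {ε : ℝ}
    (hε : 0 < ε) : ∀ᶠ L in atTop, ENNReal.ofReal (Real.exp (-(g φ β ρ + ε) * L ^ 3)) ≤
      ZA φ β (cube L) ⌊ρ * L ^ 3⌋₊ (E L)ᶜ := by
  obtain ⟨c, hc, h⟩ := h
  filter_upwards [h, eventually_exp_add_le (g φ β ρ) hc hε, eventually_gt_atTop 0,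
    hφ.eventually_fe_le_g hβ hρ (half_pos (lt_min hc hε))] with L h1 h2 hL h3
  rw [hφ.fe_le_iff hβ hL, ← neg_mul] at h3
  have h4 : Zr φ β (cube L) ⌊ρ * L ^ 3⌋₊ ≤
      ZA φ β (cube L) ⌊ρ * L ^ 3⌋₊ (E L) + ZA φ β (cube L) ⌊ρ * L ^ 3⌋₊ (E L)ᶜ := by
    rw [Zr, ← union_compl_self (E L)]
    exact ZA_union_le
  exact (ENNReal.add_le_add_iff_left ENNReal.ofReal_ne_top).1
    (h2.trans (h3.trans (h4.trans (add_le_add h1 le_rfl))))

theorem Neg.exists (hφ : Adm φ) (hβ : 0 < β) (hρ : 0 ≤ ρ) (h : Neg φ β ρ E) :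
    ∀ᶠ L in atTop, ∃ x ∈ box (cube L) ⌊ρ * L ^ 3⌋₊, x ∉ E L := by
  filter_upwards [h.le_compl hφ hβ hρ one_pos] with L h1
  by_contra hn
  have h2 : (E L)ᶜ ∩ box (cube L) ⌊ρ * L ^ 3⌋₊ ⊆ ∅ := fun x hx => hn ⟨x, hx.2, hx.1⟩
  have h3 := h1.trans (ZA_mono h2)
  rw [ZA_empty] at h3
  exact absurd h3 (not_le.2 (ENNReal.ofReal_pos.2 (Real.exp_pos _)))

theorem Neg.g_le (hφ : Adm φ) (hβ : 0 < β) (hρ : 0 ≤ ρ) (h : Neg φ β ρ E) {β' y : ℝ}
    (h0 : 0 < β') (he : ∀ᶠ L in atTop, ∀ x ∈ box (cube L) ⌊ρ * L ^ 3⌋₊, x ∉ E L →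
      y * L ^ 3 + β' * En φ x ≤ β * En φ x) : g φ β' ρ ≤ g φ β ρ - y := by
  refine le_of_forall_pos_le_add fun ε hε => ?_
  refine le_of_tendsto (hφ.tendsto_fe h0 hρ) ?_
  filter_upwards [h.le_compl hφ hβ hρ hε, he, eventually_gt_atTop 0] with L h1 h2 hL
  have h3 := ZA_le_mul (φ := φ) (β := β) (Λ := cube L) (E := (E L)ᶜ) hφ.meas
    (β' := β') (y := y * L ^ 3) fun x hx => h2 x hx.2 hx.1
  have h4 : ZA φ β' (cube L) ⌊ρ * L ^ 3⌋₊ (E L)ᶜ ≤ Zr φ β' (cube L) ⌊ρ * L ^ 3⌋₊ :=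
    ZA_mono (subset_univ _)
  have h5 := h1.trans (h3.trans (mul_le_mul_right h4 _))
  rw [hφ.Zr_eq h0 hL, ← ENNReal.ofReal_mul (Real.exp_pos _).le, ← Real.exp_add,
    ENNReal.ofReal_le_ofReal_iff (Real.exp_pos _).le, Real.exp_le_exp] at h5
  rw [div_le_iff₀ (by positivity)]
  linarith

/-- `ZA_le_mul` on the complement -/
theorem Neg.slope_lo (hφ : Adm φ) (hβ : 0 < β) (hρ : 0 ≤ ρ) (h : Neg φ β ρ E) {e : ℝ}
    (he : ∀ᶠ L in atTop, ∀ x ∈ box (cube L) ⌊ρ * L ^ 3⌋₊, x ∉ E L → e * L ^ 3 ≤ En φ x)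
    {β' : ℝ} (h0 : 0 < β') (h1 : β' < β) : g φ β' ρ ≤ g φ β ρ - (β - β') * e := by
  refine h.g_le hφ hβ hρ h0 (he.mono fun L hL x hx hx' => ?_)
  have := mul_le_mul_of_nonneg_left (hL x hx hx') (sub_pos.2 h1).le
  linarith

theorem Neg.slope_hi (hφ : Adm φ) (hβ : 0 < β) (hρ : 0 ≤ ρ) (h : Neg φ β ρ E) {e : ℝ}
    (he : ∀ᶠ L in atTop, ∀ x ∈ box (cube L) ⌊ρ * L ^ 3⌋₊, x ∉ E L → En φ x ≤ e * L ^ 3)
    {β' : ℝ} (h1 : β < β') : g φ β' ρ ≤ g φ β ρ + (β' - β) * e := by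
  rw [← sub_neg_eq_add]
  refine h.g_le hφ hβ hρ (hβ.trans h1) (he.mono fun L hL x hx hx' => ?_)
  have := mul_le_mul_of_nonneg_left (hL x hx hx') (sub_pos.2 h1).le
  linarith

theorem neg_energy (φ : ℝ → ℝ) (β ρ : ℝ) :
    Neg φ β ρ fun L => {x | (g φ β ρ + 2) * L ^ 3 ≤ β * En φ x} := by
  refine ⟨1, one_pos, ?_⟩
  filter_upwards [eventually_ge_atTop 0] with L hL
  refine (ZA_le_of_energy (y := (g φ β ρ + 2) * L ^ 3) hL fun x hx => hx.1).trans_eq ?_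
  congr 2
  ring

end Crest.Agent.R149
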