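import Crest.Agent.R149.Shift
import Crest.Agent.R149.Neg

/-! Row 149: the two basic negligible events (convexity defect of the tile densities, energy gain
by sorting the tiles). -/

set_option autoImplicit false

namespace Crest.Agent.R149

open MeasureTheory Filter Set Crest.ProbabilityR.Continuum
open scoped ENNReal Topology

variable {φ : ℝ → ℝ} {β ρ μ π l s : ℝ}

/-- the volume of the tiles with their corridors: `(1 + 2/l)³ ≤ 1 + 26/l` -/
theorem eventually_tiles_vol (hl : 1 ≤ l) {η : ℝ} (hη : 0 < η) : ∀ᶠ L : ℝ in atTop,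
    L ^ 3 ≤ ((⌊L / l⌋₊ + 2 : ℕ) : ℝ) ^ 3 * (l + 2) ^ 3 ∧
      (((⌊L / l⌋₊ + 2 : ℕ) : ℝ) * (l + 2) + 2) ^ 3 ≤ (1 + 26 / l + η) * L ^ 3 ∧
      ((⌊L / l⌋₊ + 2 : ℕ) : ℝ) ^ 3 * l ≤ (1 / l + η) * L ^ 3 := by
  have hl0 : 0 < l := by linarith
  have hi0 : 0 < 1 / l := by positivity
  have hi1 : 1 / l ≤ 1 := (div_le_one hl0).2 hl
  have t1 : Tendsto (fun L : ℝ => (1 + 2 * (1 / l) + (2 * (l + 2) + 2) * L⁻¹) ^ 3) atTop
      (𝓝 ((1 + 2 * (1 / l) + (2 * (l + 2) + 2) * 0) ^ 3)) :=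
    (tendsto_const_nhds.add (tendsto_inv_atTop_zero.const_mul _)).pow 3
  have t2 : Tendsto (fun L : ℝ => (1 / l + 2 * L⁻¹) ^ 3 * l) atTop
      (𝓝 ((1 / l + 2 * 0) ^ 3 * l)) :=
    ((tendsto_const_nhds.add (tendsto_inv_atTop_zero.const_mul _)).pow 3).mul_const l
  have b1 : (1 + 2 * (1 / l) + (2 * (l + 2) + 2) * 0) ^ 3 < 1 + 26 / l + η := by
    have e : 26 / l = 26 * (1 / l) := by ring
    rw [e]
    generalize 1 / l = t at hi0 hi1
    have h2 : t ^ 2 ≤ t := by nlinarith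
    have h3 : t ^ 3 ≤ t := by nlinarith
    nlinarith
  have b2 : (1 / l + 2 * 0) ^ 3 * l < 1 / l + η := by
    have e : (1 / l + 2 * 0) ^ 3 * l = (1 / l) ^ 2 := by field_simp; ring
    rw [e]
    nlinarith
  filter_upwards [t1.eventually (gt_mem_nhds b1), t2.eventually (gt_mem_nhds b2),
    eventually_gt_atTop 0] with L h1 h2 hL
  have hm1 : ((⌊L / l⌋₊ + 2 : ℕ) : ℝ) ≤ L / l + 2 := by
    push_cast
    linarith [Nat.floor_le (show 0 ≤ L / l by positivity)]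
  have hm2 : L / l ≤ ((⌊L / l⌋₊ + 2 : ℕ) : ℝ) := by
    push_cast
    linarith [Nat.lt_floor_add_one (L / l)]
  generalize ((⌊L / l⌋₊ + 2 : ℕ) : ℝ) = m at hm1 hm2
  have hm0 : 0 ≤ m := le_trans (by positivity) hm2
  have hL3 : 0 < L ^ 3 := by positivity
  refine ⟨?_, ?_, ?_⟩
  · rw [← mul_pow]
    have : L ≤ m * (l + 2) := by
      rw [div_le_iff₀ hl0] at hm2
      nlinarith
    gcongr
  · have e : (1 + 2 * (1 / l) + (2 * (l + 2) + 2) * L⁻¹) * L = (L / l + 2) * (l + 2) + 2 := by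
      field_simp
      ring
    calc (m * (l + 2) + 2) ^ 3 ≤ ((L / l + 2) * (l + 2) + 2) ^ 3 := by gcongr
      _ = (1 + 2 * (1 / l) + (2 * (l + 2) + 2) * L⁻¹) ^ 3 * L ^ 3 := by rw [← e, mul_pow]
      _ ≤ _ := mul_le_mul_of_nonneg_right h1.le hL3.le
  · have e : (1 / l + 2 * L⁻¹) * L = L / l + 2 := by field_simp
    calc m ^ 3 * l ≤ (L / l + 2) ^ 3 * l := by gcongr
      _ = (1 / l + 2 * L⁻¹) ^ 3 * l * L ^ 3 := by rw [← e, mul_pow]; ring
      _ ≤ _ := mul_le_mul_of_nonneg_right h2.le hL3.le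

/-- the pattern split and the final arithmetic, common to both events -/
theorem neg_of_pattern (hρ : 0 ≤ ρ) (hS : Supp (g φ β) μ π ρ) (hl : 1 ≤ l)
    {E : ∀ L : ℝ, Set (Cf ρ L)}
    (h : ∀ L : ℝ, 0 < L → ∀ ν : (Fin 3 → Fin (⌊L / l⌋₊ + 2)) → ℕ, ∑ d, ν d = ⌊ρ * L ^ 3⌋₊ →
      ∃ V : ℝ, ((⌊L / l⌋₊ + 2 : ℕ) : ℝ) ^ 3 * (l + 2) ^ 3 ≤ V ∧
        V ≤ (((⌊L / l⌋₊ + 2 : ℕ) : ℝ) * (l + 2) + 2) ^ 3 ∧
        ZA φ β (cube L) _ (E L ∩ {x | cnt (labs l s L x) = ν}) ≤ ENNReal.ofReal (Real.exp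
          (-((26 * |π| + ρ + 2) / l * L ^ 3 + (μ * ⌊ρ * L ^ 3⌋₊ - π * V))))) :
    Neg φ β ρ E := by
  have hl0 : 0 < l := by linarith
  have hπ : 0 ≤ |π| := abs_nonneg π
  set η : ℝ := 1 / (4 * l * (1 + |π|)) with hη
  have hη0 : 0 < η := by positivity
  have hη1 : η * (1 + |π|) = 1 / (4 * l) := by rw [hη]; field_simp
  refine ⟨1 / (2 * l), by positivity, ?_⟩
  have ht : Tendsto (fun L : ℝ => L ^ 3) atTop atTop := tendsto_pow_atTop three_ne_zero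
  filter_upwards [eventually_tiles_vol hl hη0, eventually_gt_atTop 0,
    ht.eventually_ge_atTop (4 * l * |μ|)] with L ⟨v1, v2, v3⟩ hL hμ
  have hL3 : 0 < L ^ 3 := by positivity
  set N := ⌊ρ * L ^ 3⌋₊ with hN
  have hN1 : (N : ℝ) ≤ ρ * L ^ 3 := Nat.floor_le (by positivity)
  have hN2 : ρ * L ^ 3 ≤ N + 1 := (Nat.lt_floor_add_one _).le
  set P := Finset.piAntidiag (Finset.univ : Finset (Fin 3 → Fin (⌊L / l⌋₊ + 2))) N with hP
  set Y : ℝ := (26 * |π| + ρ + 2) / l * L ^ 3 + μ * N - π * L ^ 3 -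
    |π| * ((26 / l + η) * L ^ 3) with hY
  have hν : ∀ ν ∈ P, ZA φ β (cube L) N (E L ∩ {x | cnt (labs l s L x) = ν}) ≤
      ENNReal.ofReal (Real.exp (-Y)) := by
    intro ν hν
    obtain ⟨V, h1, h2, h3⟩ := h L hL ν (Finset.mem_piAntidiag.1 hν).1
    refine h3.trans (ENNReal.ofReal_le_ofReal (Real.exp_le_exp.2 ?_))
    have a1 : 0 ≤ V - L ^ 3 := by linarith
    have a2 : V - L ^ 3 ≤ (26 / l + η) * L ^ 3 := by linarith
    have a3 : π * (V - L ^ 3) ≤ |π| * ((26 / l + η) * L ^ 3) :=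
      mul_le_mul (le_abs_self π) a2 a1 hπ
    rw [hY]
    linarith
  have hcov : E L ∩ box (cube L) N ⊆ ⋃ ν ∈ P, E L ∩ {x | cnt (labs l s L x) = ν} := by
    intro x hx
    refine mem_iUnion₂.2 ⟨cnt (labs l s L x), ?_, hx.1, rfl⟩
    refine Finset.mem_piAntidiag.2 ⟨?_, fun _ _ => Finset.mem_univ _⟩
    rw [sum_cnt, Fintype.card_fin]
  have hc := card_patterns (ι := Fin 3 → Fin (⌊L / l⌋₊ + 2)) N (ϑ := 1 / l) (by positivity)
  rw [Fintype.card_fun, Fintype.card_fin, Fintype.card_fin, Nat.cast_pow, div_div_eq_mul_div,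
    div_one] at hc
  calc ZA φ β (cube L) N (E L) ≤ _ := ZA_mono hcov
    _ ≤ _ := ZA_biUnion_le P _
    _ ≤ ∑ _ν ∈ P, ENNReal.ofReal (Real.exp (-Y)) := Finset.sum_le_sum hν
    _ = ENNReal.ofReal (P.card * Real.exp (-Y)) := by
      rw [Finset.sum_const, nsmul_eq_mul, ENNReal.ofReal_mul (Nat.cast_nonneg _),
        ENNReal.ofReal_natCast]
    _ ≤ _ := by
      refine ENNReal.ofReal_le_ofReal ((mul_le_mul_of_nonneg_right hc (Real.exp_pos _).le).trans ?_)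
      rw [← Real.exp_add, Real.exp_le_exp, hS.2, hY]
      have a1 : μ * (ρ * L ^ 3 - N) ≤ |μ| * 1 :=
        mul_le_mul (le_abs_self μ) (by linarith) (by linarith) (abs_nonneg μ)
      have a2 : |μ| ≤ 1 / (4 * l) * L ^ 3 := by
        rw [one_div_mul_eq_div, le_div_iff₀ (by positivity)]
        linarith
      have a3 : 1 / l * N ≤ 1 / l * (ρ * L ^ 3) := by gcongr
      have a4 : η * (1 + |π|) * L ^ 3 = 1 / (4 * l) * L ^ 3 := by rw [hη1]
      have e1 : (26 * |π| + ρ + 2) / l = (26 * |π| + ρ + 2) * (1 / l) := by ring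
      have e2 : 26 / l = 26 * (1 / l) := by ring
      have e3 : 1 / (2 * l) = 1 / 2 * (1 / l) := by field_simp
      have e4 : 1 / (4 * l) = 1 / 4 * (1 / l) := by field_simp
      rw [e1, e2, e3]
      rw [e4] at a2 a4
      generalize 1 / l = t at *
      nlinarith

/-- Split the event according to the pattern `ν = cnt (labs l s L x)` (`card_patterns` with
`ϑ = 1 / l`, `ZA_biUnion_le`); `DS` depends only on `ν`.  For fixed `ν` use `ZA_le_prod` with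
`φ' = φ`, `y = -β e L³` and the closed tiles (translates of `cube l`, `lab_spec`,
`Zr_translate`), `Cr φ = Cr (φ + ψ) - Cr ψ ≥ - Cr ψ`, and `Adm.Zr_le_g` on every tile:
`∑_d (l+2)³ g (ν d / (l+2)³) = DS + μ N - π n (l+2)³`.  One may take `c = 1 / (2 l)`. -/
theorem neg_defect (hφ : Adm φ) (hβ : 0 < β) (hρ : 0 ≤ ρ) (hS : Supp (g φ β) μ π ρ) {ψ : ℝ → ℝ}
    (hψ : ∀ r, 0 ≤ φ r + ψ r) (hl : 1 ≤ l) (hs0 : 0 ≤ s) (hs : s ≤ l) (e : ℝ) :
    Neg φ β ρ fun L => {x | Cr ψ (labs l s L x) x ≤ e * L ^ 3 ∧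
      (β * e + (26 * |π| + ρ + 2) / l) * L ^ 3 ≤
        DS (fun u => g φ β u - (μ * u - π)) l s L x} := by
  have hl0 : 0 < l := by linarith
  have hV : 0 < (l + 2) ^ 3 := by positivity
  refine neg_of_pattern (s := s) hρ hS hl fun L hL ν hν => ⟨_, le_rfl, ?_, ?_⟩
  · rw [← mul_pow]
    gcongr
    linarith
  rcases eq_empty_or_nonempty ({x : Cf ρ L | Cr ψ (labs l s L x) x ≤ e * L ^ 3 ∧
      (β * e + (26 * |π| + ρ + 2) / l) * L ^ 3 ≤
        DS (fun u => g φ β u - (μ * u - π)) l s L x} ∩ {x | cnt (labs l s L x) = ν}) with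
    h0 | ⟨x₀, ⟨-, hx1⟩, hx2⟩
  · rw [h0, ZA_empty]
    exact zero_le
  have hx2' : cnt (labs l s L x₀) = ν := hx2
  rw [DS, hx2'] at hx1
  set T : (Fin 3 → Fin (⌊L / l⌋₊ + 2)) → Set Pt :=
    fun d => {y | y - (pos l d - WithLp.toLp 2 fun _ => s) ∈ cube l} with hT
  have hTm : ∀ d, MeasurableSet (T d) := fun d =>
    (measurableSet_cube l).preimage (measurable_sub_const _)
  refine (ZA_le_prod hφ.meas T hTm ν hν (y := -(β * e * L ^ 3)) fun x hx => ?_).trans ?_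
  · refine ⟨labs l s L x, fun a i => ?_, hx.1.2, ?_⟩
    · have h := lab_spec hl0 hs0 hs (hx.2 a (mem_univ a)) i
      simp only [ix, Int.cast_natCast] at h
      simp only [pos, PiLp.sub_apply, labs]
      constructor <;> linarith [h.1, h.2]
    · have h1 := En_eq_EnI_add_Cr φ (labs l s L x) x
      have h2 := Cr_add φ ψ (labs l s L x) x
      have h3 := Cr_nonneg hψ (labs l s L x) x
      have h4 : Cr ψ (labs l s L x) x ≤ e * L ^ 3 := hx.1.1.1
      have h5 : -(e * L ^ 3) ≤ Cr φ (labs l s L x) x := by linarith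
      have h6 := mul_le_mul_of_nonneg_left h5 hβ.le
      rw [h1]
      linarith
  · have hZ : ∀ d, Zr φ β (T d) (ν d) ≤
        ENNReal.ofReal (Real.exp (-((l + 2) ^ 3 * g φ β (ν d / (l + 2) ^ 3)))) := by
      intro d
      rw [hT]
      simp only
      rw [Zr_translate hφ.meas (measurableSet_cube l)]
      exact hφ.Zr_le_g hβ hl0 _
    refine (mul_le_mul_right (Finset.prod_le_prod' fun d _ => hZ d) _).trans ?_
    rw [← ENNReal.ofReal_prod_of_nonneg fun _ _ => (Real.exp_pos _).le, ← Real.exp_sum]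
    refine le_ofReal_exp ?_
    have hsum : ∑ d, (l + 2) ^ 3 * (g φ β (ν d / (l + 2) ^ 3) - (μ * (ν d / (l + 2) ^ 3) - π)) =
        ∑ d, (l + 2) ^ 3 * g φ β (ν d / (l + 2) ^ 3) - (μ * ⌊ρ * L ^ 3⌋₊ -
          π * (((⌊L / l⌋₊ + 2 : ℕ) : ℝ) ^ 3 * (l + 2) ^ 3)) := by
      have e : ∀ d, (l + 2) ^ 3 * (g φ β (ν d / (l + 2) ^ 3) - (μ * (ν d / (l + 2) ^ 3) - π)) =
          (l + 2) ^ 3 * g φ β (ν d / (l + 2) ^ 3) - (μ * ν d - π * (l + 2) ^ 3) := by
        intro d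
        field_simp
      simp only [e]
      rw [Finset.sum_sub_distrib, Finset.sum_sub_distrib, ← Finset.mul_sum _ _ μ, ← Nat.cast_sum, hν,
        Finset.sum_const, Finset.card_univ, Fintype.card_fun, Fintype.card_fin, Fintype.card_fin,
        nsmul_eq_mul, Nat.cast_pow]
      ring
    rw [hsum] at hx1
    rw [Finset.sum_neg_distrib]
    linarith

/-- Split according to `ν` as above; for fixed `ν` use `ZA_le_move` with
`T' d = slot l (sp ν d)`, `v = mv l s (sp ν)`, `Λ' = cube (m (l + 2))`, `m = ⌊L / l⌋₊ + 2`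
(`add_mv_mem_slot`), then `Adm.Zr_le_g` and the supporting line. -/
theorem neg_sort (hφ : Adm φ) (hβ : 0 < β) (hρ : 0 ≤ ρ) (hS : Supp (g φ β) μ π ρ)
    (hl : 1 ≤ l) (hs0 : 0 ≤ s) (hs : s ≤ l) :
    Neg φ β ρ fun L => {x | (26 * |π| + ρ + 2) / l * L ^ 3 ≤
      β * (En φ x - En φ (srt l s L x))} := by
  have hl0 : 0 < l := by linarith
  refine neg_of_pattern (s := s) hρ hS hl fun L hL ν hν => ⟨_, ?_, le_rfl, ?_⟩
  · rw [← mul_pow]
    gcongr
    linarith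
  have hm : (0 : ℝ) < ((⌊L / l⌋₊ + 2 : ℕ) : ℝ) * (l + 2) := by positivity
  refine (ZA_le_move hφ.meas (fun d => slot l (sp ν d)) (fun d => measurableSet_slot l _) ?_
    (fun d => slot_subset hl0.le _) (mv l s (sp ν)) (y := (26 * |π| + ρ + 2) / l * L ^ 3)
    fun x hx => ?_).trans ?_
  · intro d d' hne
    rw [Set.disjoint_left]
    intro y hy hy'
    have := two_le_dist_slot hl0.le ((sp ν).injective.ne hne) hy hy'
    rw [dist_self] at this
    linarith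
  · have h1 : cnt (labs l s L x) = ν := hx.1.2
    refine ⟨labs l s L x, fun a => add_mv_mem_slot hl0 hs0 hs (hx.2 a (mem_univ a)) _, ?_⟩
    have h2 : (26 * |π| + ρ + 2) / l * L ^ 3 ≤ β * (En φ x - En φ (srt l s L x)) := hx.1.1
    have h3 : srt l s L x = fun a => x a + mv l s (sp ν) (labs l s L x a) := by
      rw [← h1]; rfl
    rw [h3] at h2
    linarith
  · refine (mul_le_mul_right (hφ.Zr_le_g hβ hm _) _).trans (le_ofReal_exp ?_)
    have hW : 0 < (((⌊L / l⌋₊ + 2 : ℕ) : ℝ) * (l + 2) + 2) ^ 3 := by positivity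
    generalize (((⌊L / l⌋₊ + 2 : ℕ) : ℝ) * (l + 2) + 2) ^ 3 = W at hW
    have h1 := mul_le_mul_of_nonneg_left
      (hS.1 ((⌊ρ * L ^ 3⌋₊ : ℝ) / W) (by positivity)) hW.le
    have e : W * (μ * ((⌊ρ * L ^ 3⌋₊ : ℝ) / W) - π) = μ * ⌊ρ * L ^ 3⌋₊ - π * W := by
      field_simp
    rw [e] at h1
    linarith

end Crest.Agent.R149
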