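import Crest.Agent.R149.SysB

/-! Row 149: the energy gained by sorting the tiles. -/

set_option autoImplicit false

namespace Crest.Agent.R149

open MeasureTheory Filter Set Crest.ProbabilityR.Continuum
open scoped ENNReal Topology

section aux

variable {N : ℕ} {l s L : ℝ} {x : Fin N → Pt}

theorem srt_mem_slot (hl : 0 < l) (hs0 : 0 ≤ s) (hs : s ≤ l) (hx : x ∈ box (cube L) N)
    (a : Fin N) : srt l s L x a ∈ slot l (sp (cnt (labs l s L x)) (labs l s L x a)) :=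
  add_mv_mem_slot hl hs0 hs (hx a (mem_univ a)) _

theorem EnI_srt (φ : ℝ → ℝ) :
    EnI φ (labs l s L x) (srt l s L x) = EnI φ (labs l s L x) x :=
  EnI_add_mv φ (labs l s L x) x (mv l s (sp (cnt (labs l s L x))))

theorem En_φ0_srt (S : Sys) (hl : 0 < l) (hs0 : 0 ≤ s) (hs : s ≤ l) (hx : x ∈ box (cube L) N) :
    En S.φ0 (srt l s L x) ≤ En S.φ0 x := by
  rw [En_eq_EnI_add_Cr _ (labs l s L x), En_eq_EnI_add_Cr _ (labs l s L x) x, EnI_srt]
  have h1 : Cr S.φ0 (labs l s L x) (srt l s L x) ≤ 0 := Cr_nonpos fun a b hab =>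
    (S.zero0 _ (two_le_dist_slot hl.le ((sp _).injective.ne hab) (srt_mem_slot hl hs0 hs hx a)
      (srt_mem_slot hl hs0 hs hx b))).le
  linarith [Cr_nonneg S.nonneg0 (labs l s L x) x]

theorem le_En_srt {φ : ℝ → ℝ} (h : ∀ r, 0 ≤ φ r) :
    En φ x - Cr φ (labs l s L x) x ≤ En φ (srt l s L x) := by
  rw [En_eq_EnI_add_Cr _ (labs l s L x) (srt l s L x), En_eq_EnI_add_Cr _ (labs l s L x) x,
    EnI_srt]
  linarith [Cr_nonneg h (labs l s L x) (srt l s L x)]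

theorem Nn_nonneg' {A ι : Type*} [Fintype A] [DecidableEq ι] (τ : A → ι) : 0 ≤ Nn τ :=
  Finset.sum_nonneg fun _ _ => Finset.sum_nonneg fun _ _ => by split_ifs <;> norm_num

theorem W_le_Q (S : Sys) {j i : ℕ} (hi : j ≤ i) (hs0 : 0 ≤ s) (hs : s ≤ S.l j)
    (hx : x ∈ box (cube L) N) :
    S.W i x ≤ (1 + CJ * S.r j) * (Nn (labs (S.l j) s L x) / (2 * S.l j ^ 3)) := by
  have hl := S.l_pos j
  have hR : S.R j ≤ S.R i := S.R_mono hi
  have h := Wk_le hl (show S.l j ≤ S.R i by linarith [S.l_le j]) (labs_inG hl hs0 hs hx)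
  rw [Nn_comp ix_injective] at h
  refine h.trans (mul_le_mul_of_nonneg_right ?_ (div_nonneg (Nn_nonneg' _) (by positivity)))
  have h1 : S.l j / S.R i ≤ S.r j :=
    (div_le_div_of_nonneg_left hl.le (S.R_pos j) hR).trans (S.l_div_le_r j)
  rw [mul_div_assoc]
  linarith [mul_le_mul_of_nonneg_left h1 CJ_nonneg]

theorem real_aux {l r c t n Z T : ℝ} (hl : 2 ≤ l) (hr : 1 / l ≤ r) (hc : 0 ≤ c) (ht0 : 0 ≤ t)
    (ht : t ≤ 2 * r) (hT : 0 ≤ T) (hZ0 : 0 ≤ Z) (hZ : Z ≤ n) (hZ' : n - T * l ^ 3 ≤ Z) :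
    n / (2 * l ^ 3) - (6 + 2 * c) * r * (n / (2 * l ^ 3)) - T / 2 ≤
      (1 - c * t) * (Z / (2 * (l + 2) ^ 3)) := by
  have hl0 : 0 < l := by linarith
  have hn : 0 ≤ n := hZ0.trans hZ
  have h3 : l ^ 3 ≤ (l + 2) ^ 3 := pow_le_pow_left₀ hl0.le (by linarith) 3
  have h1 : Z / (2 * (l + 2) ^ 3) ≤ n / (2 * l ^ 3) :=
    div_le_div₀ hn hZ (by positivity) (by linarith)
  have h2 : c * t * (Z / (2 * (l + 2) ^ 3)) ≤ c * (2 * r) * (n / (2 * l ^ 3)) :=
    mul_le_mul (mul_le_mul_of_nonneg_left ht hc) h1 (by positivity)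
      (mul_nonneg hc (ht0.trans ht))
  have h4 : (n - T * l ^ 3) / (2 * (l + 2) ^ 3) ≤ Z / (2 * (l + 2) ^ 3) :=
    div_le_div_of_nonneg_right hZ' (by positivity)
  have h5 : T * l ^ 3 / (2 * (l + 2) ^ 3) ≤ T / 2 := by
    rw [div_le_div_iff₀ (by positivity) (by positivity)]
    nlinarith [mul_le_mul_of_nonneg_left h3 hT]
  have h6 : (1 - 6 * (1 / l)) * (n / (2 * l ^ 3)) ≤ n / (2 * (l + 2) ^ 3) := by
    have e : (1 - 6 * (1 / l)) * (n / (2 * l ^ 3)) = n * (l - 6) / (2 * l ^ 4) := by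
      field_simp
    rw [e, div_le_div_iff₀ (by positivity) (by positivity)]
    have : (l - 6) * (l + 2) ^ 3 ≤ l ^ 4 := by nlinarith [sq_nonneg l, pow_pos hl0 3]
    nlinarith [mul_le_mul_of_nonneg_left this hn]
  have h7 : 6 * (1 / l) * (n / (2 * l ^ 3)) ≤ 6 * r * (n / (2 * l ^ 3)) :=
    mul_le_mul_of_nonneg_right (by linarith) (by positivity)
  rw [sub_div] at h4
  nlinarith

theorem le_W_srt (S : Sys) {j i : ℕ} (hi : j ≤ i) : ∃ C : ℝ, 0 ≤ C ∧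
    ∀ (L s T Y0 : ℝ) (N : ℕ) (x : Fin N → Pt), 0 ≤ s → s ≤ S.l j → x ∈ box (cube L) N → 0 ≤ T →
      0 ≤ Y0 →
      (∑ d, if Y0 < cnt (labs (S.l j) s L x) d then (cnt (labs (S.l j) s L x) d : ℝ) ^ 2 else 0) ≤
        T * S.l j ^ 3 →
      Nn (labs (S.l j) s L x) / (2 * S.l j ^ 3) -
        (6 + 2 * CJ) * S.r j * (Nn (labs (S.l j) s L x) / (2 * S.l j ^ 3)) - T / 2 -
        C * ((⌊L / S.l j⌋₊ + 2 : ℕ) : ℝ) ^ 2 * Y0 ^ 2 - N * (S.r j / (2 * iota)) ≤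
        S.W i (srt (S.l j) s L x) := by
  have hl := S.l_pos j
  have hl2 := S.two_le_l j
  have hR : S.R j ≤ S.R i := S.R_mono hi
  obtain ⟨C, hC, h⟩ := le_Wk (h := S.l j + 2) (by linarith) (S.R_pos i)
  refine ⟨C, hC, fun L s T Y0 N x hs0 hs hx hT hY htop => ?_⟩
  set τ := labs (S.l j) s L x with hτ
  have h1 := h _ N (sp (cnt τ) ∘ τ) (srt (S.l j) s L x) 0 Y0
    (fun d => min (cnt (sp (cnt τ) ∘ τ) d : ℝ) Y0)
    (fun a k => slot_coord (srt_mem_slot hl hs0 hs hx a) k)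
    (fun d => le_min (Nat.cast_nonneg _) hY) (fun d => min_le_left _ _) (fun d => min_le_right _ _)
    (fun u v huv => by
      simp only [Function.comp, cnt_perm]
      exact min_le_min_right _ (Nat.cast_le.2 (sp_mono (cnt τ) huv)))
  have e1 : ∑ d, (min (cnt (sp (cnt τ) ∘ τ) d : ℝ) Y0) ^ 2 = ∑ d, (min (cnt τ d : ℝ) Y0) ^ 2 := by
    simp only [cnt_perm]
    exact Equiv.sum_comp (sp (cnt τ)).symm fun d => (min (cnt τ d : ℝ) Y0) ^ 2
  rw [e1] at h1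
  have h2 : ∑ d, (min (cnt τ d : ℝ) Y0) ^ 2 ≤ Nn τ := by
    rw [Nn_eq_sum]
    exact Finset.sum_le_sum fun d _ =>
      pow_le_pow_left₀ (le_min (Nat.cast_nonneg _) hY) (min_le_left _ _) 2
  have h3 : Nn τ - T * S.l j ^ 3 ≤ ∑ d, (min (cnt τ d : ℝ) Y0) ^ 2 := by
    refine le_trans (sub_le_sub_left htop _) ?_
    rw [Nn_eq_sum, ← Finset.sum_sub_distrib]
    refine Finset.sum_le_sum fun d _ => ?_
    split_ifs with hd
    · rw [sub_self]
      positivity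
    · rw [min_eq_left (not_lt.1 hd), sub_zero]
  have h4 : (S.l j + 2) / S.R i ≤ 2 * S.r j := by
    have h5 : S.l j / S.R i ≤ S.r j :=
      (div_le_div_of_nonneg_left hl.le (S.R_pos j) hR).trans (S.l_div_le_r j)
    have h6 : (S.l j + 2) / S.R i ≤ (2 * S.l j) / S.R i :=
      div_le_div_of_nonneg_right (by linarith) (S.R_pos i).le
    rw [mul_div_assoc] at h6
    linarith
  have h5 := real_aux hl2 (S.inv_l_le_r j) CJ_nonneg
    (div_nonneg (by linarith) (S.R_pos i).le) h4 hT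
    (Finset.sum_nonneg fun d _ => sq_nonneg _) h2 h3
  have h6 : (iota * S.R i ^ 3)⁻¹ / 2 ≤ S.r j / (2 * iota) := by
    have h7 : S.l j ≤ S.R i ^ 3 := by
      have h8 := S.six_le_R i
      have h9 : S.R i ≤ S.R i ^ 3 := le_self_pow₀ (by linarith) (by norm_num)
      linarith [S.l_le j]
    have h8 : 1 / S.R i ^ 3 ≤ S.r j := (one_div_le_one_div_of_le hl h7).trans (S.inv_l_le_r j)
    have e : (iota * S.R i ^ 3)⁻¹ / 2 = 1 / S.R i ^ 3 / (2 * iota) := by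
      have := iota_pos
      have := S.R_pos i
      field_simp
    rw [e]
    exact div_le_div_of_nonneg_right h8 (by have := iota_pos; positivity)
  have h7 := mul_le_mul_of_nonneg_left h6 (Nat.cast_nonneg (α := ℝ) N)
  rw [mul_div_assoc] at h1
  rw [mul_div_assoc (N : ℝ)] at h1
  unfold Sys.W
  linarith

end aux

/-- Let `l = l j`, `τ = labs l s L x`, `ν = cnt τ`, `y = srt l s L x`, `τ' = sp ν ∘ τ`; then
`y a ∈ slot l (τ' a)` (`add_mv_mem_slot`, `slot_coord`).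
* `En φ0 y = EnI φ0 τ x ≤ En φ0 x` (`EnI_add_mv`, `two_le_dist_slot`, `zero0`).
* `En (Jlo j) y ≥ EnI (Jlo j) τ x ≥ En (Jlo j) x - e L³`.
* For `i ≥ j`, with `Q = Nn τ / (2 l³) ≤ 172 cP L³` (`Nn_le_P1`): `W i x ≤ (1 + CJ r j) Q`
  (`Wk_le`, `R j ≤ R i`) and, by `le_Wk` with `h = l + 2`, `z = min (cnt τ') Y0`
  (`cnt_perm`, `sp_mono`),
  `W i y ≥ Q - (6 + 2 CJ) r j Q - top L³ / 2 - C_i m² Y0² - N r j / (2 iota)`.
  Use this for `j ≤ i < I` (for `i = j + 1` compare `W (j+1) y` with `W j x`), and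
  `En_J_le I` with `tail I` small for the rest; `m² = o(L³)`. -/
theorem sort_gain : ∃ C : ℝ, 0 ≤ C ∧ ∀ (S : Sys) (j : ℕ) (cP top Y0 e η : ℝ), 1 ≤ cP → 0 ≤ top →
    0 ≤ Y0 → 0 < η → ∀ᶠ L : ℝ in atTop, ∀ (N : ℕ) (x : Fin N → Pt), x ∈ box (cube L) N →
      P1 x ≤ cP * L ^ 3 → ∀ s : ℝ, 0 ≤ s → s ≤ S.l j →
      Cr (S.Jlo j) (labs (S.l j) s L x) x ≤ e * L ^ 3 →
      (∑ d, if Y0 < cnt (labs (S.l j) s L x) d then (cnt (labs (S.l j) s L x) d : ℝ) ^ 2 else 0) ≤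
        top * S.l j ^ 3 * L ^ 3 →
      S.a (j + 1) * (S.W j x - S.W (j + 1) x) ≤ En S.φ x - En S.φ (srt (S.l j) s L x) +
        (e + S.tail j * (C * cP * S.r j + top) + η) * L ^ 3 := by
  have hι := iota_pos
  have hCJ := CJ_nonneg
  refine ⟨(6 + 3 * CJ) * 172 + 1 / (2 * iota), by positivity,
    fun S j cP top Y0 e η hcP htop hY hη => ?_⟩
  have hCW : 0 < CW := by linarith [four_le_CW]
  obtain ⟨I, hI1, hI2⟩ : ∃ I, S.tail I ≤ η / 2 / (CW * cP) ∧ j + 2 ≤ I :=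
    ((S.tendsto_tail.eventually (eventually_le_nhds (by positivity))).and
      (eventually_ge_atTop _)).exists
  have hC : ∀ i, ∃ C : ℝ, 0 ≤ C ∧ (j ≤ i → ∀ (L s T Y0 : ℝ) (N : ℕ) (x : Fin N → Pt), 0 ≤ s →
      s ≤ S.l j → x ∈ box (cube L) N → 0 ≤ T → 0 ≤ Y0 →
      (∑ d, if Y0 < cnt (labs (S.l j) s L x) d then (cnt (labs (S.l j) s L x) d : ℝ) ^ 2 else 0) ≤
        T * S.l j ^ 3 →
      Nn (labs (S.l j) s L x) / (2 * S.l j ^ 3) -
        (6 + 2 * CJ) * S.r j * (Nn (labs (S.l j) s L x) / (2 * S.l j ^ 3)) - T / 2 -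
        C * ((⌊L / S.l j⌋₊ + 2 : ℕ) : ℝ) ^ 2 * Y0 ^ 2 - N * (S.r j / (2 * iota)) ≤
        S.W i (srt (S.l j) s L x)) := by
    intro i
    by_cases hi : j ≤ i
    · obtain ⟨C, h0, h⟩ := le_W_srt S hi
      exact ⟨C, h0, fun _ => h⟩
    · exact ⟨0, le_rfl, fun h => absurd h hi⟩
  choose C hC0 hC using hC
  set B := ∑ i ∈ Finset.Ico j I, S.a i * C i with hB
  have hB0 : 0 ≤ B := Finset.sum_nonneg fun i _ => mul_nonneg (S.a_pos i).le (hC0 i)
  filter_upwards [eventually_ge_atTop 4, eventually_ge_atTop (B * Y0 ^ 2 / (η / 2))] with L hL4 hLB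
    N x hx hP s hs0 hs he ht
  have hL : 0 < L := by linarith
  have hL3 : 0 < L ^ 3 := by positivity
  have hl := S.l_pos j
  have hl2 := S.two_le_l j
  have hr := S.r_nonneg j
  set y := srt (S.l j) s L x with hy
  set Q := Nn (labs (S.l j) s L x) / (2 * S.l j ^ 3) with hQ
  set m : ℝ := ((⌊L / S.l j⌋₊ + 2 : ℕ) : ℝ) with hm
  have hQ0 : 0 ≤ Q := div_nonneg (Nn_nonneg' _) (by positivity)
  have hQ1 : Q ≤ 172 * (cP * L ^ 3) := by
    have h1 := Nn_le_P1 (by linarith) (labs_inG hl hs0 hs hx)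
    rw [Nn_comp ix_injective] at h1
    rw [hQ, div_le_iff₀ (by positivity)]
    have h2 := mul_le_mul_of_nonneg_left hP (pow_pos hl 3).le
    have h3 : 0 ≤ S.l j ^ 3 * (cP * L ^ 3) := by positivity
    nlinarith
  have hN : (N : ℝ) ≤ cP * L ^ 3 := by
    have h1 := card_le_P1 x
    rw [Fintype.card_fin] at h1
    exact h1.trans hP
  have hm1 : m ^ 2 ≤ L ^ 2 := by
    refine pow_le_pow_left₀ (Nat.cast_nonneg _) ?_ 2
    have h1 : (⌊L / S.l j⌋₊ : ℝ) ≤ L / 2 :=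
      (Nat.floor_le (by positivity)).trans (div_le_div_of_nonneg_left hL.le two_pos hl2)
    rw [hm]
    push_cast
    linarith
  -- the uniform loss
  set D := (((6 + 3 * CJ) * 172 + 1 / (2 * iota)) * cP * S.r j + top) * L ^ 3 with hD
  have hD0 : 0 ≤ D := by positivity
  have key : ∀ i k, j ≤ i → j ≤ k → S.W k x - S.W i y ≤ D + C i * (m ^ 2 * Y0 ^ 2) := by
    intro i k hi hk
    have h1 := W_le_Q S hk hs0 hs hx
    have h2 := hC i hi L s (top * L ^ 3) Y0 N x hs0 hs hx (by positivity) hY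
      (ht.trans_eq (by ring))
    rw [← hQ] at h1 h2
    rw [← hm, ← hy] at h2
    have h3 := mul_le_mul_of_nonneg_left hQ1 (show 0 ≤ (6 + 3 * CJ) * S.r j by positivity)
    have h4 := mul_le_mul_of_nonneg_right hN (show 0 ≤ S.r j / (2 * iota) by positivity)
    have h5 : 0 ≤ top * L ^ 3 := by positivity
    have e1 : D = (6 + 3 * CJ) * S.r j * (172 * (cP * L ^ 3)) +
        cP * L ^ 3 * (S.r j / (2 * iota)) + top * L ^ 3 := by
      rw [hD]
      ring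
    linarith
  have hsum : S.a (j + 1) * (S.W j x - S.W (j + 1) x) +
      ∑ i ∈ Finset.Ico j I, S.a i * (S.W i x - S.W i y) ≤
      ∑ i ∈ Finset.Ico j I, S.a i * (D + C i * (m ^ 2 * Y0 ^ 2)) := by
    have hj : j + 1 ∈ Finset.Ico j I := Finset.mem_Ico.2 ⟨by omega, by omega⟩
    rw [← Finset.add_sum_erase _ _ hj, ← Finset.add_sum_erase _ _ hj, ← add_assoc]
    refine add_le_add ?_ (Finset.sum_le_sum fun i hi => ?_)
    · rw [← mul_add]
      refine mul_le_mul_of_nonneg_left ?_ (S.a_pos _).le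
      linarith [key (j + 1) j (by omega) le_rfl]
    · have hi' := (Finset.mem_Ico.1 (Finset.mem_of_mem_erase hi)).1
      exact mul_le_mul_of_nonneg_left (key i i hi' hi') (S.a_pos _).le
  have e2 : ∑ i ∈ Finset.Ico j I, S.a i * (D + C i * (m ^ 2 * Y0 ^ 2)) =
      (∑ i ∈ Finset.Ico j I, S.a i) * D + B * (m ^ 2 * Y0 ^ 2) := by
    rw [hB, Finset.sum_mul, Finset.sum_mul, ← Finset.sum_add_distrib]
    exact Finset.sum_congr rfl fun i _ => by ring
  have h1 : ∑ i ∈ Finset.Ico j I, S.a i ≤ S.tail j := by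
    have h2 := Finset.sum_range_add_sum_Ico S.a (show j ≤ I by omega)
    linarith [S.sum_add_tail j, S.sum_add_tail I, S.tail_nonneg I]
  have h2 : B * (m ^ 2 * Y0 ^ 2) ≤ η / 2 * L ^ 3 := by
    rw [div_le_iff₀ (by positivity)] at hLB
    have h3 := mul_le_mul hLB hm1 (sq_nonneg _) (by positivity)
    linarith
  have h3 : S.tail I * (CW * P1 x) ≤ η / 2 * L ^ 3 := by
    rw [le_div_iff₀ (by positivity)] at hI1
    have h4 := mul_le_mul_of_nonneg_left (mul_le_mul_of_nonneg_left hP hCW.le) (S.tail_nonneg I)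
    have h5 := mul_le_mul_of_nonneg_right hI1 hL3.le
    linarith
  have e3 : ∀ z : Fin N → Pt, En (S.Jlo I) z =
      En (S.Jlo j) z + ∑ i ∈ Finset.Ico j I, S.a i * S.W i z := fun z => by
    rw [S.En_Jlo, S.En_Jlo, Finset.sum_range_add_sum_Ico _ (show j ≤ I by omega)]
  have e4 : ∑ i ∈ Finset.Ico j I, S.a i * (S.W i x - S.W i y) =
      ∑ i ∈ Finset.Ico j I, S.a i * S.W i x - ∑ i ∈ Finset.Ico j I, S.a i * S.W i y := by
    rw [← Finset.sum_sub_distrib]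
    exact Finset.sum_congr rfl fun i _ => by ring
  have h4 := En_φ0_srt S hl hs0 hs hx
  have h5 := le_En_srt (l := S.l j) (s := s) (L := L) (x := x) (S.Jlo_nonneg j)
  have h6 := S.En_J_le I x
  have h7 := S.En_Jlo_le I y
  have h8 := mul_le_mul_of_nonneg_right h1 hD0
  rw [← hy] at h4 h5
  rw [S.En_φ, S.En_φ, add_mul, add_mul, mul_assoc (S.tail j), ← hD]
  linarith [e3 x, e3 y]

end Crest.Agent.R149
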