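import Crest.Agent.R149.E1
import Crest.Agent.R149.Gain

/-! Row 149: homogeneity at all scales at an extreme point. -/

set_option autoImplicit false

namespace Crest.Agent.R149

open MeasureTheory Filter Set Crest.ProbabilityR.Continuum
open scoped ENNReal Topology

/-- the bound on the convexity defect at level `j` -/
noncomputable def Sys.E (S : Sys) (G : ℝ) (j : ℕ) : ℝ :=
  S.κ * (150 * G ^ 2 * S.r j) + S.tail j * (80 * CW * G ^ 2)

section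
variable (S : Sys) {G β ρ μ π : ℝ}

theorem Sys.bdry_le (hG : 1 ≤ G) (hρ : 0 ≤ ρ) (hρ' : ρ ≤ G) (hπ : |π| ≤ G * S.κ) (j : ℕ) :
    (26 * |π| + ρ + 2) / S.l j ≤ S.κ * (29 * G ^ 2 * S.r j) := by
  have hκ := S.κ_ge
  have h1 : 26 * |π| + ρ + 2 ≤ S.κ * (29 * G ^ 2) := by
    have a1 : G ≤ G * S.κ := le_mul_of_one_le_right (by linarith) hκ
    have a2 : G * S.κ ≤ G * S.κ * G := le_mul_of_one_le_right (by linarith) hG
    nlinarith
  have h2 : 0 ≤ 26 * |π| + ρ + 2 := by positivity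
  calc (26 * |π| + ρ + 2) / S.l j = (26 * |π| + ρ + 2) * (1 / S.l j) := by ring
    _ ≤ S.κ * (29 * G ^ 2) * S.r j :=
      mul_le_mul h1 (S.inv_l_le_r j) (one_div_pos.2 (S.l_pos j)).le (h2.trans h1)
    _ = _ := by ring

theorem Sys.E_nonneg (j : ℕ) : 0 ≤ S.E G j := by
  have h1 := S.κ_pos
  have h2 := S.r_nonneg j
  have h3 := S.tail_nonneg j
  have h4 : 0 ≤ CW := by linarith [four_le_CW]
  unfold Sys.E
  positivity

/-- `neg_defect` with `ψ = J` for every shift `sh j n`, `n < ns j` (`Neg.biUnion`), with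
`e = 60 G² κ r j + tail j * CW * 40 G²` (`Cr_J_le`, `inv_l_le_r`). -/
theorem Sys.neg_DS (hG : 1 ≤ G) (hβ : 1 / 2 ≤ β) (hβ' : β ≤ 2) (hρ : 0 ≤ ρ) (hρ' : ρ ≤ G)
    (hπ : |π| ≤ G * S.κ) (hs : Supp (g S.φ β) μ π ρ) (j : ℕ) :
    Neg S.φ β ρ fun L => {x | P1 x ≤ 40 * G ^ 2 * L ^ 3 ∧ ∃ n < S.ns j,
      Cr (S.Jlo j) (labs (S.l j) (S.sh j n) L x) x ≤ S.κ * (60 * G ^ 2 * S.r j) * L ^ 3 ∧
      S.E G j * L ^ 3 ≤ DS (fun u => g S.φ β u - (μ * u - π)) (S.l j) (S.sh j n) L x} := by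
  have hl : 1 ≤ S.l j := by linarith [S.two_le_l j]
  have hJ : ∀ r, 0 ≤ S.φ r + S.J r := fun r => by
    have := S.nonneg0 r
    unfold Sys.φ
    linarith
  have h := Neg.biUnion (Finset.range (S.ns j)) fun n hn =>
    neg_defect S.adm (by linarith) hρ hs hJ hl (S.sh_mem (Finset.mem_range.1 hn)).1
      (S.sh_mem (Finset.mem_range.1 hn)).2
      (S.κ * (60 * G ^ 2 * S.r j) + S.tail j * (CW * (40 * G ^ 2)))
  refine h.mono ?_
  filter_upwards [eventually_ge_atTop 0] with L hL x hx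
  obtain ⟨⟨hP, n, hn, h1, h2⟩, -⟩ := hx
  simp only [mem_iUnion, mem_setOf_eq]
  refine ⟨n, Finset.mem_range.2 hn, ?_, le_trans ?_ h2⟩
  · have h3 := S.Cr_J_le j (labs (S.l j) (S.sh j n) L x) x
    have h4 : S.tail j * (CW * P1 x) ≤ S.tail j * (CW * (40 * G ^ 2 * L ^ 3)) :=
      mul_le_mul_of_nonneg_left (mul_le_mul_of_nonneg_left hP (by linarith [four_le_CW]))
        (S.tail_nonneg j)
    linarith
  · refine mul_le_mul_of_nonneg_right ?_ (by positivity)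
    have h3 := S.bdry_le hG hρ hρ' hπ j
    have h4 : 0 ≤ S.κ * (G ^ 2 * S.r j) :=
      mul_nonneg S.κ_pos.le (mul_nonneg (sq_nonneg _) (S.r_nonneg j))
    have h5 : 0 ≤ S.tail j * (CW * G ^ 2) :=
      mul_nonneg (S.tail_nonneg j) (mul_nonneg (by linarith [four_le_CW]) (sq_nonneg _))
    have h6 : β * (S.κ * (60 * G ^ 2 * S.r j) + S.tail j * (CW * (40 * G ^ 2))) ≤
        2 * (S.κ * (60 * G ^ 2 * S.r j) + S.tail j * (CW * (40 * G ^ 2))) :=
      mul_le_mul_of_nonneg_right hβ' (by linarith)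
    unfold Sys.E
    linarith

/-- `exists_sh` and `tail_le_κ 0` -/
theorem Sys.exists_sh' (hG : 1 ≤ G) (j : ℕ) {L : ℝ} {N : ℕ} {x : Fin N → Pt}
    (hx : x ∈ box (cube L) N) (hP : P1 x ≤ 40 * G ^ 2 * L ^ 3) : ∃ n < S.ns j,
      Cr (S.Jlo j) (labs (S.l j) (S.sh j n) L x) x ≤ S.κ * (60 * G ^ 2 * S.r j) * L ^ 3 := by
  obtain ⟨n, hn, h⟩ := S.exists_sh j hx
  refine ⟨n, hn, h.trans ?_⟩
  have h1 := S.tail_le_κ 0
  have h2 := P1_nonneg x
  have h3 : S.tail 0 * (CW * P1 x) ≤ S.κ / 4 * (40 * G ^ 2 * L ^ 3) := by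
    rw [← mul_assoc]
    exact mul_le_mul (by linarith) hP h2 (by linarith [S.κ_pos])
  have h4 := mul_le_mul_of_nonneg_left h3 (show 0 ≤ 6 * S.r j by linarith [S.r_nonneg j])
  linarith

end

/-- the heavy tiles are controlled by the convexity defect -/
theorem Sys.top_le_DS (S : Sys) {G β ρ μ π : ℝ} (hG : 1 ≤ G) (hβ : 1 / 2 ≤ β) (hβ' : β ≤ 2)
    (hμ : |μ| ≤ G * S.κ) (hπ : |π| ≤ G * S.κ) (hs : Supp (g S.φ β) μ π ρ) {l s L : ℝ}
    (hl : 2 ≤ l) {N : ℕ} (x : Fin N → Pt) :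
    (∑ d, if 256 * (G + 1) * (l + 2) ^ 3 < cnt (labs l s L x) d then
      (cnt (labs l s L x) d : ℝ) ^ 2 else 0) ≤
      1024 / S.κ * l ^ 3 * DS (fun u => g S.φ β u - (μ * u - π)) l s L x := by
  have hκ := S.κ_pos
  have hv : 0 < (l + 2) ^ 3 := by positivity
  have hv' : (l + 2) ^ 3 ≤ 8 * l ^ 3 := by
    have := pow_le_pow_left₀ (by linarith : 0 ≤ l + 2) (by linarith : l + 2 ≤ 2 * l) 3
    linarith
  rw [DS, Finset.mul_sum]
  refine Finset.sum_le_sum fun d _ => ?_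
  generalize (cnt (labs l s L x) d : ℝ) = c, (Nat.cast_nonneg (cnt (labs l s L x) d) : (0 : ℝ) ≤ _) = hc
  have h0 : 0 ≤ g S.φ β (c / (l + 2) ^ 3) - (μ * (c / (l + 2) ^ 3) - π) :=
    sub_nonneg.2 (hs.1 _ (div_nonneg hc hv.le))
  split_ifs with h
  · have h1 := S.defect_ge hG hβ hβ' hμ hπ (u := c / (l + 2) ^ 3) (by
      rw [le_div_iff₀ hv]
      exact h.le)
    generalize g S.φ β (c / (l + 2) ^ 3) - (μ * (c / (l + 2) ^ 3) - π) = D at h0 h1
    have h2 : c ^ 2 = 128 / S.κ * (l + 2) ^ 3 * ((l + 2) ^ 3 * (S.κ / 128 * (c / (l + 2) ^ 3) ^ 2)) := by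
      field_simp
    rw [h2]
    refine mul_le_mul ?_ (mul_le_mul_of_nonneg_left h1 hv.le) (by positivity) (by positivity)
    have := mul_le_mul_of_nonneg_left hv' (show 0 ≤ 128 / S.κ by positivity)
    calc _ ≤ _ := this
      _ = _ := by ring
  · positivity

/-- `exists_sh'`, `neg_DS`, `defect_ge` (so that `sort_gain` applies with
`Y0 = 256 (G+1) (l+2)³`, `top = 1024 E / κ`), `neg_sort` for every shift;
`a (j+1) * d j = tail j ^ 2 / κ + κ r j` and `tail j ≤ κ / 16`. -/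
theorem level_neg {G : ℝ} (hG : 1 ≤ G) : ∃ C : ℝ, 0 ≤ C ∧ ∀ (S : Sys) (β ρ μ π : ℝ),
    1 / 2 ≤ β → β ≤ 2 → 0 ≤ ρ → ρ ≤ G → |μ| ≤ G * S.κ → |π| ≤ G * S.κ →
    Supp (g S.φ β) μ π ρ → ∀ (j : ℕ) (η : ℝ), 0 < η →
    Neg S.φ β ρ fun L => {x | P1 x ≤ 40 * G ^ 2 * L ^ 3 ∧
      (C * S.d j + η) * L ^ 3 < S.W j x - S.W (j + 1) x} := by
  obtain ⟨C0, hC0, hsg⟩ := sort_gain
  have hCW : 0 ≤ CW := by linarith [four_le_CW]
  refine ⟨G ^ 2 * (200000 + 40 * C0 + 81920 * CW), by positivity,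
    fun S β ρ μ π hβ hβ' hρ hρ' hμ hπ hs j η hη => ?_⟩
  have hκ := S.κ_pos
  have hl2 := S.two_le_l j
  have ha := S.a_pos (j + 1)
  have hE := S.E_nonneg (G := G) j
  have h1 := S.neg_DS hG hβ hβ' hρ hρ' hπ hs j
  have h2 := Neg.biUnion (Finset.range (S.ns j)) fun n hn =>
    neg_sort S.adm (by linarith) hρ hs (l := S.l j) (by linarith)
      (S.sh_mem (Finset.mem_range.1 hn)).1 (S.sh_mem (Finset.mem_range.1 hn)).2
  refine (h1.union h2).mono ?_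
  filter_upwards [eventually_ge_atTop 0, hsg S j (40 * G ^ 2) (1024 * S.E G j / S.κ)
    (256 * (G + 1) * (S.l j + 2) ^ 3) (S.κ * (60 * G ^ 2 * S.r j)) (S.a (j + 1) * η)
    (by nlinarith) (by positivity) (by positivity) (mul_pos ha hη)] with L hL hg x hx
  obtain ⟨⟨hP, hW⟩, hx⟩ := hx
  obtain ⟨n, hn, hc⟩ := S.exists_sh' hG j hx hP
  by_cases hD : S.E G j * L ^ 3 ≤
      DS (fun u => g S.φ β u - (μ * u - π)) (S.l j) (S.sh j n) L x
  · exact Or.inl ⟨hP, n, hn, hc, hD⟩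
  refine Or.inr ?_
  simp only [mem_iUnion, mem_setOf_eq]
  refine ⟨n, Finset.mem_range.2 hn, ?_⟩
  have h3 := hg _ x hx hP _ (S.sh_mem hn).1 (S.sh_mem hn).2 hc
    ((S.top_le_DS hG hβ hβ' hμ hπ hs hl2 x).trans (by
      have := mul_le_mul_of_nonneg_left (not_le.1 hD).le
        (show 0 ≤ 1024 / S.κ * S.l j ^ 3 by positivity)
      calc _ ≤ _ := this
        _ = _ := by ring))
  have h4 := mul_le_mul_of_nonneg_left hW.le ha.le
  have hL3 : 0 ≤ L ^ 3 := by positivity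
  have hd : S.a (j + 1) * S.d j = S.tail j ^ 2 / S.κ + S.κ * S.r j := by
    unfold Sys.d
    field_simp
  have ht := S.tail_nonneg j
  have hr := S.r_nonneg j
  have ht' : S.tail j ≤ S.κ := by
    have := S.tail_le_κ j
    have := mul_le_mul_of_nonneg_right four_le_CW ht
    linarith
  have hb := S.bdry_le hG hρ hρ' hπ j
  -- the key numerical inequality
  have hk : S.κ * (58 * G ^ 2 * S.r j) + (S.κ * (60 * G ^ 2 * S.r j) +
      S.tail j * (C0 * (40 * G ^ 2) * S.r j + 1024 * S.E G j / S.κ)) ≤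
      S.a (j + 1) * (G ^ 2 * (200000 + 40 * C0 + 81920 * CW) * S.d j) := by
    have e1 : S.a (j + 1) * (G ^ 2 * (200000 + 40 * C0 + 81920 * CW) * S.d j) =
        (200000 + 40 * C0 + 81920 * CW) * (G ^ 2 * (S.tail j ^ 2 / S.κ)) +
          (200000 + 40 * C0 + 81920 * CW) * (S.κ * (G ^ 2 * S.r j)) := by
      calc _ = G ^ 2 * (200000 + 40 * C0 + 81920 * CW) * (S.a (j + 1) * S.d j) := by ring
        _ = _ := by rw [hd]; ring
    have e2 : S.tail j * (C0 * (40 * G ^ 2) * S.r j + 1024 * S.E G j / S.κ) =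
        (40 * C0 + 153600) * (S.tail j * (G ^ 2 * S.r j)) +
          81920 * CW * (G ^ 2 * (S.tail j ^ 2 / S.κ)) := by
      unfold Sys.E
      field_simp
      ring
    have p1 : 0 ≤ G ^ 2 * (S.tail j ^ 2 / S.κ) := by positivity
    have p2 : 0 ≤ S.κ * (G ^ 2 * S.r j) := by positivity
    have p3 : S.tail j * (G ^ 2 * S.r j) ≤ S.κ * (G ^ 2 * S.r j) :=
      mul_le_mul_of_nonneg_right ht' (by positivity)
    have p4 := mul_le_mul_of_nonneg_left p3 (show 0 ≤ 40 * C0 + 153600 by positivity)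
    have p5 := mul_nonneg hC0 p1
    have p6 := mul_nonneg hCW p2
    rw [e1, e2]
    linarith
  have h5 := mul_le_mul_of_nonneg_right hk hL3
  have h6 := mul_le_mul_of_nonneg_right hb hL3
  have h7 : 0 ≤ S.κ * (29 * G ^ 2 * S.r j) * L ^ 3 := by positivity
  have h8 : 2 * (S.κ * (29 * G ^ 2 * S.r j) * L ^ 3) ≤
      En S.φ x - En S.φ (srt (S.l j) (S.sh j n) L x) := by linarith
  have h9 := mul_le_mul_of_nonneg_right hβ (le_trans (by linarith) h8)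
  linarith

theorem Sys.tendsto_r (S : Sys) : Tendsto S.r atTop (𝓝 0) := S.r_lim

theorem Sys.tendsto_E (S : Sys) (G : ℝ) : Tendsto (S.E G) atTop (𝓝 0) := by
  have h1 := (S.tendsto_r.const_mul (150 * G ^ 2)).const_mul S.κ
  have h2 := S.tendsto_tail.mul_const (80 * CW * G ^ 2)
  have := h1.add h2
  simp only [mul_zero, zero_mul, add_zero] at this
  exact this

/-- the inequality `Ext` summed over the tiles -/
theorem Nn_le_of_ext {D : ℝ → ℝ} {ρ ε ζ Λ l s L : ℝ} (hl : 0 < l) (hζ : 0 ≤ ζ)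
    (h : ∀ u, 0 ≤ u → u ^ 2 ≤ ρ ^ 2 + ε + ζ * (u - ρ) + Λ * D u) {N : ℕ} (x : Fin N → Pt)
    (hN : (N : ℝ) ≤ ρ * (((⌊L / l⌋₊ + 2 : ℕ) : ℝ) ^ 3 * (l + 2) ^ 3)) :
    Nn (labs l s L x) ≤ (l + 2) ^ 3 *
      (((⌊L / l⌋₊ + 2 : ℕ) : ℝ) ^ 3 * (l + 2) ^ 3 * (ρ ^ 2 + ε) + Λ * DS D l s L x) := by
  set V := (l + 2) ^ 3 with hV
  have hV0 : 0 < V := by positivity
  set τ := labs l s L x with hτ
  have hc : ∑ d, (cnt τ d : ℝ) = N := by
    have := sum_cnt τ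
    rw [Fintype.card_fin] at this
    exact_mod_cast this
  have hcard : (Fintype.card (Fin 3 → Fin (⌊L / l⌋₊ + 2)) : ℝ) = ((⌊L / l⌋₊ + 2 : ℕ) : ℝ) ^ 3 := by
    simp
  have key : ∀ d, (cnt τ d : ℝ) ^ 2 ≤
      V * (V * (ρ ^ 2 + ε) + ζ * (cnt τ d - ρ * V) + Λ * (V * D (cnt τ d / V))) := by
    intro d
    have h1 := mul_le_mul_of_nonneg_left (h (cnt τ d / V) (by positivity)) (sq_nonneg V)
    have e1 : V ^ 2 * ((cnt τ d : ℝ) / V) ^ 2 = (cnt τ d : ℝ) ^ 2 := by field_simp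
    have e2 : V ^ 2 * (ρ ^ 2 + ε + ζ * ((cnt τ d : ℝ) / V - ρ) + Λ * D (cnt τ d / V)) =
        V * (V * (ρ ^ 2 + ε) + ζ * (cnt τ d - ρ * V) + Λ * (V * D (cnt τ d / V))) := by
      field_simp
    rwa [e1, e2] at h1
  rw [Nn_eq_sum]
  refine (Finset.sum_le_sum fun d _ => key d).trans ?_
  rw [← Finset.mul_sum]
  refine mul_le_mul_of_nonneg_left ?_ hV0.le
  rw [Finset.sum_add_distrib, Finset.sum_add_distrib, ← Finset.mul_sum, ← Finset.mul_sum,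
    ← Finset.mul_sum, Finset.sum_sub_distrib, hc]
  simp only [Finset.sum_const, Finset.card_univ, nsmul_eq_mul, hcard]
  have h2 : ζ * (N - ((⌊L / l⌋₊ + 2 : ℕ) : ℝ) ^ 3 * (ρ * V)) ≤ 0 :=
    mul_nonpos_of_nonneg_of_nonpos hζ (by linarith)
  have e3 : DS D l s L x = ∑ d, V * D (cnt τ d / V) := rfl
  rw [e3]
  linarith

/-- `W j x ≤ (1 + CJ r j) Nn τ / (2 l³)` (`Wk_le`), `Nn τ = (l+2)⁶ ∑ u_d²` with
`u_d = cnt τ d / (l+2)³`; sum the inequality `Ext` over the tiles: the `ζ` term is `≤ 0` since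
`N ≤ ρ L³ ≤ ρ n (l+2)³` (`eventually_tiles_vol`), and `DS < E G j L³` off `neg_DS`, where
`E G j → 0`. -/
theorem Sys.top_neg (S : Sys) {G β ρ μ π : ℝ} (hG : 1 ≤ G) (hβ : 1 / 2 ≤ β) (hβ' : β ≤ 2)
    (hρ : 0 ≤ ρ) (hρ' : ρ ≤ G) (hπ : |π| ≤ G * S.κ) (hs : Supp (g S.φ β) μ π ρ)
    (he : Ext (g S.φ β) μ π ρ) {ε : ℝ} (hε : 0 < ε) : ∀ᶠ j in atTop,
    Neg S.φ β ρ fun L => {x | P1 x ≤ 40 * G ^ 2 * L ^ 3 ∧ (ρ ^ 2 / 2 + ε) * L ^ 3 < S.W j x} := by
  obtain ⟨ζ, Λ, hζ, hΛ, hext⟩ := he ε hε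
  have hF : Tendsto (fun j => (1 + CJ * S.r j) * ((1 + 2 * S.r j) ^ 3 *
      (((1 + 27 * S.r j) * (ρ ^ 2 + ε) + Λ * S.E G j) / 2))) atTop
      (𝓝 ((1 + CJ * 0) * ((1 + 2 * 0) ^ 3 * (((1 + 27 * 0) * (ρ ^ 2 + ε) + Λ * 0) / 2)))) := by
    have h1 := S.tendsto_r
    have h2 := S.tendsto_E G
    refine ((h1.const_mul CJ).const_add 1).mul ((((h1.const_mul 2).const_add 1).pow 3).mul
      (((((h1.const_mul 27).const_add 1).mul_const _).add (h2.const_mul Λ)).div_const 2))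
  have hlt : (1 + CJ * 0) * ((1 + 2 * 0) ^ 3 * (((1 + 27 * 0) * (ρ ^ 2 + ε) + Λ * 0) / 2)) <
      ρ ^ 2 / 2 + ε := by
    simp only [mul_zero, add_zero, one_pow, one_mul]
    linarith
  filter_upwards [hF.eventually (gt_mem_nhds hlt)] with j hj
  have hl := S.l_pos j
  have hl1 : 1 ≤ S.l j := by linarith [S.two_le_l j]
  refine (S.neg_DS hG hβ hβ' hρ hρ' hπ hs j).mono ?_
  filter_upwards [eventually_tiles_vol hl1 (η := 1 / S.l j) (by positivity),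
    eventually_gt_atTop 0] with L hL hL0
  rintro x ⟨⟨hP, hW⟩, hx⟩
  obtain ⟨n, hn, hCr⟩ := S.exists_sh' hG j hx hP
  refine ⟨hP, n, hn, hCr, ?_⟩
  by_contra hDS
  rw [not_le] at hDS
  obtain ⟨hs0, hs1⟩ := S.sh_mem hn
  have hL3 : 0 < L ^ 3 := by positivity
  have hN : ((⌊ρ * L ^ 3⌋₊ : ℕ) : ℝ) ≤
      ρ * (((⌊L / S.l j⌋₊ + 2 : ℕ) : ℝ) ^ 3 * (S.l j + 2) ^ 3) :=
    (Nat.floor_le (by positivity)).trans (mul_le_mul_of_nonneg_left hL.1 hρ)
  have h1 := Nn_le_of_ext (D := fun u => g S.φ β u - (μ * u - π)) (s := S.sh j n) hl hζ hext x hN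
  have hR : S.l j ≤ S.R j := by linarith [S.l_le j]
  have h2 := Wk_le hl hR (labs_inG hl hs0 hs1 hx)
  rw [Nn_comp ix_injective] at h2
  have hr := S.r_nonneg j
  have hir := S.inv_l_le_r j
  have hvol : ((⌊L / S.l j⌋₊ + 2 : ℕ) : ℝ) ^ 3 * (S.l j + 2) ^ 3 ≤ (1 + 27 * S.r j) * L ^ 3 := by
    rw [← mul_pow]
    refine le_trans (pow_le_pow_left₀ (by positivity) (le_add_of_nonneg_right zero_le_two) 3)
      (hL.2.1.trans (mul_le_mul_of_nonneg_right ?_ hL3.le))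
    have : 26 / S.l j = 26 * (1 / S.l j) := by ring
    linarith
  set X := (1 + 27 * S.r j) * (ρ ^ 2 + ε) + Λ * S.E G j with hX
  have h3 : ((⌊L / S.l j⌋₊ + 2 : ℕ) : ℝ) ^ 3 * (S.l j + 2) ^ 3 * (ρ ^ 2 + ε) +
      Λ * DS (fun u => g S.φ β u - (μ * u - π)) (S.l j) (S.sh j n) L x ≤ X * L ^ 3 := by
    have a1 := mul_le_mul_of_nonneg_right hvol (show 0 ≤ ρ ^ 2 + ε by positivity)
    have a2 := mul_le_mul_of_nonneg_left hDS.le hΛ
    rw [hX]
    linarith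
  have hE0 : 0 ≤ S.E G j := by
    have := S.κ_pos
    have := S.tail_nonneg j
    have := four_le_CW
    unfold Sys.E
    positivity
  have hX0 : 0 ≤ X := by positivity
  have h4 : Nn (labs (S.l j) (S.sh j n) L x) / (2 * S.l j ^ 3) ≤
      (1 + 2 * S.r j) ^ 3 * (X / 2) * L ^ 3 := by
    have a1 : (S.l j + 2) ^ 3 ≤ (1 + 2 * S.r j) ^ 3 * S.l j ^ 3 := by
      rw [← mul_pow]
      refine pow_le_pow_left₀ (by positivity) ?_ 3
      rw [div_le_iff₀ hl] at hir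
      linarith
    rw [div_le_iff₀ (by positivity)]
    calc Nn (labs (S.l j) (S.sh j n) L x) ≤ (S.l j + 2) ^ 3 * (X * L ^ 3) :=
          h1.trans (mul_le_mul_of_nonneg_left h3 (by positivity))
      _ ≤ (1 + 2 * S.r j) ^ 3 * S.l j ^ 3 * (X * L ^ 3) :=
          mul_le_mul_of_nonneg_right a1 (by positivity)
      _ = _ := by ring
  have h5 : 1 + CJ * S.l j / S.R j ≤ 1 + CJ * S.r j := by
    have := mul_le_mul_of_nonneg_left (S.l_div_le_r j) CJ_nonneg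
    rw [mul_div_assoc]
    linarith
  have h6 : S.W j x ≤ (1 + CJ * S.r j) * ((1 + 2 * S.r j) ^ 3 * (X / 2) * L ^ 3) := by
    have hCJ := CJ_nonneg
    have hRp := S.R_pos j
    refine h2.trans ((mul_le_mul_of_nonneg_left h4 (by positivity)).trans
      (mul_le_mul_of_nonneg_right h5 (by positivity)))
  have h7 := mul_lt_mul_of_pos_right hj hL3
  have e : (1 + CJ * S.r j) * ((1 + 2 * S.r j) ^ 3 * (X / 2) * L ^ 3) =
      (1 + CJ * S.r j) * ((1 + 2 * S.r j) ^ 3 * (X / 2)) * L ^ 3 := by ring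
  linarith

/-- `neg_P1`, `top_neg` at a large level `j`, `level_neg` at the levels `k < j`, telescoping,
`En_J_le j`, `En_Jlo`. -/
theorem homog {G : ℝ} (hG : 1 ≤ G) : ∃ C : ℝ, 0 ≤ C ∧ ∀ (S : Sys) (β ρ μ π : ℝ),
    1 / 2 ≤ β → β ≤ 2 → 0 ≤ ρ → ρ ≤ G → |μ| ≤ G * S.κ → |π| ≤ G * S.κ →
    Supp (g S.φ β) μ π ρ → Ext (g S.φ β) μ π ρ → ∀ θ : ℝ,
    (∀ n, ∑ j ∈ Finset.range n, S.d j ≤ θ) → ∀ ε : ℝ, 0 < ε →
    Neg S.φ β ρ fun L => {x | S.tail 0 * (ρ ^ 2 / 2 + C * θ + ε) * L ^ 3 < En S.J x} := by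
  obtain ⟨C, hC, hlev⟩ := level_neg hG
  refine ⟨C, hC, fun S β ρ μ π hβ hβ' hρ hρ' hμ hπ hs he θ hθ ε hε => ?_⟩
  have ht0 : 0 < S.tail 0 := by
    have h1 := S.sum_add_tail 1
    rw [Finset.sum_range_one] at h1
    linarith [S.a_pos 0, S.tail_nonneg 1]
  have hε3 : 0 < ε / 3 := by positivity
  have htail : ∀ᶠ j in atTop, S.tail j * (CW * (40 * G ^ 2)) < S.tail 0 * (ε / 3) := by
    have h1 := S.tendsto_tail.mul_const (CW * (40 * G ^ 2))
    rw [zero_mul] at h1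
    exact h1.eventually (gt_mem_nhds (by positivity))
  obtain ⟨j, hj1, hj2⟩ := ((S.top_neg hG hβ hβ' hρ hρ' hπ hs he hε3).and htail).exists
  set η := ε / 3 / (j + 1) with hη
  have hη0 : 0 < η := by positivity
  have hall := ((S.neg_P1 hG hβ hβ' hρ hρ' hμ hπ hs).union hj1).union
    (Neg.biUnion (Finset.range j) fun k _ => hlev S β ρ μ π hβ hβ' hρ hρ' hμ hπ hs k η hη0)
  refine hall.mono ?_
  filter_upwards [eventually_gt_atTop 0] with L hL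
  rintro x ⟨hx, -⟩
  by_contra hn
  simp only [mem_union, mem_setOf_eq, mem_iUnion, not_or, not_exists, not_and, not_lt,
    Finset.mem_range] at hn hx
  obtain ⟨⟨hP, htop⟩, hl⟩ := hn
  have hL3 : 0 < L ^ 3 := by positivity
  have hθ0 : 0 ≤ θ := by simpa using hθ 0
  have htel : ∀ i, i ≤ j → S.W (j - i) x ≤
      S.W j x + (C * ∑ k ∈ Finset.Ico (j - i) j, S.d k + i * η) * L ^ 3 := by
    intro i
    induction i with
    | zero => intro _; simp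
    | succ i ih =>
      intro hi
      have h1 := ih (by omega)
      have h2 := hl (j - (i + 1)) (by omega) hP
      have e : j - (i + 1) + 1 = j - i := by omega
      rw [e] at h2
      rw [Finset.sum_eq_sum_Ico_succ_bot (by omega : j - (i + 1) < j), e]
      push_cast
      linarith
  have hW : ∀ k < j, S.W k x ≤ (ρ ^ 2 / 2 + C * θ + 2 * (ε / 3)) * L ^ 3 := by
    intro k hk
    have h1 := htel (j - k) (by omega)
    have e : j - (j - k) = k := by omega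
    rw [e] at h1
    have h2 : ∑ i ∈ Finset.Ico k j, S.d i ≤ θ := by
      refine le_trans (Finset.sum_le_sum_of_subset_of_nonneg ?_ fun i _ _ => S.d_nonneg i) (hθ j)
      intro i hi
      exact Finset.mem_range.2 (Finset.mem_Ico.1 hi).2
    have h3 : ((j - k : ℕ) : ℝ) * η ≤ ε / 3 := by
      have h4 : ((j - k : ℕ) : ℝ) ≤ j + 1 := by
        have : j - k ≤ j + 1 := by omega
        exact_mod_cast this
      refine (mul_le_mul_of_nonneg_right h4 hη0.le).trans_eq ?_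
      rw [hη]
      field_simp
    have h5 := mul_le_mul_of_nonneg_left h2 hC
    have h6 : (C * ∑ i ∈ Finset.Ico k j, S.d i + ((j - k : ℕ) : ℝ) * η) * L ^ 3 ≤
        (C * θ + ε / 3) * L ^ 3 := mul_le_mul_of_nonneg_right (by linarith) hL3.le
    have h7 := htop hP
    linarith
  have h1 : En (S.Jlo j) x ≤ S.tail 0 * ((ρ ^ 2 / 2 + C * θ + 2 * (ε / 3)) * L ^ 3) := by
    rw [S.En_Jlo]
    calc ∑ i ∈ Finset.range j, S.a i * S.W i x
        ≤ ∑ i ∈ Finset.range j, S.a i * ((ρ ^ 2 / 2 + C * θ + 2 * (ε / 3)) * L ^ 3) :=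
          Finset.sum_le_sum fun i hi =>
            mul_le_mul_of_nonneg_left (hW i (Finset.mem_range.1 hi)) (S.a_pos i).le
      _ = (∑ i ∈ Finset.range j, S.a i) * ((ρ ^ 2 / 2 + C * θ + 2 * (ε / 3)) * L ^ 3) := by
          rw [Finset.sum_mul]
      _ ≤ _ := by
          refine mul_le_mul_of_nonneg_right ?_ (by positivity)
          linarith [S.sum_add_tail j, S.tail_nonneg j]
  have h2 := S.En_J_le j x
  have h3 : S.tail j * (CW * P1 x) ≤ S.tail j * (CW * (40 * G ^ 2 * L ^ 3)) :=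
    mul_le_mul_of_nonneg_left (mul_le_mul_of_nonneg_left hP (by linarith [four_le_CW]))
      (S.tail_nonneg j)
  have h4 := mul_lt_mul_of_pos_right hj2 hL3
  nlinarith

end Crest.Agent.R149
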