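import Crest.Agent.R149.Basic

/-! Row 149: lower bounds for the partition function of a single site. -/

set_option autoImplicit false

namespace Crest.Agent.R149

open MeasureTheory Filter Set Crest.ProbabilityR.Continuum
open scoped ENNReal Topology

theorem le_Zr_of {φ : ℝ → ℝ} {β y : ℝ} {Λ : Set Pt} {N : ℕ} {F : Set (Fin N → Pt)}
    (hF : MeasurableSet F) (hΛ : F ⊆ box Λ N) (h : ∀ x ∈ F, β * En φ x ≤ y) :
    (N.factorial : ℝ≥0∞)⁻¹ * (ENNReal.ofReal (Real.exp (-y)) * volume F) ≤ Zr φ β Λ N := by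
  unfold Zr ZA
  rw [univ_inter]
  gcongr
  calc ENNReal.ofReal (Real.exp (-y)) * volume F = ∫⁻ _ in F, ENNReal.ofReal (Real.exp (-y)) := by
        rw [setLIntegral_const]
    _ ≤ ∫⁻ x in F, bw φ β x := by
        refine setLIntegral_mono' hF fun x hx => ENNReal.ofReal_le_ofReal ?_
        exact Real.exp_le_exp.2 (by have := h x hx; linarith)
    _ ≤ _ := lintegral_mono_set hΛ

theorem En_le_of_pairs {φ : ℝ → ℝ} {K : ℝ} {N : ℕ} {x : Fin N → Pt}
    (h : ∀ a b, a ≠ b → φ (dist (x a) (x b)) ≤ K) : En φ x ≤ K * (N * (N - 1) / 2) := by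
  unfold En
  have h1 : ∑ a : Fin N, ∑ b : Fin N, (if a = b then 0 else φ (dist (x a) (x b))) ≤
      ∑ a : Fin N, ∑ b : Fin N, (K - if a = b then K else 0) := by
    refine Finset.sum_le_sum fun a _ => Finset.sum_le_sum fun b _ => ?_
    by_cases hab : a = b
    · simp [hab]
    · simpa [hab] using h a b hab
  have h2 : ∑ a : Fin N, ∑ b : Fin N, (K - if a = b then K else 0) = K * (N * (N - 1)) := by
    simp only [Finset.sum_sub_distrib, Finset.sum_const, Finset.card_univ, Fintype.card_fin,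
      nsmul_eq_mul, Finset.sum_ite_eq, Finset.mem_univ, if_true]
    ring
  linarith

theorem exists_exp_le {c : ℝ≥0∞} (hc : c ≠ 0) : ∃ C : ℝ, ENNReal.ofReal (Real.exp (-C)) ≤ c := by
  by_cases ht : c = ⊤
  · exact ⟨0, by simp [ht]⟩
  · refine ⟨-Real.log c.toReal, ?_⟩
    rw [neg_neg, Real.exp_log (ENNReal.toReal_pos hc ht), ENNReal.ofReal_toReal ht]

/-- points on the first axis -/
noncomputable def axp (t : ℝ) : Pt := EuclideanSpace.single 0 t

theorem norm_axp (t : ℝ) : ‖axp t‖ = |t| := by simp [axp]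

theorem axp_sub (s t : ℝ) : axp s - axp t = axp (s - t) := by
  ext i
  by_cases h : i = 0 <;> simp [axp, h]

theorem ball_dist_le {y z c d : Pt} {r s : ℝ} (hy : y ∈ Metric.ball c r)
    (hz : z ∈ Metric.ball d s) : |dist y z - dist c d| ≤ r + s := by
  have h := dist_dist_dist_le y z c d
  rw [Real.dist_eq] at h
  have h1 := Metric.mem_ball.1 hy
  have h2 := Metric.mem_ball.1 hz
  linarith

/-- `x i ∈ ball ((τ / 3) i e₀) (τ / 10)`, `i < k ≤ 3` -/
theorem site_loose {τ : ℝ} (hτ : 0 < τ) : ∃ C : ℝ, ∀ (φ : ℝ → ℝ) (β K : ℝ) (k : ℕ), k ≤ 3 →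
    0 ≤ β → (∀ r, τ / 10 ≤ r → φ r ≤ K) →
    ENNReal.ofReal (Real.exp (-(β * K * (k * (k - 1) / 2) + C))) ≤
      Zr φ β (Metric.ball 0 τ) k := by
  set v : ℝ≥0∞ := volume (Metric.ball (0 : Pt) (τ / 10)) with hv
  have hv0 : 0 < v := Metric.measure_ball_pos _ _ (by positivity)
  have hm0 : 0 < min 1 v := lt_min one_pos hv0
  obtain ⟨C, hC⟩ := exists_exp_le (c := (6 : ℝ≥0∞)⁻¹ * (min 1 v) ^ 3)
    (mul_ne_zero (by simp) (pow_ne_zero _ hm0.ne'))
  refine ⟨C, fun φ β K k hk hβ hK => ?_⟩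
  set F : Set (Fin k → Pt) := Set.pi univ fun i => Metric.ball (axp (τ / 3 * (i : ℕ))) (τ / 10)
    with hF
  have hFm : MeasurableSet F := MeasurableSet.univ_pi fun i => Metric.isOpen_ball.measurableSet
  have hFΛ : F ⊆ box (Metric.ball 0 τ) k := by
    intro x hx i _
    have h1 := hx i (mem_univ _)
    rw [Metric.mem_ball, dist_eq_norm] at h1
    rw [Metric.mem_ball, dist_zero_right]
    have h2 := norm_sub_norm_le (x i) (axp (τ / 3 * (i : ℕ)))
    rw [norm_axp, abs_of_nonneg (by positivity)] at h2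
    have h3 : ((i : ℕ) : ℝ) ≤ 2 := by
      have : (i : ℕ) ≤ 2 := by have := i.2; omega
      exact_mod_cast this
    nlinarith
  have hE : ∀ x ∈ F, β * En φ x ≤ β * K * (k * (k - 1) / 2) := by
    intro x hx
    rw [mul_assoc]
    refine mul_le_mul_of_nonneg_left (En_le_of_pairs fun a b hab => hK _ ?_) hβ
    have h1 := ball_dist_le (hx a (mem_univ _)) (hx b (mem_univ _))
    rw [dist_eq_norm (axp _), axp_sub, norm_axp, ← mul_sub, abs_mul,
      abs_of_nonneg (show 0 ≤ τ / 3 by positivity)] at h1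
    have h2 : (1 : ℝ) ≤ |((a : ℕ) : ℝ) - ((b : ℕ) : ℝ)| := by
      have h3 : ((a : ℕ) : ℤ) - ((b : ℕ) : ℤ) ≠ 0 := by
        intro h
        apply hab
        ext
        omega
      have h4 := Int.one_le_abs h3
      exact_mod_cast h4
    have h5 := (abs_le.1 h1).1
    nlinarith
  refine le_trans ?_ (le_Zr_of hFm hFΛ hE)
  have hvol : volume F = v ^ k := by
    rw [hF, volume_pi, Measure.pi_pi]
    simp only [Measure.addHaar_ball_center, Finset.prod_const, Finset.card_univ, Fintype.card_fin,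
      hv]
  rw [hvol, neg_add, Real.exp_add, ENNReal.ofReal_mul (Real.exp_pos _).le, mul_left_comm]
  refine mul_le_mul' le_rfl (hC.trans (mul_le_mul' ?_ ?_))
  · refine ENNReal.inv_le_inv.2 ?_
    have : k.factorial ≤ 6 := (Nat.factorial_le hk).trans (by decide)
    exact_mod_cast this
  · calc (min 1 v) ^ 3 ≤ (min 1 v) ^ k := pow_le_pow_right_of_le_one' (min_le_left _ _) hk
      _ ≤ v ^ k := by gcongr; exact min_le_right _ _

/-- `x 0 ∈ ball 0 (τ / 2)` and `x i ∈ ball (x 0 + (3 δ / 20) i e₀) (δ / 40)` for `i = 1, 2, 3`;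
the volume of this set is `|B (τ/2)| (|B δ| / 64000)³` (Fubini: `measurePreserving_piFinSuccAbove`
or `MeasurableEquiv.piFinSuccAbove`, `Measure.prod_apply`, `Measure.addHaar_ball`). -/
theorem site_tight {τ : ℝ} (hτ : 0 < τ) : ∃ C : ℝ, ∀ (φ : ℝ → ℝ) (β K δ : ℝ),
    0 ≤ β → 0 < δ → δ ≤ τ → (∀ r, δ / 10 ≤ r → r ≤ δ / 2 → φ r ≤ K) →
    ENNReal.ofReal (Real.exp (-(6 * β * K + C))) * volume (Metric.ball (0 : Pt) δ) ^ 3 ≤
      Zr φ β (Metric.ball 0 τ) 4 := by
  set v : ℝ≥0∞ := volume (Metric.ball (0 : Pt) (τ / 2)) with hv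
  have hv0 : 0 < v := Metric.measure_ball_pos _ _ (by positivity)
  set w : ℝ≥0∞ := ENNReal.ofReal ((1 / 40 : ℝ) ^ 3) with hw
  have hw0 : w ≠ 0 := by rw [hw]; exact (ENNReal.ofReal_pos.2 (by norm_num)).ne'
  obtain ⟨C, hC⟩ := exists_exp_le (c := (24 : ℝ≥0∞)⁻¹ * (v * w ^ 3))
    (mul_ne_zero (by simp) (mul_ne_zero hv0.ne' (pow_ne_zero _ hw0)))
  refine ⟨C, fun φ β K δ hβ hδ hδτ hK => ?_⟩
  set c : Fin 3 → Pt := fun i => axp (3 * δ / 20 * ((i : ℕ) + 1)) with hc
  set G : Set (Pt × (Fin 3 → Pt)) :=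
    {p | p.1 ∈ Metric.ball (0 : Pt) (τ / 2) ∧ ∀ i, p.2 i ∈ Metric.ball (p.1 + c i) (δ / 40)} with hG
  have hGo : IsOpen G := by
    have : G = {p : Pt × (Fin 3 → Pt) | dist p.1 0 < τ / 2} ∩
        ⋂ i, {p : Pt × (Fin 3 → Pt) | dist (p.2 i) (p.1 + c i) < δ / 40} := by
      ext p
      simp [hG, Metric.mem_ball]
    rw [this]
    refine (isOpen_lt (by fun_prop) continuous_const).inter (isOpen_iInter_of_finite fun i => ?_)
    exact isOpen_lt (by fun_prop) continuous_const
  have hmp := measurePreserving_piFinSuccAbove (fun _ : Fin 4 => (volume : Measure Pt)) 0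
  set F : Set (Fin 4 → Pt) := MeasurableEquiv.piFinSuccAbove (fun _ : Fin 4 => Pt) 0 ⁻¹' G with hF
  have hFm : MeasurableSet F := hmp.measurable hGo.measurableSet
  have hmem : ∀ x ∈ F, x 0 ∈ Metric.ball (0 : Pt) (τ / 2) ∧
      ∀ i : Fin 3, x i.succ ∈ Metric.ball (x 0 + c i) (δ / 40) := by
    intro x hx
    exact hx
  have hci : ∀ i : Fin 3, 3 * δ / 20 ≤ ‖c i‖ ∧ ‖c i‖ ≤ 9 * δ / 20 := by
    intro i
    have h3 : ((i : ℕ) : ℝ) ≤ 2 := by
      have : (i : ℕ) ≤ 2 := by have := i.2; omega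
      exact_mod_cast this
    have h4 : (0 : ℝ) ≤ ((i : ℕ) : ℝ) := Nat.cast_nonneg _
    simp only [hc]
    rw [norm_axp, abs_of_nonneg (by positivity)]
    constructor <;> nlinarith
  have h0i : ∀ x ∈ F, ∀ i : Fin 3, δ / 10 ≤ dist (x i.succ) (x 0) ∧
      dist (x i.succ) (x 0) ≤ δ / 2 := by
    intro x hx i
    have h1 := (hmem x hx).2 i
    rw [Metric.mem_ball] at h1
    have h2 := abs_dist_sub_le (x i.succ) (x 0 + c i) (x 0)
    have h3 : dist (x 0 + c i) (x 0) = ‖c i‖ := by simp [dist_eq_norm]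
    rw [h3] at h2
    have h4 := abs_le.1 h2
    have h5 := hci i
    constructor <;> linarith [h4.1, h4.2, h5.1, h5.2]
  have hFΛ : F ⊆ box (Metric.ball 0 τ) 4 := by
    intro x hx i _
    have h1 := (hmem x hx).1
    rw [Metric.mem_ball] at h1 ⊢
    refine Fin.cases ?_ (fun j => ?_) i
    · linarith
    · have h2 := (h0i x hx j).2
      have h3 := dist_triangle (x j.succ) (x 0) 0
      linarith
  have hE : ∀ x ∈ F, β * En φ x ≤ 6 * β * K := by
    intro x hx
    have h1 : En φ x ≤ K * (((4 : ℕ) : ℝ) * (((4 : ℕ) : ℝ) - 1) / 2) := by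
      refine En_le_of_pairs fun a b => ?_
      refine Fin.cases ?_ (fun i => ?_) a <;> refine Fin.cases ?_ (fun j => ?_) b
      · intro h; exact absurd rfl h
      · intro _
        rw [dist_comm]
        exact hK _ (h0i x hx j).1 (h0i x hx j).2
      · intro _
        exact hK _ (h0i x hx i).1 (h0i x hx i).2
      · intro hij
        have h1 := ball_dist_le ((hmem x hx).2 i) ((hmem x hx).2 j)
        rw [dist_add_left, dist_eq_norm (c i)] at h1
        simp only [hc] at h1
        rw [axp_sub, norm_axp, ← mul_sub, abs_mul,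
          abs_of_nonneg (show 0 ≤ 3 * δ / 20 by positivity)] at h1
        have h2 : (1 : ℝ) ≤ |(((i : ℕ) : ℝ) + 1) - (((j : ℕ) : ℝ) + 1)| ∧
            |(((i : ℕ) : ℝ) + 1) - (((j : ℕ) : ℝ) + 1)| ≤ 2 := by
          have h3 : ((i : ℕ) : ℤ) + 1 - (((j : ℕ) : ℤ) + 1) ≠ 0 := by
            intro h
            apply hij
            congr 1
            ext
            omega
          have h4 := Int.one_le_abs h3
          have h5 : |((i : ℕ) : ℤ) + 1 - (((j : ℕ) : ℤ) + 1)| ≤ 2 := by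
            have := i.2
            have := j.2
            rw [abs_le]
            constructor <;> omega
          constructor
          · exact_mod_cast h4
          · exact_mod_cast h5
        have h5 := abs_le.1 h1
        refine hK _ ?_ ?_ <;> nlinarith [h5.1, h5.2, h2.1, h2.2]
    have h2 := mul_le_mul_of_nonneg_left h1 hβ
    push_cast at h2
    linarith
  refine le_trans ?_ (le_Zr_of hFm hFΛ hE)
  have hball : ∀ y : Pt, volume (Metric.ball y (δ / 40)) =
      w * volume (Metric.ball (0 : Pt) δ) := by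
    intro y
    have := Measure.addHaar_ball_mul_of_pos (volume : Measure Pt) y
      (show (0 : ℝ) < 1 / 40 by norm_num) δ
    rw [show (1 / 40 : ℝ) * δ = δ / 40 by ring] at this
    rw [this, hw]
    simp
  have hvol : volume F = v * (w * volume (Metric.ball (0 : Pt) δ)) ^ 3 := by
    rw [hF, volume_pi, hmp.measure_preimage hGo.measurableSet.nullMeasurableSet,
      Measure.prod_apply hGo.measurableSet]
    have : (fun a : Pt => (Measure.pi fun _ : Fin 3 => (volume : Measure Pt)) (Prod.mk a ⁻¹' G)) =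
        (Metric.ball (0 : Pt) (τ / 2)).indicator
          fun _ => (w * volume (Metric.ball (0 : Pt) δ)) ^ 3 := by
      funext a
      by_cases ha : a ∈ Metric.ball (0 : Pt) (τ / 2)
      · rw [indicator_of_mem ha]
        have : Prod.mk a ⁻¹' G = Set.pi univ fun i => Metric.ball (a + c i) (δ / 40) := by
          ext z
          simp only [hG, mem_preimage, mem_ofPred_eq, ha, true_and, Set.mem_pi, mem_univ, true_imp_iff]
        rw [this, Measure.pi_pi]
        simp only [hball, Finset.prod_const, Finset.card_univ, Fintype.card_fin]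
      · rw [indicator_of_notMem ha]
        have : Prod.mk a ⁻¹' G = ∅ := by
          ext z
          simp only [hG, mem_preimage, mem_ofPred_eq, ha, false_and, mem_empty_iff_false]
        rw [this, measure_empty]
    rw [this, lintegral_indicator Metric.isOpen_ball.measurableSet, setLIntegral_const, mul_comm]
  rw [hvol, neg_add, Real.exp_add, ENNReal.ofReal_mul (Real.exp_pos _).le, mul_left_comm, mul_assoc]
  refine mul_le_mul' le_rfl ?_
  have h24 : ((Nat.factorial 4 : ℕ) : ℝ≥0∞) = 24 := by norm_num [Nat.factorial]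
  rw [h24, mul_pow, ← mul_assoc v, ← mul_assoc]
  exact mul_le_mul' hC le_rfl

theorem exists_delta {τ : ℝ} (hτ : 0 < τ) (lam₀ : ℝ) : ∃ δ lam : ℝ, 0 < δ ∧ δ ≤ τ ∧ lam₀ ≤ lam ∧
    volume (Metric.ball (0 : Pt) δ) = ENNReal.ofReal (Real.exp (-lam)) := by
  set v : ℝ := (volume (Metric.ball (0 : Pt) 1)).toReal with hv
  have hv0 : 0 < v :=
    ENNReal.toReal_pos (Metric.measure_ball_pos _ _ one_pos).ne' measure_ball_lt_top.ne
  set δ := min τ (min 1 (Real.exp (-lam₀) / v)) with hδ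
  have hδ0 : 0 < δ := lt_min hτ (lt_min one_pos (by positivity))
  have hδ1 : δ ≤ 1 := (min_le_right _ _).trans (min_le_left _ _)
  have hδ2 : δ ≤ Real.exp (-lam₀) / v := (min_le_right _ _).trans (min_le_right _ _)
  have hp : 0 < δ ^ 3 * v := by positivity
  refine ⟨δ, -Real.log (δ ^ 3 * v), hδ0, min_le_left _ _, ?_, ?_⟩
  · rw [le_neg, Real.log_le_iff_le_exp hp]
    rw [le_div_iff₀ hv0] at hδ2
    have h3 : δ ^ 3 ≤ δ := by
      calc δ ^ 3 ≤ δ ^ 1 := pow_le_pow_of_le_one hδ0.le hδ1 (by norm_num)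
        _ = δ := pow_one δ
    nlinarith
  · rw [neg_neg, Real.exp_log hp, Measure.addHaar_ball_of_pos _ _ hδ0,
      ENNReal.ofReal_mul (by positivity), hv, ENNReal.ofReal_toReal measure_ball_lt_top.ne]
    simp

end Crest.Agent.R149
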