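import Crest.Agent.R149.Scales
import Crest.Agent.R149.Site
import Crest.Agent.R149.Homog

/-! Row 149: existence of a model. -/

set_option autoImplicit false

namespace Crest.Agent.R149

open MeasureTheory Filter Set Crest.ProbabilityR.Continuum
open scoped ENNReal Topology

section
variable {ψ : ℝ → ℝ} {K c σ τ δ r : ℝ}

theorem φc0_eq_zero (hτ : 0 < τ) (hδ : 0 < δ) (hδσ : δ ≤ σ) (hr : σ + τ ≤ r) :
    φc0 K c σ τ δ r = 0 := by
  unfold φc0
  rw [ramp_of_nonpos, ramp_of_nonpos]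
  · ring
  · rw [sub_nonpos, le_div_iff₀ hδ]; linarith
  · exact div_nonpos_of_nonpos_of_nonneg (by linarith) hτ.le

theorem step_le_φc0 (hτ : 0 < τ) (hδ : 0 < δ) (hK : 0 ≤ K) (hc : 0 ≤ c) (r : ℝ) :
    (if r < σ then K else 0) - (if r < δ then c else 0) ≤ φc0 K c σ τ δ r := by
  unfold φc0
  refine sub_le_sub ?_ ?_
  · split_ifs with h
    · rw [ramp_of_one_le, mul_one]
      rw [le_div_iff₀ hτ]; linarith
    · exact mul_nonneg hK (ramp_nonneg _)
  · split_ifs with h
    · exact mul_le_of_le_one_right hc (ramp_le_one _)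
    · rw [ramp_of_nonpos, mul_zero]
      rw [sub_nonpos, le_div_iff₀ hδ]; linarith

theorem φc0_le (hK : 0 ≤ K) (hc : 0 ≤ c) (r : ℝ) : φc0 K c σ τ δ r ≤ K := by
  unfold φc0
  have h1 := mul_le_of_le_one_right hK (ramp_le_one ((σ + τ - r) / τ))
  have h2 := mul_nonneg hc (ramp_nonneg (2 - 2 * r / δ))
  linarith

theorem φc0_le' (hδ : 0 < δ) (hK : 0 ≤ K) (hr : r ≤ δ / 2) : φc0 K c σ τ δ r ≤ K - c := by
  unfold φc0
  have h1 := mul_le_of_le_one_right hK (ramp_le_one ((σ + τ - r) / τ))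
  have h2 : ramp (2 - 2 * r / δ) = 1 := by
    refine ramp_of_one_le ?_
    have : 2 * r / δ ≤ 1 := by rw [div_le_iff₀ hδ]; linarith
    linarith
  rw [h2]; linarith

theorem continuous_φc0 (K c σ τ δ : ℝ) : Continuous (φc0 K c σ τ δ) := by
  unfold φc0
  have := continuous_ramp
  fun_prop

end

theorem exists_theta {C : ℝ} (hC : 0 ≤ C) : ∃ θ : ℝ, 0 < θ ∧ θ ≤ 1 / 10 ∧ 40 * CW * θ ≤ 1 ∧
    C * (9 * θ) ≤ 1 / 10 ^ 8 / 2 ∧ (CJ + iota⁻¹ + 1) * θ ≤ 1 / 10 ^ 9 := by
  have h1 := four_le_CW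
  have h2 := CJ_nonneg
  have h3 : 0 < iota⁻¹ := inv_pos.2 iota_pos
  set D : ℝ := 1 + CW + C + CJ + iota⁻¹ with hD
  have hD0 : 0 < D := by positivity
  have key : ∀ x : ℝ, x ≤ D → x * (1 / 10 ^ 10 / D) ≤ 1 / 10 ^ 10 := fun x hx => by
    rw [mul_div_assoc', div_le_iff₀ hD0]; nlinarith
  refine ⟨1 / 10 ^ 10 / D, by positivity, ?_, ?_, ?_, ?_⟩
  · have := key 1 (by linarith); linarith
  · have := key CW (by linarith); linarith
  · have := key C (by linarith); linarith
  · have := key (CJ + iota⁻¹ + 1) (by linarith); linarith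

/-- Order of the choices.  `C` from `homog (G := 10⁷)`; `θ > 0` with `θ ≤ 1/10`,
`40 CW θ ≤ 1`, `9 C θ ≤ 10⁻⁸ / 2`, `(CJ + iota⁻¹ + 1) θ ≤ 10⁻⁹`; `b` from `exists_scales`;
`A = ∑' b`, `e = A / 10¹⁷`; `σ, τ, D₀` from `exists_sites`; `R, Q, l`; `p', X` for `l 0`;
`δ, lam` from `exists_delta` with `e lam ≥ 1` and `≥` the constants of `site_loose`,
`site_tight`.  Then `K = lam (A + 21/25)`, `c = lam 16/25`, `κ = K - c`, `a i = lam b i / p'`;
with `c₀ = p' (A + 1/5) ∈ [0.12, 2.4]`, `d j = (tb² / c₀ + c₀ r j) / b (j+1) ≤ 9 (tb² + r j) / b (j+1)`. -/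
theorem exists_mod {ψ : ℝ → ℝ} (hm : Measurable ψ) (h0 : ∀ t, 0 ≤ ψ t)
    (h1 : ∀ t, 1 / 10 ≤ t → ψ t = 0) {p : ℝ} (hp : 1 ≤ p) (hp' : p ≤ 8)
    (hlim : Tendsto (fun L : ℝ => (packingNumber L : ℝ) / L ^ 3) atTop (𝓝 p)) :
    ∃ (M : Mod) (K c : ℝ), (M.φ0 = fun r => φc0 K c M.σ M.τ M.δ r + ψ (r / M.δ)) ∧ M.δ ≤ 1 ∧
      M.σ + M.τ ≤ 2 ∧ 2 * p / 3 < (1 + M.e) * M.p' ∧ M.p' ≤ (1 + M.e) * (2 * p / 3) ∧
      Summable fun i => M.a i * M.R i ^ (1 / 32 : ℝ) := by
  obtain ⟨C, hC0, hC⟩ := homog (G := 10 ^ 7) (by norm_num)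
  obtain ⟨θ, hθ, hθ1, hθ2, hθ3, hθ4⟩ := exists_theta hC0
  obtain ⟨b, hb0, hbs, hbθ, hsc⟩ := exists_scales hθ
  set A : ℝ := ∑' i, b i with hA
  have hA0 : 0 < A := hbs.tsum_pos (fun i => (hb0 i).le) 0 (hb0 0)
  set e : ℝ := A / 10 ^ 17 with he
  have he0 : 0 < e := by positivity
  have he1 : e ≤ 1 / 1000 := by rw [he]; linarith
  obtain ⟨σ, τ, D₀, hσ, hτ, hτ1, hστ, hsite⟩ := exists_sites hp hlim he0
  obtain ⟨R, Q, l, hD, hRm, hQ, hRQ, hQl, hlR, hr, hr0, hd, hsum⟩ := hsc D₀
  obtain ⟨p', X, hp1, hp2, hX, hXm, hXs, hpack⟩ := hsite (l 0) hD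
  obtain ⟨C1, hC1⟩ := site_loose hτ
  obtain ⟨C2, hC2⟩ := site_tight hτ
  obtain ⟨δ, lam, hδ, hδτ, hlam, hvol⟩ := exists_delta hτ ((1 + |C1| + |C2|) / e)
  rw [div_le_iff₀ he0] at hlam
  have hC1' := le_abs_self C1
  have hC2' := le_abs_self C2
  have hC1'' := abs_nonneg C1
  have hC2'' := abs_nonneg C2
  have hlam1 : 1 ≤ lam * e := by linarith
  have hlam0 : 0 < lam := by
    by_contra h
    push Not at h
    nlinarith only [h, hlam1, he0]
  have hlam2 : 1000 ≤ lam := by nlinarith only [hlam0, hlam1, he1]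
  have hp3 : 3 / 5 ≤ p' := by
    by_contra h
    push Not at h
    nlinarith only [h, hp, hp1, he0, he1]
  have hp8 : p' ≤ 8 := by nlinarith only [hp, hp', hp2, he0, he1]
  have hA1 : A ≤ 1 / 10 := by linarith only [hbθ, hθ1]
  have hp0 : 0 < p' := by linarith
  set K : ℝ := lam * (A + 21 / 25) with hK
  set c : ℝ := lam * (16 / 25) with hc
  have hK0 : 0 ≤ K := by positivity
  have hc0 : 0 ≤ c := by positivity
  have hKc : K - c = lam * (A + 1 / 5) := by rw [hK, hc]; ring
  have hδσ : δ ≤ σ := by linarith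
  set φ0 : ℝ → ℝ := fun r => φc0 K c σ τ δ r + ψ (r / δ) with hφ0
  have hlow : ∀ r, (if r < σ then K else 0) - (if r < δ then c else 0) ≤ φ0 r := fun r =>
    (step_le_φc0 hτ hδ hK0 hc0 r).trans (le_add_of_nonneg_right (h0 _))
  have hzero : ∀ r, σ + τ ≤ r → φ0 r = 0 := fun r hr => by
    simp only [hφ0]
    rw [φc0_eq_zero hτ hδ hδσ hr, h1, add_zero]
    rw [le_div_iff₀ hδ]; linarith
  have hκ0 : 0 < lam * (A + 1 / 5) := by positivity
  have hts : ∀ j, ∑' i, lam / p' * b (i + j) = lam / p' * ∑' i, b (i + j) := fun j =>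
    tsum_mul_left
  have hta : ∑' i, lam / p' * b i = lam * A / p' := by rw [tsum_mul_left]; ring
  let S : Sys :=
    { φ0 := φ0
      κ := lam * (A + 1 / 5)
      a := fun i => lam / p' * b i
      R := R
      Q := Q
      l := l
      meas0 := (continuous_φc0 K c σ τ δ).measurable.add (hm.comp (by fun_prop))
      nonneg0 := fun r => by
        refine le_trans ?_ (hlow r)
        split_ifs with h2 h3 h3
        · linarith
        · linarith
        · linarith
        · linarith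
      zero0 := fun r hr => hzero r (by linarith)
      core0 := fun r hr => by
        refine le_trans ?_ (hlow r)
        rw [if_pos (by linarith)]
        split_ifs <;> linarith
      κ_ge := by nlinarith only [hlam2, hA0]
      a_pos := fun i => by have := hb0 i; positivity
      a_sum := hbs.mul_left _
      small := by
        rw [hta, mul_div_assoc', div_le_iff₀ hp0]
        have h2 := four_le_CW
        have h3 : 40 * CW * A ≤ 1 := le_trans (by gcongr) hθ2
        have h4 : 4 * CW * A ≤ (A + 1 / 5) * p' := by nlinarith only [h3, hA0, hp3]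
        nlinarith only [h4, hlam0]
      R_mono := hRm
      Q_ge := hQ
      R_le_Q := hRQ
      Q_le := hQl
      l_le := hlR
      r_lim := hr }
  have hdS : ∀ n, ∑ j ∈ Finset.range n, S.d j ≤ 9 * θ := fun n => by
    refine le_trans ?_ (mul_le_mul_of_nonneg_left (hd n) (by norm_num))
    rw [Finset.mul_sum]
    refine Finset.sum_le_sum fun j _ => ?_
    have hrj : 0 ≤ Q j / l j + l j / R j := S.r_nonneg j
    have hbj := hb0 (j + 1)
    change (((∑' i, lam / p' * b (i + j)) / (lam * (A + 1 / 5))) ^ 2 + (Q j / l j + l j / R j)) /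
      (lam / p' * b (j + 1) / (lam * (A + 1 / 5))) ≤ _
    rw [hts]
    generalize (∑' i, b (i + j)) = t at *
    generalize Q j / l j + l j / R j = r at *
    set c₀ : ℝ := p' * (A + 1 / 5) with hc₀
    have hc1 : 3 / 25 ≤ c₀ := by nlinarith only [hc₀, hA0, hp3]
    have hc2 : c₀ ≤ 9 := by nlinarith only [hc₀, hA0, hA1, hp8, hp0]
    have hc3 : 0 < c₀ := by linarith
    have e1 : lam / p' * t / (lam * (A + 1 / 5)) = t / c₀ := by rw [hc₀]; field_simp
    have e2 : lam / p' * b (j + 1) / (lam * (A + 1 / 5)) = b (j + 1) / c₀ := by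
      rw [hc₀]; field_simp
    have e3 : ((t / c₀) ^ 2 + r) / (b (j + 1) / c₀) = (t ^ 2 / c₀ + c₀ * r) / b (j + 1) := by
      field_simp
    rw [e1, e2, e3, mul_div_assoc']
    gcongr
    have h2 : t ^ 2 / c₀ ≤ 9 * t ^ 2 := by
      rw [div_le_iff₀ hc3]; nlinarith only [sq_nonneg t, hc1]
    nlinarith only [h2, hc2, hrj]
  have hψτ : ∀ r, τ / 10 ≤ r → φ0 r ≤ K := fun r hr => by
    simp only [hφ0]
    rw [h1, add_zero]
    · exact φc0_le hK0 hc0 r
    · rw [le_div_iff₀ hδ]; linarith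
  refine ⟨{ toSys := S
            σ := σ
            δ := δ
            τ := τ
            lam := lam
            p' := p'
            A := A
            e := e
            X := X
            δ_pos := hδ
            δ_le := hδσ
            τ_pos := hτ
            A_pos := hA0
            A_le := hA1
            e_pos := he0
            e_le := le_rfl
            lam_ge := by linarith
            p'_ge := hp3
            p'_le := hp8
            κ_eq := rfl
            a_eq := hta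
            vol := hvol.le
            lower0 := hlow
            pack := hpack
            hom := fun β ρ μ π hβ hβ' hρ hρ' hμ hπ hs hext => ?_
            r0 := le_trans (mul_le_mul_of_nonneg_left hr0 ?_) hθ4
            X_card := hX
            X_mem := hXm
            X_sep := fun y hy z hz hyz y' hy' z' hz' => ?_
            site2 := fun β hβ _ => ?_
            site3 := fun β hβ _ => ?_
            site4 := fun β hβ _ => ?_ }, K, c, rfl, by change δ ≤ 1; linarith, hστ, hp1, hp2, ?_⟩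
  · refine (hC S β ρ μ π hβ hβ' hρ.le hρ' hμ hπ hs hext (9 * θ) hdS (1 / 10 ^ 8 / 2)
      (by norm_num)).mono ?_
    filter_upwards [eventually_ge_atTop (0 : ℝ)] with L hL x hx
    have hx1 : (∑' i, S.a i) * (ρ ^ 2 / 2 + 1 / 10 ^ 8) * L ^ 3 < En S.J x := hx.1
    change S.tail 0 * (ρ ^ 2 / 2 + C * (9 * θ) + 1 / 10 ^ 8 / 2) * L ^ 3 < En S.J x
    refine lt_of_le_of_lt ?_ hx1
    rw [S.tail_zero]
    have h2 : 0 ≤ ∑' i, S.a i := S.tail_zero ▸ S.tail_nonneg 0
    refine mul_le_mul_of_nonneg_right (mul_le_mul_of_nonneg_left ?_ h2) (by positivity)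
    linarith only [hθ3]
  · have := CJ_nonneg
    have := iota_pos
    positivity
  · have h2 := hXs y hy z hz hyz
    have h3 : dist y' y < τ := hy'
    have h4 : dist z' z < τ := hz'
    have h5 : σ + τ ≤ dist y' z' := by
      have h6 := dist_triangle4 y y' z' z
      rw [dist_comm y y'] at h6
      linarith
    refine ⟨fun h => ?_, hzero _ h5⟩
    rw [h, dist_self] at h5
    linarith
  · refine le_trans (ENNReal.ofReal_le_ofReal (Real.exp_le_exp.2 ?_))
      (hC1 φ0 β K 2 (by norm_num) (by linarith) hψτ)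
    rw [hK]; push_cast; nlinarith only [hlam, hC1', hC2'']
  · refine le_trans (ENNReal.ofReal_le_ofReal (Real.exp_le_exp.2 ?_))
      (hC1 φ0 β K 3 (by norm_num) (by linarith) hψτ)
    rw [hK]; push_cast; nlinarith only [hlam, hC1', hC2'']
  · refine le_trans ?_ (hC2 φ0 β (K - c) δ (by linarith) hδ hδτ fun r h2 h3 => ?_)
    · rw [hvol, ← ENNReal.ofReal_pow (Real.exp_pos _).le,
        ← ENNReal.ofReal_mul (Real.exp_pos _).le, ← Real.exp_nat_mul, ← Real.exp_add]
      refine ENNReal.ofReal_le_ofReal (Real.exp_le_exp.2 ?_)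
      rw [hKc]; push_cast; nlinarith only [hlam, hC2', hC1'']
    · simp only [hφ0]
      rw [h1, add_zero]
      · exact φc0_le' hδ hK0 h3
      · rw [le_div_iff₀ hδ]; linarith
  · change Summable fun i => lam / p' * b i * R i ^ (1 / 32 : ℝ)
    simp only [mul_assoc]
    exact hsum.mul_left _

end Crest.Agent.R149
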