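import Crest.Agent.R149.Trial
import Crest.Agent.R149.CW
import Crest.Agent.R149.Conv
import Crest.Agent.R149.Cert

/-! Row 149: the model satisfies the facts. -/

set_option autoImplicit false

namespace Crest.Agent.R149

open MeasureTheory Filter Set Crest.ProbabilityR.Continuum
open scoped ENNReal Topology

namespace Mod
variable (M : Mod) {β u : ℝ}

theorem lam_pos : 0 < M.lam :=
  (mul_pos_iff_of_pos_left M.e_pos).1 (lt_of_lt_of_le one_pos M.lam_ge)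

theorem inv_lam_le : 1 / M.lam ≤ M.e := by
  rw [div_le_iff₀ M.lam_pos]
  exact M.lam_ge

theorem p'_pos : 0 < M.p' := by linarith [M.p'_ge]

theorem σ_pos : 0 < M.σ := M.δ_pos.trans_le M.δ_le

theorem lam_A : 10 ^ 17 ≤ M.lam * M.A := by
  have h1 := mul_le_mul_of_nonneg_right M.e_le M.lam_pos.le
  have h2 := M.lam_ge
  linarith

theorem g_eq (β u : ℝ) : g M.toSys.φ β (u * M.p') = M.lam * M.p' * M.Γ β u := by
  rw [Γ, mul_div_cancel₀ _ (mul_pos M.lam_pos M.p'_pos).ne']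

/-- `En_mono` with `lower0`, `En_step`, the certificate for every particle (`td_lt_kd`),
`caro_wei` with `pack`, and `N ≥ u p' L³ - 1` -/
theorem cw_lower (hβ : 0 < β) (hβ' : β ≤ 2) (hu : 0 < u) (hu' : u ≤ 30000) {s m : ℝ}
    (hc : Cert β M.A s u m) (hm : 0 ≤ m) (hm' : m ≤ β * M.A * u ^ 2 / 2 + 63 / 25 * β) :
    ∀ᶠ L : ℝ in atTop, ∀ x ∈ box (cube L) ⌊u * M.p' * L ^ 3⌋₊,
      M.lam * M.p' * (lin β M.A u + β * M.A * u ^ 2 / 2 + m - M.A / 10 ^ 8) * L ^ 3 ≤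
        β * En M.φ0 x + (1 + s) * M.lam * Mt M.δ x := by
  have hA := M.A_pos
  have hA' := M.A_le
  have hp := M.p'_pos
  have hlam := M.lam_pos
  obtain ⟨μ₀, hμ₀⟩ : ∃ μ₀, μ₀ = β * M.A * u + β * (84 / 25 - M.A) / 2 := ⟨_, rfl⟩
  obtain ⟨π₀, hπ₀⟩ : ∃ π₀, π₀ = β * M.A * u ^ 2 / 2 + 63 / 25 * β - m := ⟨_, rfl⟩
  have hμ0 : 0 ≤ μ₀ := by
    have : 0 ≤ 84 / 25 - M.A := by linarith
    rw [hμ₀]; positivity
  have hπ0 : 0 ≤ π₀ := by linarith
  have hπe : π₀ * M.e ≤ M.A / (2 * 10 ^ 8) := by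
    have h1 : β * M.A * u ^ 2 ≤ 2 * (1 / 10) * 30000 ^ 2 := by gcongr
    have h2 : π₀ * M.e ≤ 10 ^ 8 * (M.A / 10 ^ 17) :=
      mul_le_mul (by linarith) M.e_le M.e_pos.le (by norm_num)
    linarith
  have ht : Tendsto (fun L : ℝ => M.A / (2 * 10 ^ 8) * M.p' * L ^ 3) atTop atTop :=
    (tendsto_pow_atTop three_ne_zero).const_mul_atTop (by positivity)
  filter_upwards [M.pack, ht.eventually_ge_atTop μ₀, eventually_ge_atTop 0] with L hL hL' hL0 x hx
  have h1 := caro_wei M.σ_pos hx hL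
  have h2 := En_mono M.lower0 x
  rw [En_step M.σ_pos] at h2
  have h3 : ∑ a, (μ₀ - π₀ * (kd M.σ x a : ℝ)⁻¹) ≤
      ∑ a, (β * ((M.A + 21 / 25) * ((kd M.σ x a : ℝ) - 1) / 2 - 16 / 25 * td M.δ x a / 2) +
        (1 + s) * ((td M.δ x a : ℝ) / (td M.δ x a + 1))) := by
    refine Finset.sum_le_sum fun a _ => ?_
    have := hc _ _ (td_lt_kd M.σ_pos M.δ_le x a)
    rw [← hμ₀, ← hπ₀, div_eq_mul_inv π₀] at this
    linarith
  rw [Finset.sum_sub_distrib, Finset.sum_add_distrib, ← Finset.mul_sum, ← Finset.mul_sum,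
    ← Finset.mul_sum, Finset.sum_const, Finset.card_univ, Fintype.card_fin, nsmul_eq_mul] at h3
  have h4 : ∑ a, (M.lam * (M.A + 21 / 25) * ((kd M.σ x a : ℝ) - 1) / 2 -
      M.lam * (16 / 25) * td M.δ x a / 2) = M.lam * ∑ a, ((M.A + 21 / 25) *
        ((kd M.σ x a : ℝ) - 1) / 2 - 16 / 25 * td M.δ x a / 2) := by
    rw [Finset.mul_sum]
    exact Finset.sum_congr rfl fun a _ => by ring
  rw [h4] at h2
  have h5 : u * M.p' * L ^ 3 - 1 ≤ (⌊u * M.p' * L ^ 3⌋₊ : ℝ) := by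
    linarith [Nat.lt_floor_add_one (u * M.p' * L ^ 3)]
  have h6 := mul_le_mul_of_nonneg_right h5 hμ0
  have h7 := mul_le_mul_of_nonneg_left h1 hπ0
  have h8 := mul_le_mul_of_nonneg_right hπe (by positivity : 0 ≤ M.p' * L ^ 3)
  have h9 : M.p' * (lin β M.A u + β * M.A * u ^ 2 / 2 + m - M.A / 10 ^ 8) * L ^ 3 ≤
      β * ∑ a, ((M.A + 21 / 25) * ((kd M.σ x a : ℝ) - 1) / 2 - 16 / 25 * td M.δ x a / 2) +
        (1 + s) * Mt M.δ x := by
    have e1 : lin β M.A u + β * M.A * u ^ 2 / 2 + m = μ₀ * u - π₀ := by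
      rw [lin, hμ₀, hπ₀]; ring
    rw [e1, Mt]
    linarith
  have h10 := mul_le_mul_of_nonneg_left h9 hlam.le
  have h11 := mul_le_mul_of_nonneg_left h2 hβ.le
  linarith

/-- the entropy bound in normalised form (`neg_entropy`) -/
theorem neg_ent (hu : 0 < u) (hu' : u ≤ 30000) : Neg M.toSys.φ β (u * M.p') fun L =>
    {x | M.lam * M.p' * (M.Γ β u + M.A / 10 ^ 8) * L ^ 3 ≤
      β * En M.toSys.φ x + M.lam * Mt M.δ x} := by
  have hp := M.p'_pos
  refine (neg_entropy M.toSys.φ β (ρ := u * M.p') (by positivity) M.δ_pos M.lam_pos.le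
    M.vol).mono ?_
  filter_upwards [eventually_ge_atTop 0] with L hL x hx
  have hx1 := hx.1
  simp only [mem_ofPred_eq] at hx1 ⊢
  refine le_trans ?_ hx1
  rw [g_eq]
  refine mul_le_mul_of_nonneg_right ?_ (by positivity)
  have h1 := mul_le_mul_of_nonneg_right M.lam_A hp.le
  have h2 := mul_le_mul_of_nonneg_right hu' hp.le
  have h3 := M.p'_ge
  linarith

theorem hi_of {t : ℝ} {E : ∀ L : ℝ, Set (Cf (u * M.p') L)} (hβ : 0 < β) (hu : 0 ≤ u)
    (h : Neg M.toSys.φ β (u * M.p') E)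
    (he : ∀ᶠ L in atTop, ∀ x ∈ box (cube L) ⌊u * M.p' * L ^ 3⌋₊, x ∉ E L →
      β * En M.toSys.φ x ≤ (M.Γ β u - t) * (M.lam * M.p' * L ^ 3)) : Hi M.Γ β u t := by
  intro β' hβ'
  have hp := mul_pos M.lam_pos M.p'_pos
  have h1 := h.slope_hi M.toSys.adm hβ (mul_nonneg hu M.p'_pos.le)
    (e := M.lam * M.p' * ((M.Γ β u - t) / β)) (he.mono fun L hL x hx hx' => by
      refine le_of_mul_le_mul_left ((hL x hx hx').trans (le_of_eq ?_)) hβ
      field_simp) hβ'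
  rw [g_eq, g_eq] at h1
  refine le_of_mul_le_mul_left (h1.trans (le_of_eq ?_)) hp
  ring

theorem lo_of {t : ℝ} {E : ∀ L : ℝ, Set (Cf (u * M.p') L)} (hβ : 0 < β) (hu : 0 ≤ u)
    (h : Neg M.toSys.φ β (u * M.p') E)
    (he : ∀ᶠ L in atTop, ∀ x ∈ box (cube L) ⌊u * M.p' * L ^ 3⌋₊, x ∉ E L →
      (M.Γ β u - t) * (M.lam * M.p' * L ^ 3) ≤ β * En M.toSys.φ x) : Lo M.Γ β u t := by
  intro β' hβ0 hβ'
  have hp := mul_pos M.lam_pos M.p'_pos
  have h1 := h.slope_lo M.toSys.adm hβ (mul_nonneg hu M.p'_pos.le)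
    (e := M.lam * M.p' * ((M.Γ β u - t) / β)) (he.mono fun L hL x hx hx' => by
      refine le_of_mul_le_mul_left ((le_of_eq ?_).trans (hL x hx hx')) hβ
      field_simp) hβ0 hβ'
  rw [g_eq, g_eq] at h1
  refine le_of_mul_le_mul_left (h1.trans (le_of_eq ?_)) hp
  ring

theorem any (hβ : 0 < β) (hu : 0 < u) (hu' : u ≤ 30000) : Hi M.Γ β u (-(M.A / 400000)) := by
  refine M.hi_of hβ hu.le (M.neg_ent hu hu') ?_
  filter_upwards [eventually_ge_atTop 0] with L hL x _ hx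
  have h1 := not_le.1 hx
  have h2 := mul_nonneg M.lam_pos.le (Mt_nonneg M.δ x)
  have h3 : M.A / 10 ^ 8 * (M.lam * M.p' * L ^ 3) ≤ M.A / 400000 * (M.lam * M.p' * L ^ 3) := by
    have := M.A_pos
    have := M.lam_pos
    have := M.p'_pos
    gcongr
    norm_num
  linarith

/-- the exceptional event -/
def Ev (β u : ℝ) (L : ℝ) : Set (Cf (u * M.p') L) :=
  {x | M.lam * M.p' * (M.Γ β u + M.A / 10 ^ 8) * L ^ 3 ≤
      β * En M.toSys.φ x + M.lam * Mt M.δ x} ∪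
    {x | (∑' i, M.a i) * ((u * M.p') ^ 2 / 2 + 1 / 10 ^ 8) * L ^ 3 < En M.toSys.J x}

theorem off_Ev (hβ : 0 < β) (hβ' : β ≤ 2) (hu : 0 < u) (hu' : u ≤ 30000) {s m : ℝ}
    (hc : Cert β M.A s u m) (hm : 0 ≤ m) (hm' : m ≤ β * M.A * u ^ 2 / 2 + 63 / 25 * β) :
    ∀ᶠ L : ℝ in atTop, ∀ x ∈ box (cube L) ⌊u * M.p' * L ^ 3⌋₊, x ∉ M.Ev β u L →
      ∃ X T : ℝ, 0 < M.lam * M.p' * L ^ 3 ∧ β * En M.toSys.φ x = X * (M.lam * M.p' * L ^ 3) ∧
        0 ≤ T ∧ T ≤ u ∧ X + T ≤ M.Γ β u + M.A / 10 ^ 8 ∧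
        lin β M.A u + m - 7 * M.A / 10 ^ 8 ≤ X + (1 + s) * T := by
  filter_upwards [M.cw_lower hβ hβ' hu hu' hc hm hm', eventually_gt_atTop 0] with L hL hL0 x hx hx'
  have hp := M.p'_pos
  have hlam := M.lam_pos
  have hA := M.A_pos
  have hP : 0 < M.lam * M.p' * L ^ 3 := by positivity
  have h1 := hL x hx
  simp only [Ev, mem_union, mem_ofPred_eq, not_or, not_le, not_lt] at hx'
  obtain ⟨h2, h3⟩ := hx'
  have h4 : Mt M.δ x ≤ u * M.p' * L ^ 3 := by
    refine (Mt_le M.δ x).trans ?_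
    rw [Fintype.card_fin]
    exact Nat.floor_le (by positivity)
  have h5 : En M.toSys.J x ≤ (M.A * u ^ 2 / 2 + 3 * M.A / 10 ^ 8) * (M.lam * M.p' * L ^ 3) := by
    refine h3.trans ?_
    rw [M.a_eq]
    have e1 : M.lam * M.A / M.p' * ((u * M.p') ^ 2 / 2 + 1 / 10 ^ 8) * L ^ 3 =
        (M.A * u ^ 2 / 2 + (1 / M.p' ^ 2) * M.A / 10 ^ 8) * (M.lam * M.p' * L ^ 3) := by
      field_simp
    rw [e1]
    gcongr
    rw [div_le_iff₀ (by positivity)]
    nlinarith [M.p'_ge]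
  have h6 := mul_le_mul_of_nonneg_left h5 hβ.le
  have h7 : β * (3 * M.A / 10 ^ 8 * (M.lam * M.p' * L ^ 3)) ≤
      2 * (3 * M.A / 10 ^ 8 * (M.lam * M.p' * L ^ 3)) := by gcongr
  have h8 := M.toSys.En_φ x
  refine ⟨β * En M.toSys.φ x / (M.lam * M.p' * L ^ 3),
    M.lam * Mt M.δ x / (M.lam * M.p' * L ^ 3), hP, (div_mul_cancel₀ _ hP.ne').symm,
    div_nonneg (mul_nonneg hlam.le (Mt_nonneg _ _)) hP.le, ?_, ?_, ?_⟩
  · rw [div_le_iff₀ hP]
    have := mul_le_mul_of_nonneg_left h4 hlam.le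
    linarith
  · rw [← add_div, div_le_iff₀ hP]
    linarith
  · rw [← mul_div_assoc, ← add_div, le_div_iff₀ hP, h8]
    linarith

/-- Off the union `E` of `neg_ent` and `hom` (`Supp.scale`, `Ext.scale`), writing energies in
units of `lam p' L³` and `Mt' = Mt / (p' L³) ∈ [0, u]`, `e' = A / 10⁷`:
(1) `β En φ + Mt' ≤ Γ + e'`; (2) `β En φ + (1+s) Mt' ≥ lin + m - e'` for each certificate
(`cw_lower`, `a_eq`).  With `w = A/200`, `F = Γ - lin` and a point off `E` (`Neg.exists`):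
`low`: `s = -w`; `gap`: `s = 0`; `high`: `s = 2 w`, `Mt' ≤ u`; `hot`: `s = 0`.
`loose`: `w Mt' ≤ 8 ε` off `E`, then `Neg.slope_lo`.  `tight`: `s = 2 w` gives `Mt' ≥ u / 8`
off `E`, then `Neg.slope_hi`. -/
theorem extFacts (h1 : 1 - M.A / 200 ≤ β) (h2 : β ≤ 1 + M.A / 200) {μ π : ℝ} (hu : 0 < u)
    (hu' : u ≤ 30000) (hμ : |μ| ≤ 30000) (hπ : |π| ≤ 30000) (hs : Supp (M.Γ β) μ π u)
    (he : Ext (M.Γ β) μ π u) : ExtFacts M.Γ M.A (M.A / 200) (M.A / 400000) β u := by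
  have hA := M.A_pos
  have hA' := M.A_le
  have hp := M.p'_pos
  have hp' := M.p'_le
  have hlam := M.lam_pos
  have hβ0 : 1 / 2 ≤ β := by linarith
  have hβ : 0 < β := by linarith
  have hβ' : β ≤ 2 := by linarith
  have hκ : M.lam / 5 ≤ M.κ := by
    rw [M.κ_eq]
    have := mul_pos hlam hA
    linarith
  have hE : Neg M.toSys.φ β (u * M.p') (M.Ev β u) := by
    refine (M.neg_ent hu hu').union (M.hom β (u * M.p') (μ * (M.lam * M.p') / M.p')
      (π * (M.lam * M.p')) hβ0 hβ' (by positivity) ?_ ?_ ?_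
      (Supp.scale hp (mul_pos hlam hp) hs) (Ext.scale hp (mul_pos hlam hp) he))
    · calc u * M.p' ≤ 30000 * 8 := by gcongr
        _ ≤ _ := by norm_num
    · rw [← mul_assoc, mul_div_cancel_right₀ _ hp.ne', abs_mul, abs_of_pos hlam]
      have := mul_le_mul_of_nonneg_right hμ hlam.le
      linarith
    · rw [abs_mul, abs_of_pos (mul_pos hlam hp)]
      have : |π| * (M.lam * M.p') ≤ 30000 * (M.lam * 8) := by gcongr
      linarith
  have hex := hE.exists M.toSys.adm hβ (by positivity)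
  have key : ∀ {s m : ℝ}, Cert β M.A s u m → 0 ≤ m → m ≤ β * M.A * u ^ 2 / 2 + 63 / 25 * β →
      ∃ T : ℝ, 0 ≤ T ∧ T ≤ u ∧ m - 8 * M.A / 10 ^ 8 - s * T ≤ M.Γ β u - lin β M.A u := by
    intro s m hc hm hm'
    obtain ⟨L, ⟨x, hx, hx'⟩, hL⟩ := (hex.and (M.off_Ev hβ hβ' hu hu' hc hm hm')).exists
    obtain ⟨X, T, -, -, k1, k2, k3, k4⟩ := hL x hx hx'
    exact ⟨T, k1, k2, by linarith⟩
  have hq : 0 ≤ β * M.A * u ^ 2 / 2 := by positivity
  have hAu : 0 ≤ M.A / 200 * u := by positivity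
  have hhi : 7 / 2 ≤ u → M.A / 200 * u / 2 ≤ β * M.A * u ^ 2 / 2 + 63 / 25 * β := by
    intro h
    have : 1 / 2 * (M.A * u) * (7 / 2) ≤ β * (M.A * u) * u := by gcongr
    linarith
  refine ⟨fun h => ?_, fun h h' => ?_, fun h => ?_, fun h h' => ?_, fun h h' => ?_,
    fun h h' => ?_⟩
  · obtain ⟨T, k1, -, k3⟩ := key (cert_low hA hA' h1 h2 h) le_rfl (by linarith)
    have : 0 ≤ M.A / 200 * T := by positivity
    linarith
  · obtain ⟨T, -, -, k3⟩ := key (cert_gap hA hA' h1 h2 h h') (by positivity) (by linarith)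
    linarith
  · obtain ⟨T, -, k2, k3⟩ := key (cert_high (s := 2 * (M.A / 200)) hA hA' h1 h2 h (by linarith))
      (by positivity) (hhi h)
    have : M.A / 200 * T ≤ M.A / 200 * u := by gcongr
    linarith
  · obtain ⟨T, -, -, k3⟩ := key (cert_high (s := 0) hA hA' h1 h2 h' (by linarith))
      (by positivity) (hhi h')
    linarith
  · refine M.lo_of hβ hu.le hE ?_
    filter_upwards [M.off_Ev hβ hβ' hu hu' (cert_low hA hA' h1 h2 h) le_rfl (by linarith)]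
      with L hL x hx hx'
    obtain ⟨X, T, k0, k, k1, -, k3, k4⟩ := hL x hx hx'
    rw [k]
    refine mul_le_mul_of_nonneg_right ?_ k0.le
    have e1 : 17 * (M.A / 400000) / (M.A / 200) = 17 / 2000 := by
      field_simp
      norm_num
    have k5 : T ≤ 8 / 2000 := le_of_mul_le_mul_left (by linarith) hA
    have k6 : 0 ≤ M.A / 200 * T := by positivity
    rw [e1]
    linarith
  · refine M.hi_of hβ hu.le hE ?_
    filter_upwards [M.off_Ev hβ hβ' hu hu' (cert_high (s := 2 * (M.A / 200)) hA hA' h1 h2 h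
      (by linarith)) (by positivity) (hhi h)] with L hL x hx hx'
    obtain ⟨X, T, k0, k, k1, -, k3, k4⟩ := hL x hx hx'
    rw [k]
    refine mul_le_mul_of_nonneg_right ?_ k0.le
    have k5 : M.A * (7 / 2) ≤ M.A * u := by gcongr
    have k6 : u / 8 ≤ T := le_of_mul_le_mul_left (by linarith) hA
    linarith

/-- `Adm.convexOn_g`, `Adm.concaveOn_g`, `Sys.le_g`, `Mod.trial` with `site2/3/4` -/
theorem facts : Facts M.Γ M.A (M.A / 200) (M.A / 400000) := by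
  have hA := M.A_pos
  have hA' := M.A_le
  have hp := M.p'_pos
  have hlam := M.lam_pos
  have hlp := mul_pos hlam hp
  have he := M.e_le
  refine ⟨hA, hA', rfl, by positivity, by linarith, fun β hβ => ?_, fun u hu => ?_,
    fun β h1 h2 u hu => ?_, fun β h1 h2 => ?_, fun β h1 h2 => ?_, fun β h1 h2 => ?_,
    fun β h1 _ u hu hu' => M.any (by linarith) hu hu',
    fun β h1 h2 μ π u hu hu' hμ hπ hs he => M.extFacts h1 h2 hu hu' hμ hπ hs he⟩
  · refine ⟨convex_Ici 0, fun x hx y hy a b ha hb hab => ?_⟩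
    have h := (M.toSys.adm.convexOn_g hβ).2 (mul_nonneg hx hp.le : x * M.p' ∈ Ici 0)
      (mul_nonneg hy hp.le : y * M.p' ∈ Ici 0) ha hb hab
    simp only [smul_eq_mul] at h ⊢
    rw [← mul_assoc, ← mul_assoc, ← add_mul, g_eq, g_eq, g_eq] at h
    refine le_of_mul_le_mul_left (h.trans (le_of_eq ?_)) hlp
    ring
  · refine ⟨convex_Ioi 0, fun x hx y hy a b ha hb hab => ?_⟩
    have h := (M.toSys.adm.concaveOn_g (mul_nonneg hu hp.le)).2 hx hy ha hb hab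
    simp only [smul_eq_mul] at h ⊢
    rw [g_eq, g_eq, g_eq] at h
    refine le_of_mul_le_mul_left ((le_of_eq ?_).trans h) hlp
    ring
  · have h := M.toSys.le_g (β := β) (ρ := u * M.p') (by linarith) (by positivity)
    rw [g_eq, M.κ_eq] at h
    refine le_of_mul_le_mul_left (le_trans ?_ h) hlp
    have k1 : 1 / 2 * (1 / 5) * (3 / 5) ≤ β * (M.A + 1 / 5) * M.p' := by
      have := M.p'_ge
      gcongr
      linarith
    have k2 : β * (M.A + 1 / 5) ≤ 2 * (1 / 10 + 1 / 5) := by gcongr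
    have k3 := mul_le_mul_of_nonneg_right k1 (by positivity : 0 ≤ M.lam * M.p' * u ^ 2)
    have k4 := mul_le_mul_of_nonneg_right k2 (by positivity : 0 ≤ M.lam * M.p' * u)
    have k5 : M.lam * M.A ≤ M.lam * (1 / 10) := by gcongr
    have k6 : M.lam * (3 / 5) ≤ M.lam * M.p' := by
      have := M.p'_ge
      gcongr
    have k7 := M.lam_A
    have k8 : 0 ≤ M.lam * M.p' * u ^ 2 := by positivity
    have k9 : 0 ≤ M.lam * M.p' * u := by positivity
    linarith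
  · have h := M.trial h1 h2 (k := 2) (by norm_num) (M.site2 β h1 h2)
    rw [lin]
    push_cast at h
    linarith
  · have h := M.trial h1 h2 (k := 3) (by norm_num) (M.site3 β h1 h2)
    rw [lin]
    push_cast at h
    linarith
  · have h := M.trial h1 h2 (k := 4) (by norm_num) (M.site4 β h1 h2)
    rw [lin]
    push_cast at h
    linarith

end Mod

end Crest.Agent.R149
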