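import Crest.Agent.R149.Basic

/-! Row 149: the long-range kernel, lattice sums. -/

set_option autoImplicit false

namespace Crest.Agent.R149

open MeasureTheory Filter Set Crest.ProbabilityR.Continuum
open scoped ENNReal Topology

theorem ramp_nonneg (t : ℝ) : 0 ≤ ramp t := le_min zero_le_one (le_max_left _ _)

theorem ramp_le_one (t : ℝ) : ramp t ≤ 1 := min_le_left _ _

theorem ramp_mono : Monotone ramp := fun _ _ h => min_le_min le_rfl (max_le_max le_rfl h)

theorem ramp_of_nonpos {t : ℝ} (h : t ≤ 0) : ramp t = 0 := by simp [ramp, h]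

theorem ramp_of_one_le {t : ℝ} (h : 1 ≤ t) : ramp t = 1 := by simp [ramp, h]

theorem continuous_ramp : Continuous ramp := by unfold ramp; fun_prop

theorem abs_ramp_sub_le (s t : ℝ) : |ramp s - ramp t| ≤ |s - t| := by
  unfold ramp
  refine (abs_min_sub_min_le_max _ _ _ _).trans (max_le (by simp) ?_)
  refine (abs_max_sub_max_le_max _ _ _ _).trans (max_le (by simp) le_rfl)

theorem kern_compact {R : ℝ} (hR : 0 < R) :
    HasCompactSupport fun y : Pt => ramp (1 - ‖y‖ / R) := by
  refine HasCompactSupport.intro (isCompact_closedBall (0 : Pt) R) fun y hy => ?_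
  refine ramp_of_nonpos ?_
  rw [mem_closedBall_zero_iff, not_le] at hy
  rw [sub_nonpos, le_div_iff₀ hR]
  linarith

theorem iota_pos : 0 < iota := by
  unfold iota
  have hc : Continuous fun y : Pt => ramp (1 - ‖y‖) :=
    continuous_ramp.comp (continuous_const.sub continuous_norm)
  have hs : HasCompactSupport fun y : Pt => ramp (1 - ‖y‖) := by
    simpa using kern_compact one_pos
  refine hc.integral_pos_of_hasCompactSupport_nonneg_nonzero (x := 0) hs
    (fun y => ramp_nonneg _) ?_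
  simp [ramp]

theorem CJ_nonneg : 0 ≤ CJ := div_nonneg (by positivity) iota_pos.le

theorem four_le_CW : 4 ≤ CW := by have := CJ_nonneg; unfold CW; linarith

theorem Jk_nonneg {R : ℝ} (hR : 0 < R) (r : ℝ) : 0 ≤ Jk R r :=
  div_nonneg (ramp_nonneg _) (by have := iota_pos; positivity)

theorem Jk_le {R : ℝ} (hR : 0 < R) (r : ℝ) : Jk R r ≤ (iota * R ^ 3)⁻¹ := by
  unfold Jk
  rw [← one_div]
  have := iota_pos
  exact div_le_div_of_nonneg_right (ramp_le_one _) (by positivity)

theorem Jk_antitone {R : ℝ} (hR : 0 < R) : Antitone (Jk R) := by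
  intro r r' h
  unfold Jk
  have := iota_pos
  refine div_le_div_of_nonneg_right (ramp_mono ?_) (by positivity)
  have := div_le_div_of_nonneg_right h hR.le
  linarith

theorem Jk_eq_zero {R r : ℝ} (hR : 0 < R) (h : R ≤ r) : Jk R r = 0 := by
  unfold Jk
  rw [ramp_of_nonpos, zero_div]
  rw [sub_nonpos, le_div_iff₀ hR]
  linarith

theorem Jk_pos {R r : ℝ} (hR : 0 < R) (h : r < R) : 0 < Jk R r := by
  unfold Jk ramp
  have := iota_pos
  refine div_pos (lt_min one_pos (lt_max_of_lt_right ?_)) (by positivity)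
  rw [sub_pos, div_lt_one hR]
  exact h

theorem continuous_Jk (R : ℝ) : Continuous (Jk R) := by
  unfold Jk
  exact (continuous_ramp.comp (continuous_const.sub (continuous_id.div_const _))).div_const _

theorem integral_Jk {R : ℝ} (hR : 0 < R) : ∫ y : Pt, Jk R ‖y‖ = 1 := by
  unfold Jk
  rw [integral_div]
  have h1 := Measure.integral_comp_inv_smul_of_nonneg (volume : Measure Pt)
    (fun y : Pt => ramp (1 - ‖y‖)) hR.le
  have h2 : ∀ y : Pt, ‖R⁻¹ • y‖ = ‖y‖ / R := by
    intro y
    rw [norm_smul, Real.norm_eq_abs, abs_of_pos (inv_pos.2 hR), div_eq_inv_mul]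
  simp only [h2, finrank_euclideanSpace, Fintype.card_fin, smul_eq_mul] at h1
  rw [h1]
  have := iota_pos
  change R ^ 3 * iota / (iota * R ^ 3) = 1
  field_simp

theorem integrable_Jk {R : ℝ} (hR : 0 < R) : Integrable fun y : Pt => Jk R ‖y‖ := by
  unfold Jk
  refine Integrable.div_const ?_ _
  exact (continuous_ramp.comp (continuous_const.sub (continuous_norm.div_const _))
    ).integrable_of_hasCompactSupport (kern_compact hR)

/-- the kernel is Lipschitz -/
theorem Jk_lip {R : ℝ} (hR : 0 < R) (r r' : ℝ) :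
    Jk R r ≤ Jk R r' + |r - r'| / (iota * R ^ 4) := by
  unfold Jk
  have hi := iota_pos
  have h1 := (le_abs_self _).trans (abs_ramp_sub_le (1 - r / R) (1 - r' / R))
  have h2 : |1 - r / R - (1 - r' / R)| = |r - r'| / R := by
    rw [show 1 - r / R - (1 - r' / R) = -((r - r') / R) by ring, abs_neg, abs_div, abs_of_pos hR]
  rw [h2] at h1
  have h3 : |r - r'| / (iota * R ^ 4) = |r - r'| / R / (iota * R ^ 3) := by
    field_simp
  rw [h3, ← add_div]
  exact div_le_div_of_nonneg_right (by linarith) (by positivity)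

/-- a vector whose coordinates are bounded by `h` has norm at most `2 h` -/
theorem norm_le_two_mul {h : ℝ} (hh : 0 ≤ h) {v : Pt} (hv : ∀ i, |v i| ≤ h) : ‖v‖ ≤ 2 * h := by
  rw [EuclideanSpace.norm_eq, Real.sqrt_le_left (by positivity), Fin.sum_univ_three]
  have h0 := pow_le_pow_left₀ (abs_nonneg _) (hv 0) 2
  have h1 := pow_le_pow_left₀ (abs_nonneg _) (hv 1) 2
  have h2 := pow_le_pow_left₀ (abs_nonneg _) (hv 2) 2
  simp only [Real.norm_eq_abs]
  nlinarith [sq_nonneg h]

theorem abs_norm_sub_zn {h : ℝ} (hh : 0 ≤ h) {d : Fin 3 → ℤ} {y : Pt}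
    (hy : ∀ i, |y i - d i * h| ≤ h) : |‖y‖ - h * zn d| ≤ 2 * h := by
  have h1 : h * zn d = ‖h • (WithLp.toLp 2 fun i => (d i : ℝ) : Pt)‖ := by
    rw [norm_smul, Real.norm_eq_abs, abs_of_nonneg hh]
    rfl
  rw [h1]
  refine (abs_norm_sub_norm_le _ _).trans (norm_le_two_mul hh fun i => ?_)
  simpa [mul_comm h] using hy i

/-- half-open cell of the grid of mesh `h` -/
def kcell (h : ℝ) (d : Fin 3 → ℤ) : Set Pt :=
  WithLp.ofLp ⁻¹' Set.pi univ fun i => Ico ((d i : ℝ) * h) ((d i : ℝ) * h + h)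

theorem mem_kcell {h : ℝ} (hh : 0 < h) {d : Fin 3 → ℤ} {y : Pt} :
    y ∈ kcell h d ↔ ∀ i, ⌊y i / h⌋ = d i := by
  unfold kcell
  simp only [mem_preimage, Set.mem_pi, mem_univ, true_imp_iff, mem_Ico]
  refine forall_congr' fun i => ?_
  rw [Int.floor_eq_iff, le_div_iff₀ hh, div_lt_iff₀ hh, add_mul, one_mul]

theorem measurableSet_kcell (h : ℝ) (d : Fin 3 → ℤ) : MeasurableSet (kcell h d) :=
  (PiLp.volume_preserving_ofLp (Fin 3)).measurable
    (MeasurableSet.univ_pi fun _ => measurableSet_Ico)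

theorem volume_kcell {h : ℝ} (hh : 0 ≤ h) (d : Fin 3 → ℤ) :
    volume (kcell h d) = ENNReal.ofReal (h ^ 3) := by
  unfold kcell
  rw [(PiLp.volume_preserving_ofLp (Fin 3)).measure_preimage
    (MeasurableSet.univ_pi fun _ => measurableSet_Ico).nullMeasurableSet, Real.volume_pi_Ico]
  simp [ENNReal.ofReal_pow hh]

theorem kcell_disjoint {h : ℝ} (hh : 0 < h) (S : Finset (Fin 3 → ℤ)) :
    Set.Pairwise (↑S) (Function.onFun Disjoint (kcell h)) := by
  intro d _ d' _ hne
  refine Set.disjoint_left.2 fun y hy hy' => hne ?_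
  funext i
  rw [← (mem_kcell hh).1 hy i, (mem_kcell hh).1 hy' i]

theorem kcell_abs {h : ℝ} (hh : 0 < h) {d : Fin 3 → ℤ} {y : Pt} (hy : y ∈ kcell h d) :
    |‖y‖ - h * zn d| ≤ 2 * h := by
  refine abs_norm_sub_zn hh.le fun i => ?_
  have := hy i (mem_univ i)
  simp only [mem_Ico] at this
  rw [abs_le]
  constructor <;> linarith [this.1, this.2]

theorem setIntegral_kcell_const {h : ℝ} (hh : 0 < h) (d : Fin 3 → ℤ) (c : ℝ) :
    ∫ _ in kcell h d, c = h ^ 3 * c := by
  rw [setIntegral_const, measureReal_def, volume_kcell hh.le,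
    ENNReal.toReal_ofReal (by positivity), smul_eq_mul]

theorem integrableOn_kcell_const {h : ℝ} (hh : 0 < h) (d : Fin 3 → ℤ) (c : ℝ) :
    IntegrableOn (fun _ : Pt => c) (kcell h d) := by
  refine integrableOn_const ?_
  rw [volume_kcell hh.le]
  exact ENNReal.ofReal_ne_top

/-- the error term of the Riemann sums -/
noncomputable def kerr (h R : ℝ) : Pt → ℝ :=
  (Metric.ball (0 : Pt) (R * 5)).indicator fun _ => 4 * h / (iota * R ^ 4)

theorem integrable_kerr (h R : ℝ) : Integrable (kerr h R) := by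
  unfold kerr
  rw [integrable_indicator_iff Metric.isOpen_ball.measurableSet]
  exact integrableOn_const measure_ball_lt_top.ne

theorem integral_kerr (h : ℝ) {R : ℝ} (hR : 0 < R) : ∫ y, kerr h R y = CJ * h / R := by
  unfold kerr CJ
  rw [integral_indicator Metric.isOpen_ball.measurableSet, setIntegral_const, measureReal_def,
    Measure.addHaar_ball_mul_of_pos _ _ hR, ENNReal.toReal_mul,
    ENNReal.toReal_ofReal (by positivity)]
  simp only [finrank_euclideanSpace, Fintype.card_fin, smul_eq_mul]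
  have := iota_pos
  field_simp

theorem kerr_nonneg {h R : ℝ} (hh : 0 < h) (hR : 0 < R) (y : Pt) : 0 ≤ kerr h R y := by
  unfold kerr
  have := iota_pos
  exact Set.indicator_nonneg (fun _ _ => by positivity) y

/-- On the cell `h (d + [0,1)³)`: `|‖y‖ - h zn d| ≤ 2 h`, so the summand is at most the integral
over the cell of `Jk R ‖y‖ + 4 h / (iota R⁴) 1_{‖y‖ < 5 R}`; the cells are disjoint. -/
theorem lattice_upper {h R : ℝ} (hh : 0 < h) (hR : h ≤ R) (S : Finset (Fin 3 → ℤ)) :
    ∑ d ∈ S, h ^ 3 * Jk R (h * zn d - 2 * h) ≤ 1 + CJ * h / R := by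
  have hR0 : 0 < R := hh.trans_le hR
  have hi := iota_pos
  have hG : Integrable fun y : Pt => Jk R ‖y‖ + kerr h R y :=
    (integrable_Jk hR0).add (integrable_kerr h R)
  have key : ∀ d, ∀ y ∈ kcell h d, Jk R (h * zn d - 2 * h) ≤ Jk R ‖y‖ + kerr h R y := by
    intro d y hy
    have h1 := abs_le.1 (kcell_abs hh hy)
    have h2 : Jk R (h * zn d - 2 * h) ≤ Jk R (‖y‖ - 4 * h) :=
      Jk_antitone hR0 (by linarith [h1.2])
    refine h2.trans ?_
    by_cases hb : y ∈ Metric.ball (0 : Pt) (R * 5)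
    · have h3 := Jk_lip hR0 (‖y‖ - 4 * h) ‖y‖
      rw [show ‖y‖ - 4 * h - ‖y‖ = -(4 * h) by ring, abs_neg, abs_of_pos (by positivity)] at h3
      unfold kerr
      rw [Set.indicator_of_mem hb]
      exact h3
    · rw [mem_ball_zero_iff, not_lt] at hb
      rw [Jk_eq_zero hR0 (by linarith)]
      exact add_nonneg (Jk_nonneg hR0 _) (kerr_nonneg hh hR0 _)
  calc ∑ d ∈ S, h ^ 3 * Jk R (h * zn d - 2 * h)
      ≤ ∑ d ∈ S, ∫ y in kcell h d, (Jk R ‖y‖ + kerr h R y) := by
        refine Finset.sum_le_sum fun d _ => ?_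
        rw [← setIntegral_kcell_const hh d]
        exact setIntegral_mono_on (integrableOn_kcell_const hh d _) hG.integrableOn
          (measurableSet_kcell h d) (key d)
    _ = ∫ y in ⋃ d ∈ S, kcell h d, (Jk R ‖y‖ + kerr h R y) :=
        (integral_biUnion_finset S (fun d _ => measurableSet_kcell h d) (kcell_disjoint hh S)
          fun _ _ => hG.integrableOn).symm
    _ ≤ ∫ y, (Jk R ‖y‖ + kerr h R y) :=
        setIntegral_le_integral hG (ae_of_all _ fun y =>
          add_nonneg (Jk_nonneg hR0 _) (kerr_nonneg hh hR0 _))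
    _ = 1 + CJ * h / R := by
        rw [integral_add (integrable_Jk hR0) (integrable_kerr h R), integral_Jk hR0,
          integral_kerr h hR0]

/-- finitely many cells cover the ball of radius `R` -/
theorem lattice_lower {h R : ℝ} (hh : 0 < h) (hR : 0 < R) : ∃ S : Finset (Fin 3 → ℤ),
    1 - CJ * h / R ≤ ∑ d ∈ S, h ^ 3 * Jk R (h * zn d + 2 * h) := by
  have hi := iota_pos
  set S : Finset (Fin 3 → ℤ) :=
    Fintype.piFinset fun _ => Finset.Icc ⌊-(R * 5) / h⌋ ⌊R * 5 / h⌋ with hS
  refine ⟨S, ?_⟩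
  have hG : Integrable fun y : Pt => Jk R ‖y‖ - kerr h R y :=
    (integrable_Jk hR).sub (integrable_kerr h R)
  have hout : ∀ y : Pt, y ∉ Metric.ball (0 : Pt) (R * 5) → Jk R ‖y‖ - kerr h R y = 0 := by
    intro y hb
    unfold kerr
    rw [Set.indicator_of_notMem hb]
    rw [mem_ball_zero_iff, not_lt] at hb
    rw [Jk_eq_zero hR (by linarith), sub_zero]
  have key : ∀ d, ∀ y ∈ kcell h d, Jk R ‖y‖ - kerr h R y ≤ Jk R (h * zn d + 2 * h) := by
    intro d y hy
    have h1 := abs_le.1 (kcell_abs hh hy)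
    have h2 : Jk R (‖y‖ + 4 * h) ≤ Jk R (h * zn d + 2 * h) :=
      Jk_antitone hR (by linarith [h1.1])
    refine le_trans ?_ h2
    by_cases hb : y ∈ Metric.ball (0 : Pt) (R * 5)
    · have h3 := Jk_lip hR ‖y‖ (‖y‖ + 4 * h)
      rw [show ‖y‖ - (‖y‖ + 4 * h) = -(4 * h) by ring, abs_neg, abs_of_pos (by positivity)] at h3
      unfold kerr
      rw [Set.indicator_of_mem hb]
      linarith
    · rw [hout y hb]
      exact Jk_nonneg hR _
  have hcov : ∀ y : Pt, y ∉ ⋃ d ∈ S, kcell h d → Jk R ‖y‖ - kerr h R y = 0 := by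
    intro y hy
    refine hout y fun hb => hy ?_
    rw [mem_ball_zero_iff] at hb
    simp only [mem_iUnion]
    refine ⟨fun i => ⌊y i / h⌋, ?_, (mem_kcell hh).2 fun _ => rfl⟩
    rw [hS, Fintype.mem_piFinset]
    intro i
    have h1 : |y i| ≤ R * 5 := by
      have := PiLp.norm_apply_le y i
      rw [Real.norm_eq_abs] at this
      linarith
    rw [abs_le] at h1
    rw [Finset.mem_Icc]
    exact ⟨Int.floor_mono (div_le_div_of_nonneg_right h1.1 hh.le),
      Int.floor_mono (div_le_div_of_nonneg_right h1.2 hh.le)⟩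
  calc 1 - CJ * h / R = ∫ y, (Jk R ‖y‖ - kerr h R y) := by
        rw [integral_sub (integrable_Jk hR) (integrable_kerr h R), integral_Jk hR,
          integral_kerr h hR]
    _ = ∫ y in ⋃ d ∈ S, kcell h d, (Jk R ‖y‖ - kerr h R y) :=
        (setIntegral_eq_integral_of_forall_compl_eq_zero hcov).symm
    _ = ∑ d ∈ S, ∫ y in kcell h d, (Jk R ‖y‖ - kerr h R y) :=
        integral_biUnion_finset S (fun d _ => measurableSet_kcell h d) (kcell_disjoint hh S)
          fun _ _ => hG.integrableOn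
    _ ≤ ∑ d ∈ S, h ^ 3 * Jk R (h * zn d + 2 * h) := by
        refine Finset.sum_le_sum fun d _ => ?_
        rw [← setIntegral_kcell_const hh d]
        exact setIntegral_mono_on hG.integrableOn (integrableOn_kcell_const hh d _)
          (measurableSet_kcell h d) (key d)

end Crest.Agent.R149
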