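import Crest.Agent.R149.Kern

/-! Row 149: the kernel energy versus the sum of squared occupation numbers. -/

set_option autoImplicit false

namespace Crest.Agent.R149

open MeasureTheory Filter Set Crest.ProbabilityR.Continuum
open scoped ENNReal Topology

variable {A : Type*} [Fintype A] [DecidableEq A]

omit [DecidableEq A] in
/-- double sums over particles, grouped by classes -/
theorem sum_sum_comp {ι : Type*} [DecidableEq ι] (τ : A → ι) (k : ι → ι → ℝ) {I : Finset ι}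
    (hI : ∀ a, τ a ∈ I) :
    ∑ a, ∑ b, k (τ a) (τ b) = ∑ i ∈ I, ∑ j ∈ I, (cnt τ i : ℝ) * cnt τ j * k i j := by
  have h1 : ∀ f : ι → ℝ, ∑ a, f (τ a) = ∑ i ∈ I, (cnt τ i : ℝ) * f i := by
    intro f
    rw [← Finset.sum_fiberwise_of_maps_to (s := Finset.univ) (t := I) (g := τ)
      fun a _ => hI a]
    refine Finset.sum_congr rfl fun i _ => ?_
    rw [Finset.sum_congr rfl (g := fun _ => f i)
      fun a ha => by rw [(Finset.mem_filter.1 ha).2]]
    rw [Finset.sum_const, nsmul_eq_mul]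
    rfl
  rw [h1 fun i => ∑ b, k i (τ b)]
  refine Finset.sum_congr rfl fun i _ => ?_
  rw [h1 fun j => k i j, Finset.mul_sum]
  refine Finset.sum_congr rfl fun j _ => ?_
  ring

/-- Schur test: group by classes (`Finset.univ.image τ`), `n n' ≤ (n² + n'²)/2` -/
theorem kernel_le {ι : Type*} [DecidableEq ι] (τ : A → ι) {k : ι → ι → ℝ} {r : ℝ}
    (h0 : ∀ i j, 0 ≤ k i j) (hs : ∀ i j, k i j = k j i)
    (hr : ∀ i (S : Finset ι), ∑ j ∈ S, k i j ≤ r) : ∑ a, ∑ b, k (τ a) (τ b) ≤ r * Nn τ := by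
  set I : Finset ι := Finset.univ.image τ with hI
  have hmem : ∀ a, τ a ∈ I := fun a => Finset.mem_image_of_mem _ (Finset.mem_univ a)
  have hN : Nn τ = ∑ i ∈ I, (cnt τ i : ℝ) ^ 2 := by
    unfold Nn
    rw [sum_sum_comp τ (fun i j => if i = j then (1 : ℝ) else 0) hmem]
    refine Finset.sum_congr rfl fun i hi => ?_
    simp only [mul_ite, mul_one, mul_zero]
    rw [Finset.sum_ite_eq, if_pos hi, sq]
  rw [sum_sum_comp τ k hmem, hN]
  have hsym : ∑ i ∈ I, ∑ j ∈ I, (cnt τ j : ℝ) ^ 2 * k i j =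
      ∑ i ∈ I, ∑ j ∈ I, (cnt τ i : ℝ) ^ 2 * k i j := by
    rw [Finset.sum_comm]
    refine Finset.sum_congr rfl fun i _ => Finset.sum_congr rfl fun j _ => ?_
    rw [hs]
  calc ∑ i ∈ I, ∑ j ∈ I, (cnt τ i : ℝ) * cnt τ j * k i j
      ≤ ∑ i ∈ I, ∑ j ∈ I, ((cnt τ i : ℝ) ^ 2 * k i j + (cnt τ j : ℝ) ^ 2 * k i j) / 2 := by
        refine Finset.sum_le_sum fun i _ => Finset.sum_le_sum fun j _ => ?_
        nlinarith [mul_nonneg (sq_nonneg ((cnt τ i : ℝ) - cnt τ j)) (h0 i j)]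
    _ = ∑ i ∈ I, ∑ j ∈ I, (cnt τ i : ℝ) ^ 2 * k i j := by
        simp only [← Finset.sum_div, Finset.sum_add_distrib]
        rw [hsym]
        ring
    _ ≤ ∑ i ∈ I, r * (cnt τ i : ℝ) ^ 2 := by
        refine Finset.sum_le_sum fun i _ => ?_
        rw [← Finset.mul_sum, mul_comm]
        exact mul_le_mul_of_nonneg_right (hr i I) (sq_nonneg _)
    _ = r * ∑ i ∈ I, (cnt τ i : ℝ) ^ 2 := by rw [Finset.mul_sum]

theorem zn_neg (d : Fin 3 → ℤ) : zn (-d) = zn d := by
  unfold zn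
  rw [← norm_neg]
  congr 1
  ext i
  simp

theorem InG.abs_dist_sub {h s : ℝ} (hh : 0 ≤ h) {τ : A → Fin 3 → ℤ} {x : A → Pt}
    (hx : InG h s τ x) (a b : A) : |dist (x a) (x b) - h * zn (τ a - τ b)| ≤ 2 * h := by
  rw [dist_eq_norm]
  refine abs_norm_sub_zn hh fun i => ?_
  have h1 := hx a i
  have h2 := hx b i
  simp only [PiLp.sub_apply, Pi.sub_apply, Int.cast_sub]
  rw [abs_le]
  constructor <;> nlinarith [h1.1, h1.2, h2.1, h2.2]

theorem Wk_le {h R s : ℝ} (hh : 0 < h) (hR : h ≤ R) {τ : A → Fin 3 → ℤ} {x : A → Pt}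
    (hx : InG h s τ x) : En (Jk R) x ≤ (1 + CJ * h / R) * (Nn τ / (2 * h ^ 3)) := by
  have hR0 : 0 < R := hh.trans_le hR
  have h3 : 0 < h ^ 3 := by positivity
  have key := kernel_le τ (k := fun i j => Jk R (h * zn (i - j) - 2 * h))
    (r := (1 + CJ * h / R) / h ^ 3) (fun _ _ => Jk_nonneg hR0 _)
    (fun i j => by rw [← zn_neg, neg_sub]) (fun i S => by
      have h1 := lattice_upper hh hR (S.image fun j => i - j)
      rw [Finset.sum_image fun j _ j' _ e => sub_right_injective e, ← Finset.mul_sum] at h1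
      rw [le_div_iff₀ h3, mul_comm]
      exact h1)
  have h1 : (∑ a, ∑ b, if a = b then 0 else Jk R (dist (x a) (x b))) ≤
      ∑ a, ∑ b, Jk R (h * zn (τ a - τ b) - 2 * h) := by
    refine Finset.sum_le_sum fun a _ => Finset.sum_le_sum fun b _ => ?_
    split_ifs
    · exact Jk_nonneg hR0 _
    · exact Jk_antitone hR0 (by linarith [(abs_le.1 (hx.abs_dist_sub hh.le a b)).1])
  unfold En
  have h2 : (1 + CJ * h / R) * (Nn τ / (2 * h ^ 3)) = (1 + CJ * h / R) / h ^ 3 * Nn τ / 2 := by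
    field_simp
  rw [h2]
  exact div_le_div_of_nonneg_right (h1.trans key) zero_le_two

/-- at most `|e|` digits leave the range under a shift by `e` -/
theorem card_bad_digit (m : ℕ) (e : ℤ) :
    ((Finset.univ.filter fun t : Fin m =>
      ¬ (0 ≤ ((t : ℕ) : ℤ) - e ∧ ((t : ℕ) : ℤ) - e < m)).card : ℝ) ≤ |(e : ℝ)| := by
  have h1 : (Finset.univ.filter fun t : Fin m =>
      ¬ (0 ≤ ((t : ℕ) : ℤ) - e ∧ ((t : ℕ) : ℤ) - e < m)).card ≤
      (if 0 ≤ e then Finset.Ico 0 e else Finset.Ico (m + e) m).card := by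
    refine Finset.card_le_card_of_injOn (fun t => ((t : ℕ) : ℤ)) (fun t ht => ?_)
      fun t _ t' _ h => Fin.ext (by simpa using h)
    have h2 := (Finset.mem_filter.1 ht).2
    have h3 := t.2
    split_ifs with he
    · simp only [Finset.coe_Ico, mem_Ico]
      omega
    · simp only [Finset.coe_Ico, mem_Ico]
      omega
  have h2 : ((if 0 ≤ e then Finset.Ico 0 e else Finset.Ico (m + e) m).card : ℤ) ≤ |e| := by
    split_ifs with he
    · rw [Int.card_Ico, abs_of_nonneg he]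
      omega
    · rw [Int.card_Ico, abs_of_neg (not_le.1 he)]
      omega
  have h3 := (Int.ofNat_le.2 h1).trans h2
  exact_mod_cast h3

theorem card_filter_digit {m : ℕ} (i : Fin 3) (B : Finset (Fin m)) :
    (Finset.univ.filter fun d : Fin 3 → Fin m => d i ∈ B).card = B.card * m ^ 2 := by
  have h1 : (Finset.univ.filter fun d : Fin 3 → Fin m => d i ∈ B) =
      Fintype.piFinset (Function.update (fun _ => Finset.univ) i B) := by
    ext d
    simp only [Finset.mem_filter, Finset.mem_univ, true_and, Fintype.mem_piFinset]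
    constructor
    · intro h j
      by_cases hj : j = i
      · subst hj; simpa using h
      · simp [Function.update_of_ne hj]
    · intro h
      simpa using h i
  rw [h1, Fintype.card_piFinset, Fin.prod_univ_three]
  fin_cases i <;> simp <;> ring

open Classical in
theorem card_bad_index (m : ℕ) (e : Fin 3 → ℤ) :
    ((Finset.univ.filter fun d : Fin 3 → Fin m => ¬ ∃ d', ix d - ix (m := m) d' = e).card : ℝ) ≤
      (∑ i, |(e i : ℝ)|) * m ^ 2 := by
  set B : Fin 3 → Finset (Fin m) := fun i => Finset.univ.filter fun t : Fin m =>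
      ¬ (0 ≤ ((t : ℕ) : ℤ) - e i ∧ ((t : ℕ) : ℤ) - e i < m) with hB
  have h1 : (Finset.univ.filter fun d : Fin 3 → Fin m => ¬ ∃ d', ix d - ix (m := m) d' = e) ⊆
      Finset.univ.biUnion fun i => Finset.univ.filter fun d : Fin 3 → Fin m => d i ∈ B i := by
    intro d hd
    have h2 := (Finset.mem_filter.1 hd).2
    by_contra h3
    apply h2
    simp only [Finset.mem_biUnion, Finset.mem_univ, true_and, Finset.mem_filter, hB, not_exists,
      not_not] at h3
    refine ⟨fun i => ⟨(((d i : ℕ) : ℤ) - e i).toNat, ?_⟩, ?_⟩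
    · have := h3 i
      omega
    · funext i
      have := h3 i
      simp only [ix, Pi.sub_apply]
      omega
  have h2 := (Finset.card_le_card h1).trans Finset.card_biUnion_le
  simp only [card_filter_digit] at h2
  calc _ ≤ ((∑ i, (B i).card * m ^ 2 : ℕ) : ℝ) := by exact_mod_cast h2
    _ = ∑ i, ((B i).card : ℝ) * m ^ 2 := by push_cast; rfl
    _ ≤ ∑ i, |(e i : ℝ)| * m ^ 2 :=
        Finset.sum_le_sum fun i _ =>
          mul_le_mul_of_nonneg_right (card_bad_digit m (e i)) (by positivity)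
    _ = _ := by rw [Finset.sum_mul]

theorem sorted_shift_aux {m : ℕ} {z : (Fin 3 → Fin m) → ℝ} {Y : ℝ} (h0 : ∀ d, 0 ≤ z d)
    (hY : ∀ d, z d ≤ Y) {e : Fin 3 → ℤ} (hm : ∀ d d', ix d - ix d' = e → z d ≤ z d') :
    ∑ d, z d ^ 2 - (∑ i, |(e i : ℝ)|) * m ^ 2 * Y ^ 2 ≤
      ∑ d, ∑ d', if ix d - ix d' = e then z d * z d' else 0 := by
  classical
  have hnn : ∀ d d', 0 ≤ if ix d - ix d' = e then z d * z d' else 0 := by
    intro d d'
    split_ifs
    · exact mul_nonneg (h0 _) (h0 _)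
    · exact le_rfl
  have key : ∀ d, z d ^ 2 - (if ¬ ∃ d', ix d - ix (m := m) d' = e then Y ^ 2 else 0) ≤
      ∑ d', if ix d - ix d' = e then z d * z d' else 0 := by
    intro d
    by_cases h : ∃ d', ix d - ix (m := m) d' = e
    · obtain ⟨d', hd'⟩ := h
      rw [if_neg (not_not.2 ⟨d', hd'⟩), sub_zero]
      refine le_trans ?_ (Finset.single_le_sum (fun d'' _ => hnn d d'') (Finset.mem_univ d'))
      rw [if_pos hd', sq]
      exact mul_le_mul_of_nonneg_left (hm d d' hd') (h0 d)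
    · rw [if_pos h]
      have := pow_le_pow_left₀ (h0 d) (hY d) 2
      exact (sub_nonpos.2 this).trans (Finset.sum_nonneg fun d' _ => hnn d d')
  refine le_trans ?_ (Finset.sum_le_sum fun d _ => key d)
  rw [Finset.sum_sub_distrib, ← Finset.sum_filter, Finset.sum_const, nsmul_eq_mul]
  have := mul_le_mul_of_nonneg_right (card_bad_index m e) (sq_nonneg Y)
  refine sub_le_sub_left (le_trans (le_of_eq ?_) this) _
  congr

theorem rank_sub {m : ℕ} {d d' : Fin 3 → Fin m} {e : Fin 3 → ℤ} (h : ix d - ix d' = e) :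
    ((finFunctionFinEquiv d : ℕ) : ℤ) - ((finFunctionFinEquiv d' : ℕ) : ℤ) =
      ∑ i : Fin 3, e i * (m : ℤ) ^ (i : ℕ) := by
  rw [finFunctionFinEquiv_apply, finFunctionFinEquiv_apply, ← h]
  push_cast
  rw [← Finset.sum_sub_distrib]
  refine Finset.sum_congr rfl fun i _ => ?_
  simp only [ix, Pi.sub_apply]
  ring

/-- For `d` with `d - e` in the box, `z d * z d' ≥ z d ^ 2 - |z d ^ 2 - z d' ^ 2|`; the rank
(`finFunctionFinEquiv`, linear in the digits) is shifted by the constant `∑ e i * m ^ i`, and for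
a monotone sequence in `[0, Y²]` the sum of the increments over a fixed shift `Δ` is `≤ |Δ| Y²`;
at most `∑ |e i| m²` indices `d` have `d - e` outside the box. -/
theorem sorted_shift {m : ℕ} {z : (Fin 3 → Fin m) → ℝ} {Y : ℝ} (h0 : ∀ d, 0 ≤ z d)
    (hY : ∀ d, z d ≤ Y) (hm : Monotone (z ∘ finFunctionFinEquiv.symm)) (e : Fin 3 → ℤ) :
    ∑ d, z d ^ 2 - 2 * (∑ i, |(e i : ℝ)|) * m ^ 2 * Y ^ 2 ≤
      ∑ d, ∑ d', if ix d - ix d' = e then z d * z d' else 0 := by
  have hle : ∀ d d' : Fin 3 → Fin m,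
      (finFunctionFinEquiv d : ℕ) ≤ (finFunctionFinEquiv d' : ℕ) → z d ≤ z d' := by
    intro d d' h
    have := hm (show finFunctionFinEquiv d ≤ finFunctionFinEquiv d' from h)
    simpa using this
  have hpos : 0 ≤ (∑ i, |(e i : ℝ)|) * m ^ 2 * Y ^ 2 := by positivity
  rcases le_total (∑ i : Fin 3, e i * (m : ℤ) ^ (i : ℕ)) 0 with hΔ | hΔ
  · have := sorted_shift_aux h0 hY (e := e) fun d d' h => hle d d' (by
      have := rank_sub h
      omega)
    linarith
  · have h1 := sorted_shift_aux h0 hY (e := -e) fun d d' h => hle d d' (by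
      have h' : ix d' - ix d = e := by rw [← neg_sub, h, neg_neg]
      have := rank_sub h'
      omega)
    have h2 : (∑ d, ∑ d', if ix d - ix d' = -e then z d * z d' else 0) =
        ∑ d, ∑ d', if ix d - ix d' = e then z d * z d' else 0 := by
      rw [Finset.sum_comm]
      refine Finset.sum_congr rfl fun d _ => Finset.sum_congr rfl fun d' _ => ?_
      rw [mul_comm]
      refine if_congr ?_ rfl rfl
      rw [← neg_sub, neg_inj]
    simp only [Pi.neg_apply, Int.cast_neg, abs_neg] at h1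
    rw [h2] at h1
    linarith

/-- lower bound for sorted occupation numbers (`lattice_lower`, `sorted_shift`; the last term is
the diagonal) -/
theorem le_Wk {h R : ℝ} (hh : 0 < h) (hR : 0 < R) : ∃ C : ℝ, 0 ≤ C ∧
    ∀ (m N : ℕ) (τ : Fin N → Fin 3 → Fin m) (x : Fin N → Pt) (s Y : ℝ)
      (z : (Fin 3 → Fin m) → ℝ), InG h s (ix ∘ τ) x → (∀ d, 0 ≤ z d) → (∀ d, z d ≤ cnt τ d) →
      (∀ d, z d ≤ Y) → Monotone (z ∘ finFunctionFinEquiv.symm) →
      (1 - CJ * h / R) * ((∑ d, z d ^ 2) / (2 * h ^ 3)) - C * m ^ 2 * Y ^ 2 -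
        N * (iota * R ^ 3)⁻¹ / 2 ≤ En (Jk R) x := by
  obtain ⟨S, hS⟩ := lattice_lower hh hR
  set K : (Fin 3 → ℤ) → ℝ := fun e => Jk R (h * zn e + 2 * h) with hK
  have hK0 : ∀ e, 0 ≤ K e := fun e => Jk_nonneg hR _
  refine ⟨∑ e ∈ S, K e * ∑ i, |(e i : ℝ)|,
    Finset.sum_nonneg fun e _ => mul_nonneg (hK0 e) (by positivity), ?_⟩
  intro m N τ x s Y z hx h0 hc hY hm
  have h3 : 0 < h ^ 3 := by positivity
  -- remove the diagonal
  have h1 : (∑ a, ∑ b, K (ix (τ a) - ix (τ b))) - N * (iota * R ^ 3)⁻¹ ≤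
      ∑ a, ∑ b, if a = b then 0 else Jk R (dist (x a) (x b)) := by
    have : (N : ℝ) * (iota * R ^ 3)⁻¹ =
        ∑ a : Fin N, ∑ b : Fin N, if a = b then (iota * R ^ 3)⁻¹ else 0 := by simp
    rw [this, ← Finset.sum_sub_distrib]
    refine Finset.sum_le_sum fun a _ => ?_
    rw [← Finset.sum_sub_distrib]
    refine Finset.sum_le_sum fun b _ => ?_
    split_ifs
    · exact sub_nonpos.2 (Jk_le hR _)
    · rw [sub_zero]
      have := (abs_le.1 (hx.abs_dist_sub hh.le a b)).2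
      exact Jk_antitone hR (by simp only [Function.comp_apply] at this; linarith)
  have h2 : ∑ d, ∑ d', z d * z d' * K (ix d - ix d') ≤ ∑ a, ∑ b, K (ix (τ a) - ix (τ b)) := by
    rw [sum_sum_comp τ (fun d d' => K (ix d - ix d')) (I := Finset.univ)
      fun _ => Finset.mem_univ _]
    refine Finset.sum_le_sum fun d _ => Finset.sum_le_sum fun d' _ => ?_
    exact mul_le_mul_of_nonneg_right
      (mul_le_mul (hc d) (hc d') (h0 d') (Nat.cast_nonneg _)) (hK0 _)
  have h4 : ∑ e ∈ S, K e * (∑ d, ∑ d', if ix d - ix d' = e then z d * z d' else 0) ≤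
      ∑ d, ∑ d', z d * z d' * K (ix d - ix d') := by
    simp only [Finset.mul_sum]
    rw [Finset.sum_comm]
    refine Finset.sum_le_sum fun d _ => ?_
    rw [Finset.sum_comm]
    refine Finset.sum_le_sum fun d' _ => ?_
    simp only [mul_ite, mul_zero]
    rw [Finset.sum_ite_eq]
    split_ifs
    · exact le_of_eq (mul_comm _ _)
    · exact mul_nonneg (mul_nonneg (h0 _) (h0 _)) (hK0 _)
  have h5 : ∑ e ∈ S, K e * (∑ d, z d ^ 2 - 2 * (∑ i, |(e i : ℝ)|) * m ^ 2 * Y ^ 2) ≤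
      ∑ e ∈ S, K e * (∑ d, ∑ d', if ix d - ix d' = e then z d * z d' else 0) :=
    Finset.sum_le_sum fun e _ => mul_le_mul_of_nonneg_left (sorted_shift h0 hY hm e) (hK0 e)
  have h6 : ∑ e ∈ S, K e * (∑ d, z d ^ 2 - 2 * (∑ i, |(e i : ℝ)|) * m ^ 2 * Y ^ 2) =
      (∑ e ∈ S, K e) * ∑ d, z d ^ 2 -
        2 * ((∑ e ∈ S, K e * ∑ i, |(e i : ℝ)|) * m ^ 2 * Y ^ 2) := by
    rw [Finset.sum_mul, Finset.sum_mul, Finset.sum_mul, Finset.mul_sum S,
      ← Finset.sum_sub_distrib]
    refine Finset.sum_congr rfl fun e _ => ?_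
    ring
  have h7 : (1 - CJ * h / R) / h ^ 3 ≤ ∑ e ∈ S, K e := by
    rw [div_le_iff₀ h3, mul_comm (∑ e ∈ S, K e), Finset.mul_sum]
    exact hS
  have h8 := mul_le_mul_of_nonneg_right h7
    (show 0 ≤ ∑ d, z d ^ 2 from Finset.sum_nonneg fun d _ => sq_nonneg _)
  have h9 : (1 - CJ * h / R) * ((∑ d, z d ^ 2) / (2 * h ^ 3)) =
      (1 - CJ * h / R) / h ^ 3 * (∑ d, z d ^ 2) / 2 := by
    field_simp
  unfold En
  rw [h9]
  linarith

end Crest.Agent.R149
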