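import Crest.Agent.R149.Conv

/-! Row 149: the phase transition from the facts. -/

set_option autoImplicit false

namespace Crest.Agent.R149

open MeasureTheory Filter Set Crest.ProbabilityR.Continuum
open scoped ENNReal Topology

variable {Γ : ℝ → ℝ → ℝ} {A w ε β : ℝ}

/-- Write `F = Γ β - lin β A`, and `ℓ u = μ u - π - lin β A u ≤ F u` (affine).  Support at `5/2`
(`exists_supp`).  `crude` gives `F (5/2) ≥ -3.1`, and `ℓ 2, ℓ 3 ≤ ε`, so `|μ| ≤ 9`, `|π| ≤ 30`.
`exists_ext_right` with `κ = 1/1200`, `M = 30000` gives `b`; `low` or `high` at `b` bound the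
slope of `ℓ` below by `-5 w`, so `ℓ (1/10) ≤ 1/10` while `F (1/10) ≥ 2` by `crude`;
`exists_ext_left` gives `a`.  On `[2, 3]` convexity gives `F ≤ ε`, so `gap` forces `a < 9/4` and
`11/4 < b`. -/
theorem Facts.exists_contact (h : Facts Γ A w ε) (h1 : 1 - w ≤ β) (h2 : β ≤ 1 + w) :
    ∃ μ π a b : ℝ, 0 < a ∧ a < 9 / 4 ∧ 11 / 4 < b ∧ b ≤ 30000 ∧ Supp (Γ β) μ π a ∧
      Supp (Γ β) μ π b ∧ ExtFacts Γ A w ε β a ∧ ExtFacts Γ A w ε β b := by
  have hA := h.A_pos
  have hA' := h.A_le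
  have hw := h.w_eq
  have hε := h.ε_pos
  have hε' := h.ε_le
  have b1 : 1 / 2 ≤ β := by linarith
  have b2 : β ≤ 2 := by linarith
  have hc := h.cvx β (by linarith)
  have hβA : 0 < β * A := by positivity
  have hβA' : β * A ≤ 1 / 5 := by nlinarith
  obtain ⟨μ, π, hs⟩ := exists_supp hc (show (0 : ℝ) < 5 / 2 by norm_num)
  have c1 := h.crude β b1 b2 (5 / 2) (by norm_num)
  have c2 := h.crude β b1 b2 (1 / 10) (by norm_num)
  have t2 := h.two β b1 b2
  have t3 := h.three β b1 b2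
  have s2 := hs.1 2 (by norm_num)
  have s3 := hs.1 3 (by norm_num)
  have s0 := hs.2
  simp only [lin] at t2 t3
  have m1 : μ ≤ 9 := by linarith
  have m2 : -9 ≤ μ := by linarith
  have p1 : π ≤ 30 := by linarith
  have p2 : -30 ≤ π := by linarith
  have hg : ∀ u, 30000 ≤ u → 1 / 1200 * u ^ 2 ≤ Γ β u - (μ * u - π) := fun u hu => by
    have := h.crude β b1 b2 u (by linarith)
    have e1 := mul_nonneg (sub_nonneg.2 m1) (show 0 ≤ u by linarith)
    have e2 := mul_nonneg (sub_nonneg.2 hu) (show 0 ≤ u by linarith)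
    linarith
  have hE := fun u h0 hu => h.ext β h1 h2 μ π u h0 hu (abs_le.2 ⟨by linarith, by linarith⟩)
    (abs_le.2 ⟨by linarith, by linarith⟩)
  obtain ⟨b, hb1, hb2, hb3, hb4⟩ := exists_ext_right hc (by norm_num) hs (by norm_num) (by norm_num) hg
  have Eb := hE b (by linarith) hb2 hb3 hb4
  have hσ : -(5 * w) ≤ μ - β * (84 / 25 - A) / 2 := by
    by_contra hσ
    have e1 := mul_pos (sub_pos.2 (not_le.1 hσ)) (show 0 < b - 2 by linarith)
    rcases le_total b (7 / 2) with hb | hb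
    · have := Eb.low hb
      have e2 := mul_nonneg (show 0 ≤ w by linarith) (sub_nonneg.2 hb1)
      rw [hb3.2, lin] at this
      linarith
    · have := Eb.high hb
      have e2 := mul_nonneg (show 0 ≤ w by linarith) (sub_nonneg.2 hb)
      rw [hb3.2, lin] at this
      linarith
  obtain ⟨a, ha1, ha2, ha3, ha4⟩ := exists_ext_left hc hs (by norm_num) (by norm_num) hg
    (show (0 : ℝ) < 1 / 10 by norm_num) (by norm_num) (by linarith)
  have Ea := hE a (by linarith) (by linarith) ha3 ha4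
  have hgap : ∀ u, Supp (Γ β) μ π u → ExtFacts Γ A w ε β u → 9 / 4 ≤ u → ¬ u ≤ 11 / 4 :=
    fun u hu Eu u1 u2 => by
      have := Eu.gap u1 u2
      rw [hu.2, lin] at this
      have e2 := mul_le_mul_of_nonneg_left (s2.trans (sub_le_iff_le_add.1 t2))
        (show 0 ≤ 3 - u by linarith)
      have e3 := mul_le_mul_of_nonneg_left (s3.trans (sub_le_iff_le_add.1 t3))
        (show 0 ≤ u - 2 by linarith)
      linarith
  exact ⟨μ, π, a, b, by linarith, not_le.1 fun h => hgap a ha3 Ea h (by linarith),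
    not_le.1 (hgap b hb3 Eb (by linarith)), hb2, ha3, hb3, Ea, Eb⟩

/-- With `ℓ a ≥ -ε`, `ℓ 3 ≤ ε` the slope of `ℓ` is `≤ 8 ε / 3`.
Case `b ≤ 7/2`: the slope is `≥ -8 ε / 3`, `F a, F b ≤ 7 ε`, `loose` and `Lo.mix`; at `β = 1 + w`
this contradicts `four`.  Case `b > 7/2`: `F b ≤ 3 ε b`, `tight` at `b`, `any` at `9/4`
(`Supp.between`), `Hi.mix` with weight `c ≥ 0.15 / b` on `b`; at `β = 1 - w` this contradicts
`hot`. -/
theorem Facts.dichotomy (h : Facts Γ A w ε) (h1 : 1 - w ≤ β) (h2 : β ≤ 1 + w) :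
    (β ≠ 1 + w ∧ ∀ u ∈ Ioo (12 / 5 : ℝ) (13 / 5), Lo Γ β u (17 * ε / w)) ∨
      (β ≠ 1 - w ∧ ∀ u ∈ Ioo (12 / 5 : ℝ) (13 / 5), Hi Γ β u (1 / 100)) := by
  have hA := h.A_pos
  have hA' := h.A_le
  have hw := h.w_eq
  have hε := h.ε_pos
  have hε' := h.ε_le
  have b1 : 1 / 2 ≤ β := by linarith
  have b2 : β ≤ 2 := by linarith
  obtain ⟨μ, π, a, b, ha0, ha, hb, hb', Sa, Sb, Ea, Eb⟩ := h.exists_contact h1 h2
  obtain ⟨σ, hσ⟩ : ∃ σ, σ = μ - β * (84 / 25 - A) / 2 := ⟨_, rfl⟩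
  obtain ⟨c, hc⟩ : ∃ c, c = π - 63 / 25 * β := ⟨_, rfl⟩
  have hl : ∀ u, μ * u - π - lin β A u = σ * u - c := fun u => by rw [hσ, hc, lin]; ring
  have hle : ∀ u, 0 ≤ u → σ * u - c ≤ Γ β u - lin β A u := fun u hu => by
    rw [← hl]; exact sub_le_sub_right (Sa.1 u hu) _
  have Fa : Γ β a - lin β A a = σ * a - c := by rw [Sa.2, hl]
  have Fb : Γ β b - lin β A b = σ * b - c := by rw [Sb.2, hl]
  have t2 := (hle 2 (by norm_num)).trans (h.two β b1 b2)
  have t3 := (hle 3 (by norm_num)).trans (h.three β b1 b2)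
  have t4 := (hle 4 (by norm_num)).trans (h.four β b1 b2)
  have la := Ea.low (by linarith)
  rw [Fa] at la
  have σ1 : σ ≤ 8 / 3 * ε := by
    by_contra hn
    have := mul_pos (show 0 < σ by linarith) (sub_pos.2 ha)
    linarith
  rcases le_total b (7 / 2) with hb7 | hb7
  · have lb := Eb.low hb7
    rw [Fb] at lb
    have σ2 : -(8 / 3 * ε) ≤ σ := by
      by_contra hn
      have := mul_pos (show 0 < -σ by linarith) (sub_pos.2 hb)
      linarith
    have key : ∀ x y : ℝ, |x - y| ≤ 2 → σ * x ≤ σ * y + 16 / 3 * ε := fun x y hxy => by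
      have e1 := mul_le_mul (abs_le.2 ⟨σ2, σ1⟩) hxy (abs_nonneg _) (by positivity)
      have e2 := le_abs_self (σ * (x - y))
      rw [abs_mul] at e2
      linarith
    refine Or.inl ⟨fun e => ?_, fun u hu => ?_⟩
    · have := key b 4 (abs_le.2 ⟨by linarith, by linarith⟩)
      linarith
    have La := Ea.loose (by linarith) (by
      have := key a 2 (abs_le.2 ⟨by linarith, by linarith⟩)
      linarith)
    have Lb := Eb.loose hb7 (by
      have := key b 3 (abs_le.2 ⟨by linarith, by linarith⟩)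
      linarith)
    have hd : 0 < b - a := by linarith
    have := Lo.mix h.cvx (c := (b - u) / (b - a)) ha0.le (by linarith) Sa Sb
      (div_nonneg (by linarith [hu.2]) hd.le) ((div_le_one hd).2 (by linarith [hu.1])) (by linarith) La Lb
    convert this using 1
    · field_simp
      ring
    · ring
  · have Fb' : Γ β b - lin β A b ≤ 3 * ε * b := by
      have e1 := mul_nonneg (sub_nonneg.2 σ1) (show 0 ≤ b - 3 by linarith)
      have e2 := mul_nonneg hε.le (show 0 ≤ b by linarith)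
      linarith
    refine Or.inr ⟨fun e => ?_, fun u hu => ?_⟩
    · have e1 := Eb.hot e hb7
      have e2 := mul_nonneg (sub_nonneg.2 hε') (show 0 ≤ b by linarith)
      have e3 := mul_nonneg (show 0 ≤ w by linarith) (sub_nonneg.2 hb7)
      linarith
    have hd : 0 < b - 9 / 4 := by linarith
    have := Hi.mix h.cvx (c := (u - 9 / 4) / (b - 9 / 4)) (by linarith) (by norm_num) Sb
      (Supp.between (h.cvx β (by linarith)) ha0.le Sa Sb ha.le (by linarith))
      (div_nonneg (by linarith [hu.1]) hd.le) ((div_le_one hd).2 (by linarith [hu.2])) (by linarith)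
      (Eb.tight hb7 Fb') (h.any β b1 b2 (9 / 4) (by norm_num) (by norm_num))
    have e : (u - 9 / 4) / (b - 9 / 4) * b + (1 - (u - 9 / 4) / (b - 9 / 4)) * (9 / 4) = u := by
      linarith [div_mul_cancel₀ (u - 9 / 4) hd.ne']
    rw [e] at this
    refine this.mono (by linarith) ?_
    have h3 : 3 / 20 ≤ (u - 9 / 4) / (b - 9 / 4) * b := by
      rw [div_mul_eq_mul_div, le_div_iff₀ hd]
      have := mul_nonneg (sub_nonneg.2 hu.1.le) (show 0 ≤ b by linarith)
      linarith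
    linarith

theorem Facts.phase (h : Facts Γ A w ε) : ∃ βc : ℝ, 7 / 8 ≤ βc ∧ βc ≤ 9 / 8 ∧
    ∀ u ∈ Ioo (12 / 5 : ℝ) (13 / 5), ∃ Dl Dr : ℝ,
      HasDerivWithinAt (fun β => Γ β u / β) Dl (Iio βc) βc ∧
      HasDerivWithinAt (fun β => Γ β u / β) Dr (Ioi βc) βc ∧ Dr < Dl := by
  have hA := h.A_pos
  have hA' := h.A_le
  have hw := h.w_eq
  have hε' := h.ε_le
  obtain ⟨βc, h1, h2, h3⟩ := kink (Γ := Γ) (I := Ioo (12 / 5 : ℝ) (13 / 5)) (lo := 1 - w) (hi := 1 + w)
    (θ₁ := 17 * ε / w) (θ₂ := 1 / 100) (by linarith) (by linarith)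
    (by rw [div_lt_iff₀ (by linarith)]; linarith) (fun u hu => h.ccv u (by linarith [hu.1]))
    (fun β h1 h2 => (h.dichotomy h1 h2).imp And.right And.right)
    ((h.dichotomy le_rfl (by linarith)).resolve_right fun h => h.1 rfl).2
    ((h.dichotomy (by linarith) le_rfl).resolve_left fun h => h.1 rfl).2
  exact ⟨βc, by linarith, by linarith, h3⟩

end Crest.Agent.R149
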