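import Crest.Agent.R149.Exist
import Crest.Agent.R149.Facts
import Crest.Agent.R149.Phase

/-! Row 149: the main theorem. -/

set_option autoImplicit false

namespace Crest.Agent.R149

open MeasureTheory Filter Set Crest.ProbabilityR.Continuum
open scoped ENNReal Topology

theorem main {ψ : ℝ → ℝ} (hm : Measurable ψ) (h0 : ∀ t, 0 ≤ ψ t)
    (h1 : ∀ t, 1 / 10 ≤ t → ψ t = 0) :
    ∃ (φc : ℝ → ℝ) (δ p βc : ℝ), Continuous φc ∧ (∃ M : ℝ, ∀ r, |φc r| ≤ M) ∧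
      (∃ C : ℝ, ∀ r : ℝ, 1 ≤ r → |φc r| ≤ C * r ^ (-(3 + 1 / 32 : ℝ))) ∧
      (∃ a : ℝ, 0 < a ∧ ∀ r, 2 ≤ r → r ≤ 3 → φc r ≤ -a) ∧ 0 < δ ∧ δ ≤ 1 ∧
      Adm (fun r => φc r + ψ (r / δ)) ∧ 1 ≤ p ∧
      Tendsto (fun L : ℝ => (packingNumber L : ℝ) / L ^ 3) atTop (𝓝 p) ∧
      7 / 8 ≤ βc ∧ βc ≤ 9 / 8 ∧
      ∀ ρ : ℝ, 5 * p / 3 - p / 100 < ρ → ρ < 5 * p / 3 + p / 100 → ∃ Dl Dr : ℝ,
        HasDerivWithinAt (fun β => g (fun r => φc r + ψ (r / δ)) β ρ / β) Dl (Iio βc) βc ∧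
        HasDerivWithinAt (fun β => g (fun r => φc r + ψ (r / δ)) β ρ / β) Dr (Ioi βc) βc ∧
        Dr < Dl := by
  obtain ⟨p, hp, hp', hlim⟩ := exists_pack
  obtain ⟨M, K, c, hφ0, hδ1, hστ, hp1, hp2, hsum⟩ := exists_mod hm h0 h1 hp hp' hlim
  obtain ⟨βc, hb1, hb2, hk⟩ := M.facts.phase
  have hδ := M.δ_pos
  have hτ := M.τ_pos
  have hδσ := M.δ_le
  set φc : ℝ → ℝ := fun r => φc0 K c M.σ M.τ M.δ r - M.toSys.J r with hφc
  have hφ : (fun r => φc r + ψ (r / M.δ)) = M.toSys.φ := by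
    funext r
    simp only [hφc, Sys.φ]
    rw [hφ0]; ring
  have hb0 : ∀ r, |φc0 K c M.σ M.τ M.δ r| ≤ |K| + |c| := by
    intro r
    unfold φc0
    refine (abs_sub _ _).trans (add_le_add ?_ ?_) <;> rw [abs_mul] <;>
      refine mul_le_of_le_one_right (abs_nonneg _) ?_ <;>
      rw [abs_of_nonneg (ramp_nonneg _)] <;> exact ramp_le_one _
  have hz0 : ∀ r, 2 ≤ r → φc0 K c M.σ M.τ M.δ r = 0 := by
    intro r hr
    unfold φc0
    rw [ramp_of_nonpos, ramp_of_nonpos]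
    · ring
    · rw [sub_nonpos, le_div_iff₀ hδ]; linarith
    · exact div_nonpos_of_nonpos_of_nonneg (by linarith) hτ.le
  refine ⟨φc, M.δ, p, βc, ?_, ⟨|K| + |c| + M.toSys.tail 0 * iota⁻¹, fun r => ?_⟩, ?_, ?_, hδ, hδ1,
    ?_, hp, hlim, hb1, hb2, ?_⟩
  · have h2 : Continuous (φc0 K c M.σ M.τ M.δ) := by
      unfold φc0
      have := continuous_ramp
      fun_prop
    exact h2.sub M.toSys.continuous_J
  · refine (abs_sub _ _).trans (add_le_add (hb0 r) ?_)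
    rw [abs_of_nonneg (M.toSys.J_nonneg r)]
    exact M.toSys.J_le r
  · obtain ⟨C, hC⟩ := M.toSys.J_decay hsum
    refine ⟨(|K| + |c|) * 16 + C, fun r hr => ?_⟩
    have hr0 : 0 < r := by linarith
    have hpos : 0 < r ^ (-(3 + 1 / 32 : ℝ)) := Real.rpow_pos_of_pos hr0 _
    refine (abs_sub _ _).trans ?_
    rw [abs_of_nonneg (M.toSys.J_nonneg r), add_mul]
    refine add_le_add ?_ (hC r hr)
    rcases le_or_gt 2 r with h2 | h2
    · rw [hz0 r h2, abs_zero]; positivity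
    · have h3 : (2 : ℝ) ^ (-(4 : ℝ)) ≤ r ^ (-(3 + 1 / 32 : ℝ)) := by
        calc (2 : ℝ) ^ (-(4 : ℝ)) ≤ (2 : ℝ) ^ (-(3 + 1 / 32 : ℝ)) :=
              Real.rpow_le_rpow_of_exponent_le (by norm_num) (by norm_num)
          _ ≤ _ := Real.rpow_le_rpow_of_nonpos hr0 h2.le (by norm_num)
      have h4 : (2 : ℝ) ^ (-(4 : ℝ)) = 1 / 16 := by
        rw [Real.rpow_neg (by norm_num)]
        norm_num
      rw [h4] at h3
      have h5 : 0 ≤ |K| + |c| := by positivity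
      calc _ ≤ |K| + |c| := hb0 r
        _ = (|K| + |c|) * 16 * (1 / 16) := by ring
        _ ≤ _ := by gcongr
  · have hR := M.toSys.six_le_R 0
    refine ⟨M.a 0 * Jk (M.R 0) 3, mul_pos (M.a_pos 0) (Jk_pos (by linarith) (by linarith)),
      fun r h2 h3 => ?_⟩
    simp only [hφc]
    rw [hz0 r h2]
    have h4 := M.toSys.le_J 0 r
    have h5 : M.a 0 * Jk (M.R 0) 3 ≤ M.a 0 * Jk (M.R 0) r :=
      mul_le_mul_of_nonneg_left (Jk_antitone (by linarith) h3) (M.a_pos 0).le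
    linarith
  · rw [hφ]; exact M.toSys.adm
  · intro ρ h2 h3
    rw [hφ]
    have hp'0 : 0 < M.p' := by linarith [M.p'_ge]
    have he : M.e ≤ 1 / 1000 := by
      have := M.e_le; have := M.A_le; linarith
    have he0 := M.e_pos
    have hu : ρ / M.p' ∈ Ioo (12 / 5 : ℝ) (13 / 5) := by
      constructor
      · rw [lt_div_iff₀ hp'0]; nlinarith
      · rw [div_lt_iff₀ hp'0]; nlinarith
    obtain ⟨Dl, Dr, hl, hr, hlt⟩ := hk _ hu
    have hlam := M.lam_pos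
    have heq : (fun β => g M.toSys.φ β ρ / β) =
        fun β => M.lam * M.p' * (M.Γ β (ρ / M.p') / β) := by
      funext β
      rw [← mul_div_assoc, ← M.g_eq, div_mul_cancel₀ _ hp'0.ne']
    rw [heq]
    exact ⟨_, _, hl.const_mul _, hr.const_mul _, mul_lt_mul_of_pos_left hlt (by positivity)⟩

end Crest.Agent.R149
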