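import Crest.Agent.R149.Basic

/-! Row 149: decomposition of configurations according to a finite family of tiles. -/

set_option autoImplicit false

namespace Crest.Agent.R149

open MeasureTheory Filter Set Crest.ProbabilityR.Continuum
open scoped ENNReal Topology

variable {φ φ' : ℝ → ℝ} {β : ℝ} {Λ Λ' : Set Pt} {N : ℕ} {E : Set (Fin N → Pt)}
  {ι : Type} [Fintype ι] [DecidableEq ι]

omit [Fintype ι] in
theorem cnt_eq_card {A : Type*} [Fintype A] (τ : A → ι) (i : ι) :
    cnt τ i = Fintype.card {a // τ a = i} := (Fintype.card_subtype _).symm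

omit [Fintype ι] in
theorem cnt_comp_equiv {A A' : Type*} [Fintype A] [Fintype A'] (τ : A → ι) (e : A' ≃ A) :
    cnt (τ ∘ e) = cnt τ := by
  funext i
  rw [cnt_eq_card, cnt_eq_card]
  exact Fintype.card_congr (e.subtypeEquiv fun a => Iff.rfl)

theorem exists_cnt (ν : ι → ℕ) (hN : ∑ i, ν i = N) : ∃ τ : Fin N → ι, cnt τ = ν := by
  have e : Fin N ≃ (Σ i, Fin (ν i)) := Fintype.equivOfCardEq (by simp [hN])
  refine ⟨Sigma.fst ∘ e, ?_⟩
  rw [cnt_comp_equiv]
  funext i
  rw [cnt_eq_card, Fintype.card_congr (Equiv.sigmaSubtype i), Fintype.card_fin]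

/-- The multinomial count (orbit-stabiliser: `DomMulAct.stabilizer_card`, or compare coefficients
in `Finset.sum_pow_eq_sum_piAntidiag`, or induct). -/
theorem card_cnt (ν : ι → ℕ) (hN : ∑ i, ν i = N) :
    (Finset.univ.filter fun τ : Fin N → ι => cnt τ = ν).card * ∏ i, (ν i).factorial =
      N.factorial := by
  obtain ⟨τ₀, h₀⟩ := exists_cnt ν hN
  have h1 := Finset.card_eq_sum_card_fiberwise (f := fun g : Equiv.Perm (Fin N) => τ₀ ∘ g)
    (s := Finset.univ) (t := Finset.univ.filter fun τ : Fin N → ι => cnt τ = ν)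
    (fun g _ => by simp [cnt_comp_equiv, h₀])
  rw [Finset.card_univ, Fintype.card_perm, Fintype.card_fin] at h1
  rw [h1, Finset.sum_const_nat (m := ∏ i, (ν i).factorial)]
  intro τ hτ
  have hτ' : cnt τ = ν := by simpa using hτ
  have e : ∀ i, {a // τ a = i} ≃ {a // τ₀ a = i} := fun i => Fintype.equivOfCardEq (by
    rw [← cnt_eq_card, ← cnt_eq_card, hτ', h₀])
  have hg : τ₀ ∘ (Equiv.ofFiberEquiv e) = τ := funext fun a => Equiv.ofFiberEquiv_map e a
  set g₀ : Equiv.Perm (Fin N) := Equiv.ofFiberEquiv e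
  have h2 := DomMulAct.stabilizer_card τ
  rw [Finset.prod_congr rfl (g := fun i => (ν i).factorial)
    (fun i _ => by rw [← cnt_eq_card, hτ'])] at h2
  rw [← h2, ← Fintype.card_subtype (fun g : Equiv.Perm (Fin N) => τ₀ ∘ g = τ)]
  refine Fintype.card_congr ((Equiv.mulLeft g₀⁻¹).subtypeEquiv fun g => ?_)
  simp only [Equiv.coe_mulLeft, Equiv.Perm.coe_mul]
  have : τ ∘ ⇑g₀⁻¹ = τ₀ := by
    rw [← hg]
    funext a
    simp
  rw [← Function.comp_assoc, this]

theorem lintegral_fin_prod {n : ℕ} {X : Fin n → Type*} {mX : ∀ i, MeasurableSpace (X i)}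
    {μ : (i : Fin n) → Measure (X i)} [∀ i, SigmaFinite (μ i)] (f : (i : Fin n) → X i → ℝ≥0∞)
    (hf : ∀ i, Measurable (f i)) :
    ∫⁻ x, ∏ i, f i (x i) ∂(Measure.pi μ) = ∏ i, ∫⁻ x, f i x ∂(μ i) := by
  induction n with
  | zero => simp
  | succ n ih =>
    have hm : Measurable fun x : (i : Fin n) → X i.succ => ∏ i, f i.succ (x i) :=
      Finset.measurable_prod _ fun i _ => (hf _).comp (measurable_pi_apply i)
    rw [← ((measurePreserving_piFinSuccAbove μ 0).symm).lintegral_comp_emb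
      (MeasurableEquiv.measurableEmbedding _), Fin.prod_univ_succ, ← ih _ fun i => hf _,
      ← lintegral_prod_mul (hf 0).aemeasurable hm.aemeasurable]
    refine lintegral_congr fun x => ?_
    rw [Fin.prod_univ_succ]
    rfl

theorem lintegral_fintype_prod {κ : Type*} [Fintype κ] {X : κ → Type*}
    {mX : ∀ i, MeasurableSpace (X i)} {μ : (i : κ) → Measure (X i)} [∀ i, SigmaFinite (μ i)]
    (f : (i : κ) → X i → ℝ≥0∞) (hf : ∀ i, Measurable (f i)) :
    ∫⁻ x, ∏ i, f i (x i) ∂(Measure.pi μ) = ∏ i, ∫⁻ x, f i x ∂(μ i) := by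
  let e := (Fintype.equivFin κ).symm
  rw [← (measurePreserving_piCongrLeft _ e).lintegral_comp_emb
    (MeasurableEquiv.measurableEmbedding _)]
  simp_rw [← e.prod_comp, MeasurableEquiv.coe_piCongrLeft, Equiv.piCongrLeft_apply_apply]
  exact lintegral_fin_prod _ fun i => hf _

theorem factorial_mul_Zr (φ : ℝ → ℝ) (β : ℝ) (Λ : Set Pt) (n : ℕ) :
    (n.factorial : ℝ≥0∞) * Zr φ β Λ n = ∫⁻ x in box Λ n, bw φ β x := by
  rw [Zr, ZA, ← mul_assoc, ENNReal.mul_inv_cancel (by exact_mod_cast n.factorial_ne_zero)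
    (ENNReal.natCast_ne_top _), one_mul, univ_inter]

/-- Factorisation over the fibres of `τ` (`EnI_eq_sum`, `Equiv.sigmaFiberEquiv`, a product of
lintegrals; relabel each fibre by `Fin (cnt τ i)` with `En_comp_equiv`). -/
theorem lintegral_EnI (hφ : Measurable φ) (T : ι → Set Pt) (hT : ∀ i, MeasurableSet (T i))
    (τ : Fin N → ι) :
    ∫⁻ x in Set.pi univ fun a => T (τ a), ENNReal.ofReal (Real.exp (-β * EnI φ τ x)) =
      ∏ i, ((cnt τ i).factorial * Zr φ β (T i) (cnt τ i)) := by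
  have e : ∀ i, Fin (cnt τ i) ≃ {a // τ a = i} := fun i =>
    Fintype.equivOfCardEq (by rw [Fintype.card_fin, cnt_eq_card])
  set Ψ : (∀ i, Fin (cnt τ i) → Pt) → Fin N → Pt :=
    fun y a => y (τ a) ((e (τ a)).symm ⟨a, rfl⟩) with hΨ
  have hΨe : ∀ y i k, Ψ y (e i k) = y i k := by
    intro y i k
    obtain ⟨⟨a, ha⟩, rfl⟩ := (e i).symm.surjective k
    subst ha
    simp [hΨ]
  have hΨm : Measurable Ψ :=
    measurable_pi_lambda _ fun a => (measurable_pi_apply _).comp (measurable_pi_apply _)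
  have hpre : ∀ s : Fin N → Set Pt,
      Ψ ⁻¹' Set.pi univ s = Set.pi univ fun i => Set.pi univ fun k => s (e i k) := by
    intro s
    ext y
    simp only [mem_preimage, Set.mem_pi, mem_univ, forall_true_left]
    constructor
    · intro h i k
      rw [← hΨe y i k]
      exact h _
    · intro h a
      simpa using h (τ a) ((e (τ a)).symm ⟨a, rfl⟩)
  have hmap : (volume : Measure (Fin N → Pt)) =
      Measure.map Ψ (Measure.pi fun i => (volume : Measure (Fin (cnt τ i) → Pt))) := by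
    refine Measure.pi_eq fun s hs => ?_
    rw [Measure.map_apply hΨm (MeasurableSet.univ_pi hs), hpre, Measure.pi_pi]
    simp only [volume_pi_pi]
    rw [← Finset.prod_fiberwise (s := Finset.univ) (g := τ)]
    refine Finset.prod_congr rfl fun i _ => ?_
    rw [Finset.prod_subtype (p := fun a => τ a = i) (F := inferInstance) _ (by simp)]
    exact (e i).prod_comp fun a => volume (s a)
  have hS : MeasurableSet (Set.pi univ fun a => T (τ a)) := MeasurableSet.univ_pi fun a => hT _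
  have hF : Measurable fun x : Fin N → Pt => ENNReal.ofReal (Real.exp (-β * EnI φ τ x)) :=
    ((measurable_EnI hφ τ).const_mul _).exp.ennreal_ofReal
  rw [← lintegral_indicator hS, hmap, lintegral_map (hF.indicator hS) hΨm]
  simp only [factorial_mul_Zr]
  simp only [fun i => (lintegral_indicator (μ := volume) (measurableSet_box (hT i) (cnt τ i))
    (fun x => bw φ β x)).symm]
  rw [← lintegral_fintype_prod _ fun i =>
    (measurable_bw hφ β _).indicator (measurableSet_box (hT i) _)]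
  refine lintegral_congr fun y => ?_
  have hiff : Ψ y ∈ (Set.pi univ fun a => T (τ a)) ↔ ∀ i, y i ∈ box (T i) (cnt τ i) := by
    rw [← mem_preimage, hpre]
    simp only [box, Set.mem_pi, mem_univ, forall_true_left]
    refine forall_congr' fun i => forall_congr' fun k => ?_
    rw [(e i k).2]
  by_cases hy : ∀ i, y i ∈ box (T i) (cnt τ i)
  · rw [indicator_of_mem (hiff.2 hy), EnI_eq_sum, Finset.mul_sum, Real.exp_sum,
      ENNReal.ofReal_prod_of_nonneg fun _ _ => (Real.exp_pos _).le]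
    refine Finset.prod_congr rfl fun i _ => ?_
    rw [indicator_of_mem (hy i), bw, ← En_comp_equiv φ (e i)]
    congr 4
    funext k
    exact hΨe y i k
  · rw [indicator_of_notMem (mt hiff.1 hy)]
    obtain ⟨i, hi⟩ := not_forall.1 hy
    exact (Finset.prod_eq_zero (Finset.mem_univ i) (indicator_of_notMem hi _)).symm

theorem sum_cnt_eq (hφ : Measurable φ) (T : ι → Set Pt) (hT : ∀ i, MeasurableSet (T i))
    (ν : ι → ℕ) (hN : ∑ i, ν i = N) (c : ℝ≥0∞) :
    (N.factorial : ℝ≥0∞)⁻¹ * ∑ τ ∈ Finset.univ.filter fun τ : Fin N → ι => cnt τ = ν,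
      c * ∫⁻ x in Set.pi univ fun a => T (τ a), ENNReal.ofReal (Real.exp (-β * EnI φ τ x)) =
      c * ∏ i, Zr φ β (T i) (ν i) := by
  rw [Finset.sum_congr rfl (g := fun _ => c * ∏ i, (((ν i).factorial : ℝ≥0∞) *
    Zr φ β (T i) (ν i))) fun τ hτ => by
      rw [lintegral_EnI hφ T hT τ, (Finset.mem_filter.1 hτ).2]]
  have h := congrArg (Nat.cast : ℕ → ℝ≥0∞) (card_cnt ν hN)
  push_cast at h
  rw [Finset.sum_const, nsmul_eq_mul, Finset.prod_mul_distrib]
  calc _ = (N.factorial : ℝ≥0∞)⁻¹ * (((Finset.univ.filter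
        fun τ : Fin N → ι => cnt τ = ν).card : ℝ≥0∞) * ∏ i, ((ν i).factorial : ℝ≥0∞)) *
        (c * ∏ i, Zr φ β (T i) (ν i)) := by ring
    _ = _ := by
      rw [h, ENNReal.inv_mul_cancel (by exact_mod_cast N.factorial_ne_zero)
        (ENNReal.natCast_ne_top _), one_mul]

theorem ofReal_exp_le {a b c : ℝ} (h : a ≤ b + c) :
    ENNReal.ofReal (Real.exp a) ≤ ENNReal.ofReal (Real.exp b) * ENNReal.ofReal (Real.exp c) := by
  rw [← ENNReal.ofReal_mul (Real.exp_pos _).le, ← Real.exp_add]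
  exact ENNReal.ofReal_le_ofReal (Real.exp_le_exp.2 h)

theorem le_ofReal_exp {a b c : ℝ} (h : b + c ≤ a) :
    ENNReal.ofReal (Real.exp b) * ENNReal.ofReal (Real.exp c) ≤ ENNReal.ofReal (Real.exp a) := by
  rw [← ENNReal.ofReal_mul (Real.exp_pos _).le, ← Real.exp_add]
  exact ENNReal.ofReal_le_ofReal (Real.exp_le_exp.2 h)

omit [Fintype ι] [DecidableEq ι] in
theorem disjoint_pi_tiles {T : ι → Set Pt} (hd : Pairwise fun i j => Disjoint (T i) (T j))
    {τ τ' : Fin N → ι} (h : τ ≠ τ') :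
    Disjoint (Set.pi univ fun a => T (τ a)) (Set.pi univ fun a => T (τ' a)) := by
  obtain ⟨a, ha⟩ := Function.ne_iff.1 h
  rw [Set.disjoint_left]
  intro x hx hx'
  exact Set.disjoint_left.1 (hd ha) (hx a (mem_univ _)) (hx' a (mem_univ _))

/-- upper bound by a product; cover the event by the sets indexed by `τ` with `cnt τ = ν` -/
theorem ZA_le_prod (hφ' : Measurable φ') (T : ι → Set Pt) (hT : ∀ i, MeasurableSet (T i))
    (ν : ι → ℕ) (hN : ∑ i, ν i = N) {y : ℝ}
    (h : ∀ x ∈ E ∩ box Λ N, ∃ τ : Fin N → ι, (∀ a, x a ∈ T (τ a)) ∧ cnt τ = ν ∧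
      y + β * EnI φ' τ x ≤ β * En φ x) :
    ZA φ β Λ N E ≤ ENNReal.ofReal (Real.exp (-y)) * ∏ i, Zr φ' β (T i) (ν i) := by
  have hS : ∀ τ : Fin N → ι, MeasurableSet (Set.pi univ fun a => T (τ a)) := fun τ =>
    MeasurableSet.univ_pi fun a => hT _
  have hF : ∀ τ : Fin N → ι,
      Measurable fun x : Fin N → Pt => ENNReal.ofReal (Real.exp (-β * EnI φ' τ x)) := fun τ =>
    ((measurable_EnI hφ' τ).const_mul _).exp.ennreal_ofReal
  have hG : ∀ τ : Fin N → ι, Measurable fun x : Fin N → Pt => ENNReal.ofReal (Real.exp (-y)) *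
      (Set.pi univ fun a => T (τ a)).indicator
        (fun x => ENNReal.ofReal (Real.exp (-β * EnI φ' τ x))) x := fun τ =>
    ((hF τ).indicator (hS τ)).const_mul _
  refine (ZA_le_of (F := fun x => ∑ τ ∈ Finset.univ.filter fun τ : Fin N → ι => cnt τ = ν,
    ENNReal.ofReal (Real.exp (-y)) * (Set.pi univ fun a => T (τ a)).indicator
      (fun x => ENNReal.ofReal (Real.exp (-β * EnI φ' τ x))) x)
    (Finset.measurable_sum _ fun τ _ => hG τ) fun x hx => ?_).trans ?_
  · obtain ⟨τ, h1, h2, h3⟩ := h x hx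
    refine le_trans ?_ (Finset.single_le_sum (f := fun τ : Fin N → ι =>
      ENNReal.ofReal (Real.exp (-y)) * (Set.pi univ fun a => T (τ a)).indicator
      (fun x => ENNReal.ofReal (Real.exp (-β * EnI φ' τ x))) x) (fun _ _ => zero_le)
      (Finset.mem_filter.2 ⟨Finset.mem_univ τ, h2⟩))
    rw [indicator_of_mem (show x ∈ Set.pi univ fun a => T (τ a) from fun a _ => h1 a)]
    exact ofReal_exp_le (by linarith)
  · rw [← sum_cnt_eq hφ' T hT ν hN]
    gcongr
    refine (setLIntegral_le_lintegral _ _).trans (le_of_eq ?_)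
    rw [lintegral_finsetSum _ fun τ _ => hG τ]
    refine Finset.sum_congr rfl fun τ _ => ?_
    rw [lintegral_const_mul _ ((hF τ).indicator (hS τ)), lintegral_indicator (hS τ)]

/-- lower bound by a product; the sets `∏ T (τ a)` are pairwise disjoint -/
theorem prod_le_Zr (hφ : Measurable φ) (hφ' : Measurable φ') (T : ι → Set Pt)
    (hT : ∀ i, MeasurableSet (T i)) (hd : Pairwise fun i j => Disjoint (T i) (T j))
    (hΛ : ∀ i, T i ⊆ Λ) (ν : ι → ℕ) (hN : ∑ i, ν i = N) {y : ℝ}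
    (h : ∀ τ : Fin N → ι, cnt τ = ν → ∀ x : Fin N → Pt, (∀ a, x a ∈ T (τ a)) →
      β * En φ x ≤ y + β * EnI φ' τ x) :
    ENNReal.ofReal (Real.exp (-y)) * ∏ i, Zr φ' β (T i) (ν i) ≤ Zr φ β Λ N := by
  have hS : ∀ τ : Fin N → ι, MeasurableSet (Set.pi univ fun a => T (τ a)) := fun τ =>
    MeasurableSet.univ_pi fun a => hT _
  have hF : ∀ τ : Fin N → ι,
      Measurable fun x : Fin N → Pt => ENNReal.ofReal (Real.exp (-β * EnI φ' τ x)) := fun τ =>
    ((measurable_EnI hφ' τ).const_mul _).exp.ennreal_ofReal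
  rw [← sum_cnt_eq hφ' T hT ν hN, Zr, ZA, univ_inter]
  gcongr
  calc _ ≤ ∑ τ ∈ Finset.univ.filter fun τ : Fin N → ι => cnt τ = ν,
        ∫⁻ x in Set.pi univ fun a => T (τ a), bw φ β x := by
        refine Finset.sum_le_sum fun τ hτ => ?_
        rw [← lintegral_const_mul _ (hF τ)]
        refine setLIntegral_mono (measurable_bw hφ β N) fun x hx => ?_
        have := h τ (Finset.mem_filter.1 hτ).2 x fun a => hx a (mem_univ _)
        exact le_ofReal_exp (by linarith)
    _ = ∫⁻ x in ⋃ τ ∈ Finset.univ.filter fun τ : Fin N → ι => cnt τ = ν,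
        Set.pi univ fun a => T (τ a), bw φ β x :=
        (lintegral_biUnion_finset (fun τ _ τ' _ hne => disjoint_pi_tiles hd hne)
          (fun τ _ => hS τ) _).symm
    _ ≤ _ := by
        refine lintegral_mono_set (iUnion₂_subset fun τ _ x hx a _ => hΛ _ (hx a (mem_univ _)))

/-- moving the tiles: for fixed `τ` the map is a translation of `Fin N → Pt`, and the images
`∏ T' (τ a)` are pairwise disjoint subsets of `box Λ' N` -/
theorem ZA_le_move (hφ : Measurable φ) (T' : ι → Set Pt) (hT : ∀ i, MeasurableSet (T' i))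
    (hd : Pairwise fun i j => Disjoint (T' i) (T' j)) (hΛ : ∀ i, T' i ⊆ Λ') (v : ι → Pt) {y : ℝ}
    (h : ∀ x ∈ E ∩ box Λ N, ∃ τ : Fin N → ι, (∀ a, x a + v (τ a) ∈ T' (τ a)) ∧
      y + β * En φ (fun a => x a + v (τ a)) ≤ β * En φ x) :
    ZA φ β Λ N E ≤ ENNReal.ofReal (Real.exp (-y)) * Zr φ β Λ' N := by
  have hS : ∀ τ : Fin N → ι, MeasurableSet (Set.pi univ fun a => T' (τ a)) := fun τ =>
    MeasurableSet.univ_pi fun a => hT _
  have hF : ∀ τ : Fin N → ι, Measurable fun x : Fin N → Pt =>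
      (Set.pi univ fun a => T' (τ a)).indicator (fun x => bw φ β x) (x + fun a => v (τ a)) :=
    fun τ => ((measurable_bw hφ β N).indicator (hS τ)).comp (measurable_add_const _)
  refine (ZA_le_of (F := fun x => ENNReal.ofReal (Real.exp (-y)) * ∑ τ : Fin N → ι,
    (Set.pi univ fun a => T' (τ a)).indicator (fun x => bw φ β x) (x + fun a => v (τ a)))
    ((Finset.measurable_sum _ fun τ _ => hF τ).const_mul _) fun x hx => ?_).trans ?_
  · obtain ⟨τ, h1, h2⟩ := h x hx
    refine le_trans ?_ (mul_le_mul_right (Finset.single_le_sum (f := fun τ : Fin N → ι =>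
      (Set.pi univ fun a => T' (τ a)).indicator (fun x => bw φ β x) (x + fun a => v (τ a)))
      (fun _ _ => zero_le) (Finset.mem_univ τ)) _)
    rw [indicator_of_mem (show (x + fun a => v (τ a)) ∈ Set.pi univ fun a => T' (τ a) from
      fun a _ => h1 a)]
    have h3 : En φ (x + fun a => v (τ a)) = En φ fun a => x a + v (τ a) := rfl
    exact ofReal_exp_le (by rw [h3]; linarith)
  · rw [Zr, ZA, univ_inter, mul_left_comm]
    gcongr
    refine (setLIntegral_le_lintegral _ _).trans ?_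
    rw [lintegral_const_mul _ (Finset.measurable_sum _ fun τ _ => hF τ),
      lintegral_finsetSum _ fun τ _ => hF τ]
    gcongr
    calc _ = ∑ τ : Fin N → ι, ∫⁻ x in Set.pi univ fun a => T' (τ a), bw φ β x := by
          refine Finset.sum_congr rfl fun τ _ => ?_
          rw [lintegral_add_right_eq_self
            (fun x => (Set.pi univ fun a => T' (τ a)).indicator (fun x => bw φ β x) x),
            lintegral_indicator (hS τ)]
      _ = ∫⁻ x in ⋃ τ ∈ (Finset.univ : Finset (Fin N → ι)),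
          Set.pi univ fun a => T' (τ a), bw φ β x :=
          (lintegral_biUnion_finset (fun τ _ τ' _ hne => disjoint_pi_tiles hd hne)
            (fun τ _ => hS τ) _).symm
      _ ≤ _ := by
          refine lintegral_mono_set (iUnion₂_subset fun τ _ x hx a _ => hΛ _ (hx a (mem_univ _)))

/-- number of occupation patterns: `C(N+n-1, N) ≤ (1+ϑ)^N (1+1/ϑ)^n`, or
`∑_ν ∏ e^{-ϑ ν i} ≤ (1 - e^{-ϑ})^{-n}` -/
theorem card_patterns (N : ℕ) {ϑ : ℝ} (hϑ : 0 < ϑ) :
    ((Finset.piAntidiag (Finset.univ : Finset ι) N).card : ℝ) ≤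
      Real.exp (ϑ * N + Fintype.card ι / ϑ) := by
  set r : ℝ := (1 + ϑ)⁻¹ with hr
  have hr0 : 0 < r := by positivity
  have hr1 : r < 1 := inv_lt_one_of_one_lt₀ (by linarith)
  have h1 : ((Finset.piAntidiag (Finset.univ : Finset ι) N).card : ℝ) =
      (1 + ϑ) ^ N * ∑ ν ∈ Finset.piAntidiag (Finset.univ : Finset ι) N, ∏ i, r ^ ν i := by
    rw [Finset.mul_sum, Finset.card_eq_sum_ones]
    push_cast
    refine Finset.sum_congr rfl fun ν hν => ?_
    rw [Finset.prod_pow_eq_pow_sum, (Finset.mem_piAntidiag.1 hν).1, ← mul_pow, hr,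
      mul_inv_cancel₀ (by positivity), one_pow]
  have h2 : ∑ ν ∈ Finset.piAntidiag (Finset.univ : Finset ι) N, ∏ i, r ^ ν i ≤
      ∏ _i : ι, ∑ k ∈ Finset.range (N + 1), r ^ k := by
    rw [Finset.prod_univ_sum]
    refine Finset.sum_le_sum_of_subset_of_nonneg (fun ν hν => ?_) fun _ _ _ => by positivity
    rw [Fintype.mem_piFinset]
    intro i
    rw [Finset.mem_range, Nat.lt_succ_iff, ← (Finset.mem_piAntidiag.1 hν).1]
    exact Finset.single_le_sum (f := ν) (fun _ _ => Nat.zero_le _) (Finset.mem_univ i)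
  have h3 : ∑ k ∈ Finset.range (N + 1), r ^ k ≤ Real.exp (1 / ϑ) := by
    calc _ ≤ ∑' k, r ^ k := (summable_geometric_of_lt_one hr0.le hr1).sum_le_tsum _
          fun _ _ => by positivity
      _ = (1 - r)⁻¹ := tsum_geometric_of_lt_one hr0.le hr1
      _ = 1 / ϑ + 1 := by
          refine inv_eq_of_mul_eq_one_right ?_
          rw [hr]
          field_simp
          ring
      _ ≤ _ := Real.add_one_le_exp _
  rw [h1, Real.exp_add]
  refine mul_le_mul ?_ (h2.trans ?_) (by positivity) (by positivity)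
  · rw [mul_comm, Real.exp_nat_mul]
    gcongr
    linarith [Real.add_one_le_exp ϑ]
  · rw [Finset.prod_const, Finset.card_univ, div_eq_mul_one_div, Real.exp_nat_mul]
    gcongr

/-- the closed tile of side `l` in the slot `d` of the grid of mesh `l + 2` -/
def slot {m : ℕ} (l : ℝ) (d : Fin 3 → Fin m) : Set Pt := {y | y - pos (l + 2) d ∈ cube l}

theorem measurableSet_slot {m : ℕ} (l : ℝ) (d : Fin 3 → Fin m) : MeasurableSet (slot l d) :=
  (measurableSet_cube l).preimage (measurable_sub_const _)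

theorem mem_slot {m : ℕ} {l : ℝ} {d : Fin 3 → Fin m} {y : Pt} :
    y ∈ slot l d ↔ ∀ i, 0 ≤ y i - ((d i : ℕ) : ℝ) * (l + 2) ∧
      y i - ((d i : ℕ) : ℝ) * (l + 2) ≤ l := Iff.rfl

theorem slot_subset {m : ℕ} {l : ℝ} (hl : 0 ≤ l) (d : Fin 3 → Fin m) :
    slot l d ⊆ cube (m * (l + 2)) := by
  intro y hy i
  obtain ⟨h1, h2⟩ := mem_slot.1 hy i
  have h3 : ((d i : ℕ) : ℝ) + 1 ≤ m := by exact_mod_cast (d i).2
  have h4 : (0 : ℝ) ≤ ((d i : ℕ) : ℝ) := Nat.cast_nonneg _
  constructor <;> nlinarith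

theorem two_le_dist_slot {m : ℕ} {l : ℝ} (hl : 0 ≤ l) {d d' : Fin 3 → Fin m} (h : d ≠ d')
    {y y' : Pt} (hy : y ∈ slot l d) (hy' : y' ∈ slot l d') : 2 ≤ dist y y' := by
  obtain ⟨i, hi⟩ := Function.ne_iff.1 h
  refine le_trans ?_ (PiLp.dist_apply_le y y' i)
  obtain ⟨h1, h2⟩ := mem_slot.1 hy i
  obtain ⟨h3, h4⟩ := mem_slot.1 hy' i
  rw [Real.dist_eq, le_abs]
  rcases lt_or_gt_of_ne hi with hlt | hlt
  · have h5 : ((d i : ℕ) : ℝ) + 1 ≤ ((d' i : ℕ) : ℝ) := by exact_mod_cast hlt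
    right; nlinarith
  · have h5 : ((d' i : ℕ) : ℝ) + 1 ≤ ((d i : ℕ) : ℝ) := by exact_mod_cast hlt
    left; nlinarith

theorem slot_coord {m : ℕ} {l : ℝ} {d : Fin 3 → Fin m} {y : Pt} (hy : y ∈ slot l d) (i : Fin 3) :
    (ix d i : ℝ) * (l + 2) ≤ y i + 0 ∧ y i + 0 ≤ (ix d i : ℝ) * (l + 2) + (l + 2) := by
  obtain ⟨h1, h2⟩ := mem_slot.1 hy i
  simp only [ix, Int.cast_natCast]
  constructor <;> linarith

end Crest.Agent.R149
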