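import Crest.Agent.R149.Defs

/-! Row 149: the packing density. -/

set_option autoImplicit false

namespace Crest.Agent.R149

open MeasureTheory Filter Set Crest.ProbabilityR.Continuum
open scoped ENNReal Topology

/-- cells of side `1/2` contain at most one point -/
theorem packingSet_le {L : ℝ} (hL : 0 ≤ L) {n : ℕ} (hn : n ∈ packingSet L) :
    (n : ℝ) ≤ 8 * (L + 1) ^ 3 := by
  obtain ⟨X, rfl, hX, hs⟩ := hn
  let f : Pt → Fin 3 → ℕ := fun x k => ⌊2 * x k⌋₊
  have h1 : X.card ≤ (Fintype.piFinset fun _ : Fin 3 => Finset.range (⌊2 * L⌋₊ + 1)).card := by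
    refine Finset.card_le_card_of_injOn f (fun x hx => ?_) fun x hx y hy hxy => ?_
    · simp only [Fintype.coe_piFinset, Finset.coe_range, Set.mem_pi, mem_univ, mem_Iio,
        forall_const]
      intro k
      exact Nat.lt_succ_of_le (Nat.floor_le_floor (by linarith [(hX x hx k).2]))
    · by_contra hne
      have h := hs x hx y hy hne
      have hk : ∀ k, (x k - y k) ^ 2 ≤ 1 / 4 := by
        intro k
        have e : ⌊2 * x k⌋₊ = ⌊2 * y k⌋₊ := congrFun hxy k
        have a1 := Nat.floor_le (a := 2 * x k) (by linarith [(hX x hx k).1])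
        have a2 := Nat.lt_floor_add_one (2 * x k)
        have a3 := Nat.floor_le (a := 2 * y k) (by linarith [(hX y hy k).1])
        have a4 := Nat.lt_floor_add_one (2 * y k)
        rw [e] at a1 a2
        nlinarith
      rw [EuclideanSpace.dist_eq, Real.one_le_sqrt, Fin.sum_univ_three] at h
      simp only [Real.dist_eq, sq_abs] at h
      linarith [hk 0, hk 1, hk 2]
  rw [Fintype.card_piFinset_const, Finset.card_range] at h1
  have h2 : (⌊2 * L⌋₊ : ℝ) ≤ 2 * L := Nat.floor_le (by linarith)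
  calc (X.card : ℝ) ≤ ((⌊2 * L⌋₊ : ℝ) + 1) ^ 3 := by exact_mod_cast h1
    _ ≤ (2 * (L + 1)) ^ 3 := by gcongr; linarith
    _ = 8 * (L + 1) ^ 3 := by ring

theorem packingSet_mono {L L' : ℝ} (h : L ≤ L') : packingSet L ⊆ packingSet L' := by
  rintro n ⟨X, rfl, hX, hs⟩
  exact ⟨X, rfl, fun x hx k => ⟨(hX x hx k).1, (hX x hx k).2.trans h⟩, hs⟩

theorem zero_mem_packingSet (L : ℝ) : 0 ∈ packingSet L := ⟨∅, rfl, by simp, by simp⟩

theorem bddAbove_packingSet (L : ℝ) : BddAbove (packingSet L) := by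
  refine ⟨⌈8 * (max L 0 + 1) ^ 3⌉₊, fun n hn => ?_⟩
  have := packingSet_le (le_max_right L 0) (packingSet_mono (le_max_left L 0) hn)
  exact_mod_cast this.trans (Nat.le_ceil _)

theorem packingNumber_mem (L : ℝ) : packingNumber L ∈ packingSet L :=
  Nat.sSup_mem ⟨0, zero_mem_packingSet L⟩ (bddAbove_packingSet L)

theorem le_packingNumber {L : ℝ} {n : ℕ} (hn : n ∈ packingSet L) : n ≤ packingNumber L :=
  le_csSup (bddAbove_packingSet L) hn

theorem card_le_packing {σ L : ℝ} (hσ : 0 < σ) (Y : Finset Pt) (hY : ∀ y ∈ Y, y ∈ cube L)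
    (hs : ∀ y ∈ Y, ∀ z ∈ Y, y ≠ z → σ ≤ dist y z) : Y.card ≤ packingNumber (L / σ) := by
  classical
  have hi : (0 : ℝ) < σ⁻¹ := inv_pos.2 hσ
  refine le_packingNumber ⟨Y.image fun y => σ⁻¹ • y, ?_, ?_, ?_⟩
  · exact Finset.card_image_of_injective _ (smul_right_injective _ hi.ne')
  · intro x hx
    obtain ⟨y, hy, rfl⟩ := Finset.mem_image.1 hx
    intro k
    have := hY y hy k
    simp only [PiLp.smul_apply, smul_eq_mul]
    refine ⟨mul_nonneg hi.le this.1, ?_⟩
    rw [div_eq_inv_mul]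
    exact mul_le_mul_of_nonneg_left this.2 hi.le
  · intro x hx x' hx' hne
    obtain ⟨y, hy, rfl⟩ := Finset.mem_image.1 hx
    obtain ⟨z, hz, rfl⟩ := Finset.mem_image.1 hx'
    have := hs y hy z hz fun h => hne (by rw [h])
    rw [dist_smul₀, Real.norm_of_nonneg hi.le, inv_mul_eq_div, le_div_iff₀ hσ, one_mul]
    exact this

theorem exists_sep {σ : ℝ} (hσ : 0 < σ) (L : ℝ) : ∃ Y : Finset Pt,
    Y.card = packingNumber (L / σ) ∧ (∀ y ∈ Y, y ∈ cube L) ∧
      ∀ y ∈ Y, ∀ z ∈ Y, y ≠ z → σ ≤ dist y z := by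
  classical
  obtain ⟨X, hc, hX, hs⟩ := packingNumber_mem (L / σ)
  refine ⟨X.image fun y => σ • y, ?_, ?_, ?_⟩
  · rw [Finset.card_image_of_injective _ (smul_right_injective _ hσ.ne'), hc]
  · intro x hx
    obtain ⟨y, hy, rfl⟩ := Finset.mem_image.1 hx
    intro k
    have := hX y hy k
    simp only [PiLp.smul_apply, smul_eq_mul]
    refine ⟨mul_nonneg hσ.le this.1, ?_⟩
    have h2 := this.2
    rw [le_div_iff₀ hσ] at h2
    linarith
  · intro x hx x' hx' hne
    obtain ⟨y, hy, rfl⟩ := Finset.mem_image.1 hx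
    obtain ⟨z, hz, rfl⟩ := Finset.mem_image.1 hx'
    have := hs y hy z hz fun h => hne (by rw [h])
    rw [dist_smul₀, Real.norm_of_nonneg hσ.le]
    exact le_mul_of_one_le_right hσ.le this

theorem packing_tile {L₀ L : ℝ} {m : ℕ} (h : m * (L₀ + 1) ≤ L) (h0 : 0 ≤ L₀) :
    m ^ 3 * packingNumber L₀ ≤ packingNumber L := by
  classical
  obtain ⟨X, hc, hX, hs⟩ := packingNumber_mem L₀
  let f : (Fin 3 → Fin m) × Pt → Pt := fun q => q.2 + pos (L₀ + 1) q.1
  have hf : ∀ q k, f q k = q.2 k + ((q.1 k : ℕ) : ℝ) * (L₀ + 1) := fun q k => rfl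
  have key : ∀ q ∈ (Finset.univ : Finset (Fin 3 → Fin m)) ×ˢ X,
      ∀ q' ∈ (Finset.univ : Finset (Fin 3 → Fin m)) ×ˢ X, q ≠ q' → 1 ≤ dist (f q) (f q') := by
    rintro ⟨d, x⟩ hq ⟨d', y⟩ hq' hne
    have hx : x ∈ X := (Finset.mem_product.1 hq).2
    have hy : y ∈ X := (Finset.mem_product.1 hq').2
    by_cases hd : d = d'
    · subst hd
      have := hs x hx y hy fun h => hne (by rw [h])
      simpa only [f, dist_add_right] using this
    · obtain ⟨k, hk⟩ := Function.ne_iff.1 hd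
      refine le_trans ?_ (PiLp.dist_apply_le (f (d, x)) (f (d', y)) k)
      rw [hf, hf, Real.dist_eq]
      have a1 := hX x hx k
      have a2 := hX y hy k
      have hk' : (d k : ℕ) ≠ d' k := fun e => hk (Fin.ext e)
      rcases lt_or_gt_of_ne hk' with hlt | hlt
      · have : ((d k : ℕ) : ℝ) + 1 ≤ ((d' k : ℕ) : ℝ) := by exact_mod_cast hlt
        refine le_abs.2 (Or.inr ?_)
        simp only
        nlinarith
      · have : ((d' k : ℕ) : ℝ) + 1 ≤ ((d k : ℕ) : ℝ) := by exact_mod_cast hlt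
        refine le_abs.2 (Or.inl ?_)
        simp only
        nlinarith
  refine le_packingNumber ⟨((Finset.univ : Finset (Fin 3 → Fin m)) ×ˢ X).image f, ?_, ?_, ?_⟩
  · rw [Finset.card_image_of_injOn, Finset.card_product, hc]
    · simp
    · intro q hq q' hq' e
      by_contra hne
      have := key q hq q' hq' hne
      rw [e, dist_self] at this
      linarith
  · intro x hx
    obtain ⟨⟨d, y⟩, hq, rfl⟩ := Finset.mem_image.1 hx
    have hy : y ∈ X := (Finset.mem_product.1 hq).2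
    intro k
    have a1 := hX y hy k
    have a2 : ((d k : ℕ) : ℝ) + 1 ≤ m := by exact_mod_cast (d k).2
    have a3 : (0 : ℝ) ≤ ((d k : ℕ) : ℝ) := Nat.cast_nonneg _
    rw [hf]
    simp only
    constructor <;> nlinarith
  · intro x hx x' hx' hne
    obtain ⟨q, hq, rfl⟩ := Finset.mem_image.1 hx
    obtain ⟨q', hq', rfl⟩ := Finset.mem_image.1 hx'
    exact key q hq q' hq' fun e => hne (by rw [e])

/-- `p = sup_{L ≥ 0} P(L) / (L+1)³`; tiling gives `m³ P(L₀) ≤ P(L)` if `m (L₀ + 1) ≤ L`. -/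
theorem exists_pack : ∃ p : ℝ, 1 ≤ p ∧ p ≤ 8 ∧
    Tendsto (fun L : ℝ => (packingNumber L : ℝ) / L ^ 3) atTop (𝓝 p) := by
  let T : Set ℝ := (fun L : ℝ => (packingNumber L : ℝ) / (L + 1) ^ 3) '' Ici 0
  have hb : ∀ v ∈ T, v ≤ 8 := by
    rintro _ ⟨L, hL, rfl⟩
    have hL : 0 ≤ L := hL
    simp only
    rw [div_le_iff₀ (by positivity)]
    exact packingSet_le hL (packingNumber_mem L)
  have hB : BddAbove T := ⟨8, hb⟩
  have hne : T.Nonempty := ⟨_, 0, le_refl (0 : ℝ), rfl⟩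
  have hinv : Tendsto (fun L : ℝ => L⁻¹) atTop (𝓝 0) := tendsto_inv_atTop_zero
  refine ⟨sSup T, ?_, csSup_le hne hb, ?_⟩
  · refine le_trans ?_ (le_csSup hB ⟨0, le_refl (0 : ℝ), rfl⟩)
    have : 1 ≤ packingNumber 0 :=
      le_packingNumber ⟨{0}, rfl, by simp [cube], by simp⟩
    simpa using this
  · rw [tendsto_order]
    constructor
    · intro a ha
      obtain ⟨_, ⟨L₀, hL₀, rfl⟩, h⟩ := exists_lt_of_lt_csSup hne ha
      have hL₀ : 0 ≤ L₀ := hL₀
      have ht : Tendsto (fun L : ℝ => ((L₀ + 1)⁻¹ - L⁻¹) ^ 3 * (packingNumber L₀ : ℝ)) atTop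
          (𝓝 (((L₀ + 1)⁻¹ - 0) ^ 3 * (packingNumber L₀ : ℝ))) :=
        ((tendsto_const_nhds.sub hinv).pow 3).mul_const _
      have e : ((L₀ + 1)⁻¹ - 0) ^ 3 * (packingNumber L₀ : ℝ) =
          (packingNumber L₀ : ℝ) / (L₀ + 1) ^ 3 := by
        rw [sub_zero, inv_pow, div_eq_inv_mul]
      rw [e] at ht
      filter_upwards [ht.eventually (lt_mem_nhds h), eventually_ge_atTop (L₀ + 1)] with L h1 h2
      refine h1.trans_le ?_
      have hL : 0 < L := by linarith
      have hp : 0 < L₀ + 1 := by linarith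
      have a1 : (⌊L / (L₀ + 1)⌋₊ : ℝ) * (L₀ + 1) ≤ L :=
        (le_div_iff₀ hp).1 (Nat.floor_le (by positivity))
      have a2 : ((⌊L / (L₀ + 1)⌋₊ : ℝ)) ^ 3 * packingNumber L₀ ≤ packingNumber L := by
        exact_mod_cast packing_tile a1 hL₀
      have a3 : L / (L₀ + 1) - 1 ≤ ⌊L / (L₀ + 1)⌋₊ := by
        linarith [Nat.lt_floor_add_one (L / (L₀ + 1))]
      have a4 : 0 ≤ L / (L₀ + 1) - 1 := by
        rw [sub_nonneg, le_div_iff₀ hp]; linarith
      rw [le_div_iff₀ (by positivity)]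
      have e2 : ((L₀ + 1)⁻¹ - L⁻¹) ^ 3 * (packingNumber L₀ : ℝ) * L ^ 3 =
          (L / (L₀ + 1) - 1) ^ 3 * packingNumber L₀ := by
        field_simp
      rw [e2]
      refine le_trans ?_ a2
      gcongr
    · intro a ha
      have ht : Tendsto (fun L : ℝ => sSup T * (1 + L⁻¹) ^ 3) atTop (𝓝 (sSup T * (1 + 0) ^ 3)) :=
        ((tendsto_const_nhds.add hinv).pow 3).const_mul _
      rw [add_zero, one_pow, mul_one] at ht
      filter_upwards [ht.eventually (gt_mem_nhds ha), eventually_gt_atTop 0] with L h1 hL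
      refine lt_of_le_of_lt ?_ h1
      have a1 : (packingNumber L : ℝ) / (L + 1) ^ 3 ≤ sSup T := le_csSup hB ⟨L, hL.le, rfl⟩
      rw [div_le_iff₀ (by positivity)] at a1 ⊢
      have e2 : sSup T * (1 + L⁻¹) ^ 3 * L ^ 3 = sSup T * (L + 1) ^ 3 := by
        field_simp
      rw [e2]
      exact a1

end Crest.Agent.R149
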