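import Crest.Agent.R149.Pack

/-! Row 149: choice of the scales and of the packing. -/

set_option autoImplicit false

namespace Crest.Agent.R149

open MeasureTheory Filter Set Crest.ProbabilityR.Continuum
open scoped ENNReal Topology

/-- With `q j = t (3/2)^j ≥ t (1 + j/2)`, `t` large, `D = max 1 D₀`: `b j = exp (-q j)`,
`Q j = D exp (32/3 q j)`, `l j = D exp (40/3 q j)`, `R j = D exp (16 q j)` (so `R j = Q (j+1)`).
Then `∑' i, b (i+j) ≤ 2 b j`, `(b j)² / b (j+1) = exp (-q j / 2)`,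
`Q j / l j = l j / R j = exp (-8/3 q j)`, `b i R i ^ (1/32) = D ^ (1/32) exp (-q i / 2)`. -/
theorem exists_scales {θ : ℝ} (hθ : 0 < θ) : ∃ b : ℕ → ℝ, (∀ i, 0 < b i) ∧ Summable b ∧
    ∑' i, b i ≤ θ ∧ ∀ D₀ : ℝ, ∃ R Q l : ℕ → ℝ, D₀ ≤ l 0 ∧ Monotone R ∧ (∀ j, 1 ≤ Q j) ∧
      (∀ j i, i < j → R i ≤ Q j) ∧ (∀ j, 2 * Q j ≤ l j) ∧ (∀ j, 3 * l j ≤ R j) ∧
      Tendsto (fun j => Q j / l j + l j / R j) atTop (𝓝 0) ∧ Q 0 / l 0 + l 0 / R 0 ≤ θ ∧
      (∀ n, ∑ j ∈ Finset.range n,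
        ((∑' i, b (i + j)) ^ 2 + (Q j / l j + l j / R j)) / b (j + 1) ≤ θ) ∧
      Summable fun i => b i * R i ^ (1 / 32 : ℝ) := by
  obtain ⟨t, ht4, htθ⟩ : ∃ t : ℝ, 4 ≤ t ∧ Real.exp (-(t / 2)) ≤ θ / 12 := by
    refine ⟨4 + 24 / θ, by have := div_pos (by norm_num : (0 : ℝ) < 24) hθ; linarith, ?_⟩
    rw [Real.exp_neg, inv_le_comm₀ (Real.exp_pos _) (by positivity), inv_div]
    have h1 := Real.add_one_le_exp ((4 + 24 / θ) / 2)
    have h2 : (4 + 24 / θ) / 2 = 2 + 12 / θ := by ring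
    linarith
  obtain ⟨q, hq0, hqs⟩ : ∃ q : ℕ → ℝ, q 0 = t ∧ ∀ j, q (j + 1) = 3 / 2 * q j :=
    ⟨fun j => t * (3 / 2) ^ j, by simp, fun j => by ring⟩
  have hq4 : ∀ j, 4 ≤ q j := by
    intro j
    induction j with
    | zero => rwa [hq0]
    | succ j ih => rw [hqs]; linarith
  have hqm : Monotone q := monotone_nat_of_le_succ fun j => by
    rw [hqs]; linarith [hq4 j]
  have hgeo : ∀ a : ℝ, 1 / 2 ≤ a → ∀ j i,
      Real.exp (-(a * q (i + j))) ≤ Real.exp (-(a * q j)) * (1 / 2) ^ i := by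
    intro a ha j i
    induction i with
    | zero => simp
    | succ i ih =>
      have h1 : Real.exp (-(a * q (i + 1 + j))) =
          Real.exp (-(a * q (i + j))) * Real.exp (-(a * q (i + j) / 2)) := by
        rw [← Real.exp_add, show i + 1 + j = (i + j) + 1 by ring, hqs]
        congr 1
        ring
      have h2 : Real.exp (-(a * q (i + j) / 2)) ≤ 1 / 2 := by
        rw [Real.exp_neg, inv_le_comm₀ (Real.exp_pos _) (by norm_num)]
        have h3 := Real.add_one_le_exp (a * q (i + j) / 2)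
        have h4 : 1 / 2 * 4 ≤ a * q (i + j) := by
          have := hq4 (i + j)
          gcongr
        norm_num at *
        linarith
      rw [h1, pow_succ, ← mul_assoc]
      gcongr
  have hsum : ∀ a : ℝ, 1 / 2 ≤ a → ∀ j, Summable fun i => Real.exp (-(a * q (i + j))) :=
    fun a ha j => Summable.of_nonneg_of_le (fun _ => (Real.exp_pos _).le) (hgeo a ha j)
      (summable_geometric_two.mul_left _)
  have htsum : ∀ a : ℝ, 1 / 2 ≤ a → ∀ j,
      ∑' i, Real.exp (-(a * q (i + j))) ≤ 2 * Real.exp (-(a * q j)) := by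
    intro a ha j
    refine ((hsum a ha j).tsum_le_tsum (hgeo a ha j) (summable_geometric_two.mul_left _)).trans ?_
    rw [tsum_mul_left, tsum_geometric_two, mul_comm]
  have hmono : ∀ a : ℝ, 1 / 2 ≤ a → ∀ j, Real.exp (-(a * q j)) ≤ Real.exp (-(1 / 2 * q j)) := by
    intro a ha j
    have := hq4 j
    gcongr
  have hc0 : Real.exp (-(1 / 2 * q 0)) ≤ θ / 12 := by
    rw [hq0, show 1 / 2 * t = t / 2 by ring]; exact htθ
  refine ⟨fun j => Real.exp (-(1 * q j)), fun _ => Real.exp_pos _,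
    by simpa using hsum 1 (by norm_num) 0, ?_, fun D₀ => ?_⟩
  · have h1 := htsum 1 (by norm_num) 0
    have h2 := hmono 1 (by norm_num) 0
    simp only [add_zero] at h1
    linarith
  obtain ⟨D, hD1, hD0⟩ : ∃ D : ℝ, 1 ≤ D ∧ D₀ ≤ D := ⟨max 1 D₀, le_max_left _ _, le_max_right _ _⟩
  have hDp : 0 < D := by linarith
  have hr : ∀ j, D * Real.exp (32 / 3 * q j) / (D * Real.exp (40 / 3 * q j)) +
      D * Real.exp (40 / 3 * q j) / (D * Real.exp (16 * q j)) =
      2 * Real.exp (-(8 / 3 * q j)) := by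
    intro j
    rw [mul_div_mul_left _ _ hDp.ne', mul_div_mul_left _ _ hDp.ne', ← Real.exp_sub,
      ← Real.exp_sub, two_mul]
    congr 2 <;> ring
  have h3 : ∀ j, 3 ≤ Real.exp (8 / 3 * q j) := fun j => by
    have := Real.add_one_le_exp (8 / 3 * q j)
    have := hq4 j
    linarith
  refine ⟨fun j => D * Real.exp (16 * q j), fun j => D * Real.exp (32 / 3 * q j),
    fun j => D * Real.exp (40 / 3 * q j), ?_, ?_, ?_, ?_, ?_, ?_, ?_, ?_, ?_, ?_⟩
  · refine hD0.trans (le_mul_of_one_le_right hDp.le (Real.one_le_exp ?_))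
    have := hq4 0
    positivity
  · intro i j hij
    have := hqm hij
    simp only
    gcongr
  · intro j
    refine one_le_mul_of_one_le_of_one_le hD1 (Real.one_le_exp ?_)
    have := hq4 j
    positivity
  · intro j i hij
    have h1 := hqm (Nat.succ_le_of_lt hij)
    rw [Nat.succ_eq_add_one, hqs] at h1
    exact mul_le_mul_of_nonneg_left (Real.exp_le_exp.2 (by linarith)) hDp.le
  · intro j
    have h1 : Real.exp (40 / 3 * q j) = Real.exp (8 / 3 * q j) * Real.exp (32 / 3 * q j) := by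
      rw [← Real.exp_add]; congr 1; ring
    have h2 := h3 j
    simp only
    rw [h1, mul_left_comm]
    gcongr
    linarith
  · intro j
    have h1 : Real.exp (16 * q j) = Real.exp (8 / 3 * q j) * Real.exp (40 / 3 * q j) := by
      rw [← Real.exp_add]; congr 1; ring
    have h2 := h3 j
    simp only
    rw [h1, mul_left_comm]
    gcongr
  · simp only [hr]
    have := ((hsum (8 / 3) (by norm_num) 0).tendsto_atTop_zero).const_mul 2
    simpa using this
  · rw [hr]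
    have := hmono (8 / 3) (by norm_num) 0
    linarith
  · intro n
    simp only [hr]
    have h1 : ∀ j, ((∑' i, Real.exp (-(1 * q (i + j)))) ^ 2 + 2 * Real.exp (-(8 / 3 * q j))) /
        Real.exp (-(1 * q (j + 1))) ≤ 6 * Real.exp (-(1 / 2 * q j)) := by
      intro j
      rw [div_le_iff₀ (Real.exp_pos _), mul_assoc, ← Real.exp_add, hqs]
      have k1 : (∑' i, Real.exp (-(1 * q (i + j)))) ^ 2 ≤ (2 * Real.exp (-(1 * q j))) ^ 2 := by
        have := htsum 1 (by norm_num) j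
        have h0 : 0 ≤ ∑' i, Real.exp (-(1 * q (i + j))) := tsum_nonneg fun _ => (Real.exp_pos _).le
        gcongr
      have k2 : (2 * Real.exp (-(1 * q j))) ^ 2 =
          4 * Real.exp (-(1 / 2 * q j) + -(1 * (3 / 2 * q j))) := by
        rw [mul_pow, ← Real.exp_nat_mul]
        congr 1
        · norm_num
        · congr 1; push_cast; ring
      have k3 : Real.exp (-(8 / 3 * q j)) ≤ Real.exp (-(1 / 2 * q j) + -(1 * (3 / 2 * q j))) := by
        have := hq4 j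
        exact Real.exp_le_exp.2 (by linarith)
      linarith
    refine (Finset.sum_le_sum fun j _ => h1 j).trans ?_
    rw [← Finset.mul_sum]
    have h2 := (hsum (1 / 2) le_rfl 0).sum_le_tsum (Finset.range n) fun _ _ => (Real.exp_pos _).le
    have h4 := htsum (1 / 2) le_rfl 0
    simp only [add_zero] at h2 h4
    linarith
  · have h1 : ∀ i, Real.exp (-(1 * q i)) * (D * Real.exp (16 * q i)) ^ (1 / 32 : ℝ) =
        D ^ (1 / 32 : ℝ) * Real.exp (-(1 / 2 * q (i + 0))) := by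
      intro i
      rw [Real.mul_rpow hDp.le (Real.exp_pos _).le, ← Real.exp_mul, mul_left_comm,
        ← Real.exp_add, add_zero]
      congr 2
      ring
    simp only [h1]
    exact (hsum (1 / 2) le_rfl 0).mul_left _

theorem tendsto_packing_scaled {p : ℝ}
    (hlim : Tendsto (fun L : ℝ => (packingNumber L : ℝ) / L ^ 3) atTop (𝓝 p)) {s : ℝ} (hs : 0 < s)
    (a c : ℝ) :
    Tendsto (fun l : ℝ => (packingNumber ((l - a) / s) : ℝ) / (l + c) ^ 3) atTop
      (𝓝 (p / s ^ 3)) := by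
  have h1 : Tendsto (fun l : ℝ => (l - a) / s) atTop atTop :=
    (tendsto_atTop_add_const_right _ (-a) tendsto_id).atTop_div_const hs
  have h2 : Tendsto (fun l : ℝ => 1 - (a + c) / (l + c)) atTop (𝓝 (1 - 0)) :=
    tendsto_const_nhds.sub
      (tendsto_const_nhds.div_atTop (tendsto_atTop_add_const_right _ c tendsto_id))
  have h3 := (hlim.comp h1).mul ((h2.div_const s).pow 3)
  have h4 : p * ((1 - 0) / s) ^ 3 = p / s ^ 3 := by
    rw [sub_zero, div_pow, one_pow, mul_one_div]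
  rw [h4] at h3
  refine h3.congr' ?_
  filter_upwards [eventually_gt_atTop a, eventually_gt_atTop (-c)] with l hl hl'
  have h5 : l - a ≠ 0 := by linarith
  have h6 : l + c ≠ 0 := by linarith
  have h7 : 1 - (a + c) / (l + c) = (l - a) / (l + c) := by
    field_simp
    ring
  simp only [Function.comp]
  rw [h7]
  field_simp

/-- `σ³ = 3/2`; `τ` so small that `(σ + 3τ)³ < σ³ (1 + e)`; `X` is an optimal
`(σ + 3τ)`-separated set in `cube (l - 2τ)` (`exists_sep`) translated by `(τ, τ, τ)`, and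
`p' = |X| / (l+2)³ → p / (σ + 3τ)³` as `l → ∞`.  The last claim: `card_le_packing` and
`packingNumber (L / σ) / L³ → 2 p / 3`. -/
theorem exists_sites {p e : ℝ} (hp : 1 ≤ p)
    (hlim : Tendsto (fun L : ℝ => (packingNumber L : ℝ) / L ^ 3) atTop (𝓝 p)) (he : 0 < e) :
    ∃ σ τ D₀ : ℝ, 1 ≤ σ ∧ 0 < τ ∧ τ ≤ 1 / 10 ∧ σ + τ ≤ 2 ∧ ∀ l : ℝ, D₀ ≤ l →
      ∃ (p' : ℝ) (X : Finset Pt), 2 * p / 3 < (1 + e) * p' ∧ p' ≤ (1 + e) * (2 * p / 3) ∧
        (X.card : ℝ) = p' * (l + 2) ^ 3 ∧ (∀ y ∈ X, Metric.ball y τ ⊆ cube l) ∧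
        (∀ y ∈ X, ∀ z ∈ X, y ≠ z → σ + 3 * τ ≤ dist y z) ∧
        ∀ᶠ L : ℝ in atTop, ∀ Y : Finset Pt, (∀ y ∈ Y, y ∈ cube L) →
          (∀ y ∈ Y, ∀ z ∈ Y, y ≠ z → σ ≤ dist y z) → (Y.card : ℝ) ≤ (1 + e) * p' * L ^ 3 := by
  classical
  obtain ⟨σ, hσ0, hσ3⟩ : ∃ σ : ℝ, 0 < σ ∧ σ ^ 3 = 3 / 2 :=
    ⟨(3 / 2 : ℝ) ^ ((3 : ℕ) : ℝ)⁻¹, by positivity,
      Real.rpow_inv_natCast_pow (by norm_num) (by norm_num)⟩
  have hσ1 : 1 ≤ σ := by
    by_contra h
    have := pow_le_one₀ (n := 3) hσ0.le (not_le.1 h).le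
    linarith
  have hσ2 : σ ≤ 6 / 5 := by
    by_contra h
    have := pow_le_pow_left₀ (by norm_num) (not_le.1 h).le 3
    linarith
  obtain ⟨τ, hτ0, hτ1, hτe⟩ : ∃ τ : ℝ, 0 < τ ∧ τ ≤ 1 / 10 ∧ τ ≤ e / 20 :=
    ⟨min (1 / 10) (e / 20), by positivity, min_le_left _ _, min_le_right _ _⟩
  have hs0 : 0 < σ + 3 * τ := by positivity
  have hs1 : (σ + 3 * τ) ^ 3 < 3 / 2 * (1 + e) := by
    have h1 : (σ + 3 * τ) ^ 3 = σ ^ 3 + τ * (9 * σ ^ 2 + 27 * σ * τ + 27 * τ ^ 2) := by ring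
    have h2 : 9 * σ ^ 2 + 27 * σ * τ + 27 * τ ^ 2 ≤
        9 * (6 / 5) ^ 2 + 27 * (6 / 5) * (1 / 10) + 27 * (1 / 10) ^ 2 := by gcongr
    have h3 := mul_le_mul_of_nonneg_left h2 hτ0.le
    rw [h1, hσ3]
    linarith
  have hs2 : 3 / 2 ≤ (σ + 3 * τ) ^ 3 := by
    rw [← hσ3]
    gcongr
    linarith
  have hs3 : 0 < (σ + 3 * τ) ^ 3 := by positivity
  have ht := tendsto_packing_scaled hlim hs0 (2 * τ) 2
  have hA : 2 * p / 3 < (1 + e) * (p / (σ + 3 * τ) ^ 3) := by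
    rw [← mul_div_assoc, lt_div_iff₀ hs3]
    nlinarith
  have hB : p / (σ + 3 * τ) ^ 3 < (1 + e) * (2 * p / 3) := by
    rw [div_lt_iff₀ hs3]
    have h1 : (1 + e) * (2 * p / 3) * (3 / 2) ≤ (1 + e) * (2 * p / 3) * (σ + 3 * τ) ^ 3 := by
      gcongr
    nlinarith
  obtain ⟨D₀, hD₀⟩ := eventually_atTop.1 (((ht.const_mul (1 + e)).eventually_const_lt hA).and
    ((ht.eventually_lt_const hB).and (eventually_ge_atTop 0)))
  refine ⟨σ, τ, D₀, hσ1, hτ0, hτ1, by linarith, fun l hl => ?_⟩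
  obtain ⟨h1, h2, h3⟩ := hD₀ l hl
  obtain ⟨Y, hYc, hY, hYs⟩ := exists_sep hs0 (l - 2 * τ)
  set v : Pt := WithLp.toLp 2 fun _ => τ with hv
  refine ⟨_, Y.image fun y => y + v, h1, h2.le, ?_, ?_, ?_, ?_⟩
  · rw [Finset.card_image_of_injective _ (add_left_injective v), hYc, div_mul_cancel₀]
    positivity
  · intro y hy z hz k
    obtain ⟨y, hy', rfl⟩ := Finset.mem_image.1 hy
    have k1 := (PiLp.dist_apply_le z (y + v) k).trans_lt (Metric.mem_ball.1 hz)
    have k2 : (y + v) k = y k + τ := rfl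
    rw [Real.dist_eq, k2, abs_lt] at k1
    obtain ⟨k3, k4⟩ := hY y hy' k
    constructor <;> linarith
  · intro y hy z hz hne
    obtain ⟨y, hy', rfl⟩ := Finset.mem_image.1 hy
    obtain ⟨z, hz', rfl⟩ := Finset.mem_image.1 hz
    rw [dist_add_right]
    exact hYs y hy' z hz' fun h => hne (by rw [h])
  · have ht' := tendsto_packing_scaled hlim hσ0 0 0
    rw [hσ3, show p / (3 / 2) = 2 * p / 3 by ring] at ht'
    filter_upwards [ht'.eventually_lt_const h1, eventually_gt_atTop 0] with L hL hL0 Z hZ hZs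
    rw [sub_zero, add_zero, div_lt_iff₀ (by positivity)] at hL
    exact (Nat.cast_le.2 (card_le_packing hσ0 Z hZ hZs)).trans hL.le

end Crest.Agent.R149
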