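import Crest.Agent.R149.Kern2
import Crest.Agent.R149.Mult

/-! Row 149: tiles, shifts, crude cell bounds. -/

set_option autoImplicit false

namespace Crest.Agent.R149

open MeasureTheory Filter Set Crest.ProbabilityR.Continuum
open scoped ENNReal Topology

section
variable {l s L : ℝ}

theorem lab_val (hl : 0 < l) (hs : s ≤ l) {y : Pt} (hy : y ∈ cube L) (i : Fin 3) :
    ((lab l s ⌊L / l⌋₊ y i : Fin _) : ℕ) = ⌊(y i + s) / l⌋₊ := by
  have hL : 0 ≤ L := (hy i).1.trans (hy i).2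
  have h1 : (y i + s) / l ≤ L / l + 1 := by
    rw [div_add_one hl.ne']
    exact div_le_div_of_nonneg_right (add_le_add (hy i).2 hs) hl.le
  have h2 := Nat.floor_le_floor h1
  rw [Nat.floor_add_one (div_nonneg hL hl.le)] at h2
  rw [lab, Fin.val_ofNat, Nat.mod_eq_of_lt (by omega)]

theorem lab_spec (hl : 0 < l) (hs0 : 0 ≤ s) (hs : s ≤ l) {y : Pt} (hy : y ∈ cube L) (i : Fin 3) :
    (ix (lab l s ⌊L / l⌋₊ y) i : ℝ) * l ≤ y i + s ∧
      y i + s < (ix (lab l s ⌊L / l⌋₊ y) i : ℝ) * l + l := by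
  simp only [ix, Int.cast_natCast, lab_val hl hs hy i]
  have h0 : 0 ≤ (y i + s) / l := div_nonneg (add_nonneg (hy i).1 hs0) hl.le
  have h1 := Nat.floor_le h0
  have h2 := Nat.lt_floor_add_one ((y i + s) / l)
  rw [le_div_iff₀ hl] at h1
  rw [div_lt_iff₀ hl] at h2
  exact ⟨h1, by linarith⟩

theorem labs_inG (hl : 0 < l) (hs0 : 0 ≤ s) (hs : s ≤ l) {N : ℕ} {x : Fin N → Pt}
    (hx : x ∈ box (cube L) N) : InG l s (ix ∘ labs l s L x) x := by
  intro a i
  have h := lab_spec hl hs0 hs (hx a (mem_univ a)) i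
  exact ⟨h.1, h.2.le⟩

theorem add_mv_mem_slot (hl : 0 < l) (hs0 : 0 ≤ s) (hs : s ≤ l) {y : Pt} (hy : y ∈ cube L)
    (π : Equiv.Perm (Fin 3 → Fin (⌊L / l⌋₊ + 2))) :
    y + mv l s π (lab l s ⌊L / l⌋₊ y) ∈ slot l (π (lab l s ⌊L / l⌋₊ y)) := by
  refine mem_slot.2 fun i => ?_
  have h := lab_spec hl hs0 hs hy i
  simp only [ix, Int.cast_natCast] at h
  simp only [mv, pos, PiLp.add_apply, PiLp.sub_apply]
  constructor <;> linarith [h.1, h.2]

theorem sp_mono {m : ℕ} (ν : (Fin 3 → Fin m) → ℕ) :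
    Monotone ((ν ∘ (sp ν).symm) ∘ finFunctionFinEquiv.symm) := by
  have e : ((ν ∘ (sp ν).symm) ∘ finFunctionFinEquiv.symm) =
      (ν ∘ finFunctionFinEquiv.symm) ∘ Tuple.sort (ν ∘ finFunctionFinEquiv.symm) := by
    funext k
    simp [sp]
  rw [e]
  exact Tuple.monotone_sort _

theorem cnt_perm {A ι : Type*} [Fintype A] [DecidableEq ι] (π : Equiv.Perm ι) (τ : A → ι)
    (i : ι) : cnt (π ∘ τ) i = cnt τ (π.symm i) := by
  simp only [cnt, Function.comp_apply, Equiv.apply_eq_iff_eq_symm_apply]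

theorem exists_cut {u v h : ℝ} (hh : 0 < h) (hu : 0 ≤ u) (huv : u ≤ v) {S n : ℕ} (hS : 0 < S)
    (hne : ⌊(u + n * h) / (S * h)⌋₊ ≠ ⌊(v + n * h) / (S * h)⌋₊) :
    ∃ k : ℕ, u < ((k : ℝ) * S - n) * h ∧ ((k : ℝ) * S - n) * h ≤ v := by
  have hS' : (0 : ℝ) < S * h := mul_pos (by exact_mod_cast hS) hh
  have h0 : 0 ≤ (u + n * h) / (S * h) := by positivity
  have h1 : (u + n * h) / (S * h) ≤ (v + n * h) / (S * h) := by gcongr
  have h2 := lt_of_le_of_ne (Nat.floor_le_floor h1) hne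
  rw [Nat.floor_lt h0, div_lt_iff₀ hS'] at h2
  have h3 := Nat.floor_le (h0.trans h1)
  rw [le_div_iff₀ hS'] at h3
  exact ⟨_, by linarith, by linarith⟩

theorem cut_unique {u v h : ℝ} (hh : 0 < h) (hu : 0 ≤ u) (hv : 0 ≤ v) (huv : |u - v| < h)
    {S n n' : ℕ} (hn : n < S) (hn' : n' < S)
    (hne : ⌊(u + n * h) / (S * h)⌋₊ ≠ ⌊(v + n * h) / (S * h)⌋₊)
    (hne' : ⌊(u + n' * h) / (S * h)⌋₊ ≠ ⌊(v + n' * h) / (S * h)⌋₊) : n = n' := by
  wlog hle : u ≤ v generalizing u v
  · exact this hv hu (by rwa [abs_sub_comm]) hne.symm hne'.symm (le_of_not_ge hle)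
  have hS : 0 < S := by omega
  obtain ⟨k, h1, h2⟩ := exists_cut hh hu hle hS hne
  obtain ⟨k', h1', h2'⟩ := exists_cut hh hu hle hS hne'
  have h3 := (abs_lt.1 huv).1
  have a1 : (k : ℝ) * S - n < (k' : ℝ) * S - n' + 1 := by
    refine lt_of_mul_lt_mul_right ?_ hh.le
    linarith
  have a2 : (k' : ℝ) * S - n' < (k : ℝ) * S - n + 1 := by
    refine lt_of_mul_lt_mul_right ?_ hh.le
    linarith
  have b1 : k * S + n' < k' * S + n + 1 := by
    have : (k : ℝ) * S + n' < k' * S + n + 1 := by linarith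
    exact_mod_cast this
  have b2 : k' * S + n < k * S + n' + 1 := by
    have : (k' : ℝ) * S + n < k * S + n' + 1 := by linarith
    exact_mod_cast this
  have e : n + k' * S = n' + k * S := by omega
  have := congrArg (· % S) e
  simpa [Nat.mod_eq_of_lt hn, Nat.mod_eq_of_lt hn'] using this

/-- A pair at distance `< Q ≤ l / S` is separated in the coordinate `i` by at most one of the `S`
shifts (an interval of length `< l / S` contains at most one multiple of `l / S`), so the sum over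
the shifts is at most `3 En ψ x`; and `S ≥ l / (2 Q)`. -/
theorem exists_shift {ψ : ℝ → ℝ} {Q : ℝ} (h0 : ∀ r, 0 ≤ ψ r) (hQ : ∀ r, Q ≤ r → ψ r = 0)
    (hQ0 : 0 < Q) (hQl : Q ≤ l) {N : ℕ} {x : Fin N → Pt} (hx : x ∈ box (cube L) N) :
    ∃ n < ⌊l / Q⌋₊, Cr ψ (labs l (n * (l / ⌊l / Q⌋₊)) L x) x ≤ 6 * (Q / l) * En ψ x := by
  have hl : 0 < l := hQ0.trans_le hQl
  have h1 : 1 ≤ l / Q := (one_le_div hQ0).2 hQl
  set S := ⌊l / Q⌋₊ with hSdef
  have hS : 0 < S := Nat.floor_pos.2 h1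
  have hS' : (1 : ℝ) ≤ S := by exact_mod_cast hS
  have hSle : (S : ℝ) ≤ l / Q := Nat.floor_le (by linarith)
  have hSlt : l / Q < S + 1 := Nat.lt_floor_add_one _
  set h := l / S with hh
  have hh0 : 0 < h := by positivity
  have hSh : S * h = l := by rw [hh]; field_simp
  have hQh : Q ≤ h := by
    rw [hh, le_div_iff₀ (by linarith)]
    rw [le_div_iff₀ hQ0] at hSle
    linarith
  have hsh : ∀ n < S, (n : ℝ) * h ≤ l := fun n hn => by
    rw [← hSh]
    have : (n : ℝ) ≤ S := by exact_mod_cast hn.le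
    gcongr
  have key : ∀ a b : Fin N, ∑ n ∈ Finset.range S,
      (if labs l (n * h) L x a = labs l (n * h) L x b then 0 else ψ (dist (x a) (x b))) ≤
      3 * if a = b then 0 else ψ (dist (x a) (x b)) := by
    intro a b
    by_cases hab : a = b
    · simp [hab]
    rw [if_neg hab]
    rcases le_or_gt Q (dist (x a) (x b)) with hd | hd
    · simp [hQ _ hd]
    have hcard : ((Finset.range S).filter fun n : ℕ =>
        ¬labs l (n * h) L x a = labs l (n * h) L x b).card ≤ 3 := by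
      have hsub : ((Finset.range S).filter fun n : ℕ =>
          ¬labs l (n * h) L x a = labs l (n * h) L x b) ⊆ Finset.univ.biUnion fun i : Fin 3 =>
            (Finset.range S).filter fun n : ℕ =>
              ⌊(x a i + n * h) / (S * h)⌋₊ ≠ ⌊(x b i + n * h) / (S * h)⌋₊ := by
        intro n hn
        obtain ⟨hn1, hn2⟩ := Finset.mem_filter.1 hn
        obtain ⟨i, hi⟩ := Function.ne_iff.1 hn2
        refine Finset.mem_biUnion.2 ⟨i, Finset.mem_univ _, Finset.mem_filter.2 ⟨hn1, ?_⟩⟩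
        have hn' := hsh n (Finset.mem_range.1 hn1)
        rw [hSh, ← lab_val hl hn' (hx a (mem_univ a)) i, ← lab_val hl hn' (hx b (mem_univ b)) i]
        exact fun e => hi (Fin.ext e)
      refine (Finset.card_le_card hsub).trans (Finset.card_biUnion_le.trans ?_)
      refine (Finset.sum_le_card_nsmul _ _ 1 fun i _ => Finset.card_le_one.2 ?_).trans (by simp)
      intro n hn n' hn'
      obtain ⟨hn1, hn2⟩ := Finset.mem_filter.1 hn
      obtain ⟨hn1', hn2'⟩ := Finset.mem_filter.1 hn'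
      refine cut_unique hh0 (hx a (mem_univ a) i).1 (hx b (mem_univ b) i).1 ?_
        (Finset.mem_range.1 hn1) (Finset.mem_range.1 hn1') hn2 hn2'
      rw [← Real.dist_eq]
      exact ((PiLp.dist_apply_le (x a) (x b) i).trans_lt hd).trans_le hQh
    rw [Finset.sum_ite, Finset.sum_const_zero, zero_add, Finset.sum_const, nsmul_eq_mul]
    exact mul_le_mul_of_nonneg_right (by exact_mod_cast hcard) (h0 _)
  have hsum : ∑ n ∈ Finset.range S, Cr ψ (labs l (n * h) L x) x ≤
      ∑ _n ∈ Finset.range S, 6 * (Q / l) * En ψ x := by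
    have e1 : ∑ n ∈ Finset.range S, Cr ψ (labs l (n * h) L x) x ≤ 3 * En ψ x := by
      simp only [Cr, En]
      rw [← Finset.sum_div, ← mul_div_assoc, Finset.sum_comm, Finset.mul_sum]
      refine div_le_div_of_nonneg_right (Finset.sum_le_sum fun a _ => ?_) zero_le_two
      rw [Finset.sum_comm, Finset.mul_sum]
      exact Finset.sum_le_sum fun b _ => key a b
    rw [Finset.sum_const, Finset.card_range, nsmul_eq_mul, ← mul_assoc]
    refine e1.trans (mul_le_mul_of_nonneg_right ?_ (En_nonneg h0 x))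
    rw [div_lt_iff₀ hQ0] at hSlt
    rw [← mul_div_assoc, ← mul_div_assoc, le_div_iff₀ hl]
    nlinarith
  obtain ⟨n, hn, hle⟩ := Finset.exists_le_of_sum_le ⟨0, Finset.mem_range.2 hS⟩ hsum
  exact ⟨n, Finset.mem_range.1 hn, hle⟩

end

section
variable {A : Type*} [Fintype A] [DecidableEq A]

/-- cells of side `1/2` -/
noncomputable def hc (x : A → Pt) : A → Fin 3 → ℤ := fun a i => ⌊2 * x a i⌋

theorem hc_inG (x : A → Pt) : InG (1 / 2) 0 (hc x) x := by
  intro a i
  have h1 := Int.floor_le (2 * x a i)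
  have h2 := Int.lt_floor_add_one (2 * x a i)
  simp only [hc]
  constructor <;> linarith

theorem Nn_hc_le (x : A → Pt) : Nn (hc x) ≤ P1 x := by
  classical
  refine Finset.sum_le_sum fun a _ => ?_
  rw [kd, Finset.card_filter, Nat.cast_sum]
  refine Finset.sum_le_sum fun b _ => ?_
  by_cases hab : hc x a = hc x b
  · have hd : dist (x a) (x b) < 1 := by
      have hi : ∀ i, dist (x a i) (x b i) ^ 2 ≤ 1 / 4 := fun i => by
        have h1 := hc_inG x a i
        have h2 := hc_inG x b i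
        rw [hab] at h1
        rw [Real.dist_eq, sq_abs]
        nlinarith [h1.1, h1.2, h2.1, h2.2]
      rw [EuclideanSpace.dist_eq, Real.sqrt_lt' one_pos, Fin.sum_univ_three]
      linarith [hi 0, hi 1, hi 2]
    simp [hab, hd]
  · rw [if_neg hab]
    exact Nat.cast_nonneg _

theorem card_le_P1 (x : A → Pt) : (Fintype.card A : ℝ) ≤ P1 x := by
  have : ∑ _a : A, (1 : ℝ) ≤ P1 x :=
    Finset.sum_le_sum fun a _ => by exact_mod_cast one_le_kd one_pos x a
  simpa using this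

theorem Wk_le_P1 {R : ℝ} (hR : 1 ≤ R) (x : A → Pt) : En (Jk R) x ≤ CW * P1 x := by
  have h := Wk_le (h := 1 / 2) (R := R) (by norm_num) (by linarith) (hc_inG x)
  have h0 : 0 ≤ Nn (hc x) :=
    Finset.sum_nonneg fun _ _ => Finset.sum_nonneg fun _ _ => by split_ifs <;> norm_num
  have h1 : CJ * (1 / 2) / R ≤ CJ * (1 / 2) :=
    div_le_self (by have := CJ_nonneg; positivity) hR
  have h2 := mul_le_mul_of_nonneg_right h1 h0
  have h3 := mul_le_mul_of_nonneg_left (Nn_hc_le x) (show 0 ≤ CW by linarith [four_le_CW])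
  have e : Nn (hc x) / (2 * (1 / 2) ^ 3) = 4 * Nn (hc x) := by ring
  rw [e] at h
  refine h.trans (le_trans ?_ h3)
  unfold CW
  linarith

theorem sum_ite_le_box {p : (Fin 3 → ℤ) → Prop} [DecidablePred p] (c : Fin 3 → ℤ) (M : ℕ)
    (hp : ∀ d, p d → ∀ i, c i ≤ d i ∧ d i ≤ c i + M) (S : Finset (Fin 3 → ℤ)) :
    ∑ d ∈ S, (if p d then (1 : ℝ) else 0) ≤ ((M : ℝ) + 1) ^ 3 := by
  rw [Finset.sum_boole]
  have hsub : S.filter p ⊆ Fintype.piFinset fun i => Finset.Icc (c i) (c i + M) := fun d hd =>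
    Fintype.mem_piFinset.2 fun i => Finset.mem_Icc.2 (hp d (Finset.mem_filter.1 hd).2 i)
  have h := Finset.card_le_card hsub
  have e : ∀ i, (Finset.Icc (c i) (c i + M)).card = M + 1 := fun i => by
    rw [Int.card_Icc]
    omega
  rw [Fintype.card_piFinset] at h
  simp only [e, Finset.prod_const, Finset.card_univ, Fintype.card_fin] at h
  exact_mod_cast h

/-- `kernel_le` for `hc x` with the kernel `1[∀ i, |d i - d' i| ≤ 2 l + 1]` -/
theorem Nn_le_P1 {l s : ℝ} (hl : 1 ≤ l) {τ : A → Fin 3 → ℤ} {x : A → Pt} (hx : InG l s τ x) :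
    Nn τ ≤ 343 * l ^ 3 * P1 x := by
  classical
  set M : ℕ := ⌊2 * l + 1⌋₊ with hM
  have hM1 : (M : ℝ) ≤ 2 * l + 1 := Nat.floor_le (by linarith)
  have hM2 : 2 * l + 1 < M + 1 := Nat.lt_floor_add_one _
  have hk := kernel_le (hc x) (k := fun d d' => if ∀ i, |d i - d' i| ≤ M then 1 else 0)
    (r := (((2 * M : ℕ) : ℝ) + 1) ^ 3) (fun _ _ => by split_ifs <;> norm_num)
    (fun d d' => by simp only [abs_sub_comm (d _)])
    (fun d S => sum_ite_le_box (fun i => d i - M) (2 * M) (fun d' hd i => by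
      have := abs_le.1 (hd i)
      push_cast
      constructor <;> linarith [this.1, this.2]) S)
  have h1 : Nn τ ≤ ∑ a, ∑ b, if ∀ i, |hc x a i - hc x b i| ≤ M then (1 : ℝ) else 0 := by
    refine Finset.sum_le_sum fun a _ => Finset.sum_le_sum fun b _ => ?_
    by_cases hab : τ a = τ b
    · rw [if_pos hab, if_pos]
      intro i
      have h1 := hx a i
      have h2 := hx b i
      rw [hab] at h1
      have a1 := Int.floor_le (2 * x a i)
      have a2 := Int.lt_floor_add_one (2 * x a i)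
      have b1 := Int.floor_le (2 * x b i)
      have b2 := Int.lt_floor_add_one (2 * x b i)
      have : ((|hc x a i - hc x b i| : ℤ) : ℝ) < ((M : ℤ) + 1 : ℤ) := by
        push_cast
        simp only [hc]
        rw [abs_lt]
        constructor <;> linarith [h1.1, h1.2, h2.1, h2.2]
      exact Int.lt_add_one_iff.1 (by exact_mod_cast this)
    · rw [if_neg hab]
      split_ifs <;> norm_num
  have h2 : (((2 * M : ℕ) : ℝ) + 1) ^ 3 ≤ 343 * l ^ 3 := by
    rw [show 343 * l ^ 3 = (7 * l) ^ 3 by ring]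
    push_cast
    gcongr
    linarith
  have h0 : 0 ≤ Nn (hc x) :=
    Finset.sum_nonneg fun _ _ => Finset.sum_nonneg fun _ _ => by split_ifs <;> norm_num
  exact (h1.trans hk).trans (mul_le_mul h2 (Nn_hc_le x) h0 (by positivity))

theorem sq_le_P1 {L : ℝ} (hL : 0 < L) {N : ℕ} {x : Fin N → Pt} (hx : x ∈ box (cube L) N) :
    (N : ℝ) ^ 2 ≤ 8 * (L + 2) ^ 3 * P1 x := by
  classical
  set M : ℕ := ⌊2 * L⌋₊ with hM
  have hM1 : (M : ℝ) ≤ 2 * L := Nat.floor_le (by linarith)
  have hM2 : 2 * L < M + 1 := Nat.lt_floor_add_one _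
  have hk := kernel_le (hc x)
    (k := fun d d' => if (∀ i, 0 ≤ d i ∧ d i ≤ M) ∧ ∀ i, 0 ≤ d' i ∧ d' i ≤ M then 1 else 0)
    (r := ((M : ℝ) + 1) ^ 3) (fun _ _ => by split_ifs <;> norm_num)
    (fun d d' => by simp only [and_comm (a := ∀ i, 0 ≤ d i ∧ d i ≤ M)])
    (fun d S => sum_ite_le_box 0 M (fun d' hd i => by simpa using hd.2 i) S)
  have hb : ∀ a i, 0 ≤ hc x a i ∧ hc x a i ≤ M := fun a i => by
    have h := hx a (mem_univ a) i
    refine ⟨Int.floor_nonneg.2 (by linarith [h.1]), Int.lt_add_one_iff.1 (Int.floor_lt.2 ?_)⟩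
    push_cast
    linarith [h.2]
  simp only [hb, implies_true, and_self, if_true, Finset.sum_const, Finset.card_univ,
    Fintype.card_fin, nsmul_eq_mul, mul_one] at hk
  have h2 : ((M : ℝ) + 1) ^ 3 ≤ 8 * (L + 2) ^ 3 := by
    rw [show 8 * (L + 2) ^ 3 = (2 * (L + 2)) ^ 3 by ring]
    gcongr
    linarith
  have h0 : 0 ≤ Nn (hc x) :=
    Finset.sum_nonneg fun _ _ => Finset.sum_nonneg fun _ _ => by split_ifs <;> norm_num
  rw [sq]
  exact hk.trans (mul_le_mul h2 (Nn_hc_le x) h0 (by positivity))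

end

end Crest.Agent.R149
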