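import Crest.Agent.R149.Shift
import Crest.Agent.R149.Neg

/-! Row 149: basic properties of a system. -/

set_option autoImplicit false

namespace Crest.Agent.R149

open MeasureTheory Filter Set Crest.ProbabilityR.Continuum
open scoped ENNReal Topology

namespace Sys
variable (S : Sys)

theorem two_le_l (j : ℕ) : 2 ≤ S.l j := by linarith [S.Q_ge j, S.Q_le j]

theorem six_le_R (j : ℕ) : 6 ≤ S.R j := by linarith [S.two_le_l j, S.l_le j]

theorem R_pos (j : ℕ) : 0 < S.R j := by linarith [S.six_le_R j]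

theorem κ_pos : 0 < S.κ := by linarith [S.κ_ge]

theorem l_pos (j : ℕ) : 0 < S.l j := by linarith [S.two_le_l j]

theorem Q_pos (j : ℕ) : 0 < S.Q j := by linarith [S.Q_ge j]

theorem r_nonneg (j : ℕ) : 0 ≤ S.r j := by
  exact add_nonneg (div_pos (S.Q_pos j) (S.l_pos j)).le (div_pos (S.l_pos j) (S.R_pos j)).le

theorem inv_l_le_r (j : ℕ) : 1 / S.l j ≤ S.r j := by
  exact (div_le_div_of_nonneg_right (S.Q_ge j) (S.l_pos j).le).trans
    (le_add_of_nonneg_right (div_pos (S.l_pos j) (S.R_pos j)).le)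

theorem Q_div_le_r (j : ℕ) : S.Q j / S.l j ≤ S.r j := by
  exact le_add_of_nonneg_right (div_pos (S.l_pos j) (S.R_pos j)).le

theorem l_div_le_r (j : ℕ) : S.l j / S.R j ≤ S.r j := by
  exact le_add_of_nonneg_left (div_pos (S.Q_pos j) (S.l_pos j)).le

theorem r_le_one (j : ℕ) : S.r j ≤ 1 := by
  have h1 : S.Q j / S.l j ≤ 1 / 2 := by
    rw [div_le_iff₀ (S.l_pos j)]
    linarith [S.Q_le j]
  have h2 : S.l j / S.R j ≤ 1 / 3 := by
    rw [div_le_iff₀ (S.R_pos j)]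
    linarith [S.l_le j]
  unfold r
  linarith

theorem d_nonneg (j : ℕ) : 0 ≤ S.d j := by
  exact div_nonneg (add_nonneg (sq_nonneg _) (S.r_nonneg j)) (div_pos (S.a_pos _) S.κ_pos).le

theorem tail_zero : S.tail 0 = ∑' i, S.a i := by simp [tail]

theorem sum_add_tail (j : ℕ) : ∑ i ∈ Finset.range j, S.a i + S.tail j = S.tail 0 := by
  rw [tail_zero]
  exact S.a_sum.sum_add_tsum_nat_add j

theorem tail_nonneg (j : ℕ) : 0 ≤ S.tail j := by
  exact tsum_nonneg fun i => (S.a_pos _).le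

theorem tail_antitone : Antitone S.tail := by
  intro i j hij
  have := Finset.sum_le_sum_of_subset_of_nonneg (f := S.a) (Finset.range_mono hij)
    fun k _ _ => (S.a_pos k).le
  linarith [S.sum_add_tail i, S.sum_add_tail j]

theorem tail_le_κ (j : ℕ) : 4 * CW * S.tail j ≤ S.κ := by
  have h := S.tail_antitone (Nat.zero_le j)
  rw [tail_zero] at h
  exact (mul_le_mul_of_nonneg_left h (by linarith [four_le_CW])).trans S.small

theorem tendsto_tail : Tendsto S.tail atTop (𝓝 0) := by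
  exact tendsto_sum_nat_add S.a

theorem Jk_le_iota (i : ℕ) (r : ℝ) : Jk (S.R i) r ≤ iota⁻¹ := by
  refine (Jk_le (S.R_pos i) r).trans (inv_anti₀ iota_pos ?_)
  exact le_mul_of_one_le_right iota_pos.le (one_le_pow₀ (by linarith [S.six_le_R i]))

theorem term_nonneg (i : ℕ) (r : ℝ) : 0 ≤ S.a i * Jk (S.R i) r :=
  mul_nonneg (S.a_pos i).le (Jk_nonneg (S.R_pos i) r)

theorem term_le (i : ℕ) (r : ℝ) : S.a i * Jk (S.R i) r ≤ S.a i * iota⁻¹ :=
  mul_le_mul_of_nonneg_left (S.Jk_le_iota i r) (S.a_pos i).le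

theorem summable_J (r : ℝ) : Summable fun i => S.a i * Jk (S.R i) r := by
  exact Summable.of_nonneg_of_le (fun i => S.term_nonneg i r) (fun i => S.term_le i r)
    (S.a_sum.mul_right _)

theorem J_nonneg (r : ℝ) : 0 ≤ S.J r := by
  exact tsum_nonneg fun i => S.term_nonneg i r

theorem J_le (r : ℝ) : S.J r ≤ S.tail 0 * iota⁻¹ := by
  rw [tail_zero, ← tsum_mul_right]
  exact (S.summable_J r).tsum_le_tsum (fun i => S.term_le i r) (S.a_sum.mul_right _)

theorem continuous_J : Continuous S.J := by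
  refine continuous_tsum (fun i => continuous_const.mul (continuous_Jk _))
    (S.a_sum.mul_right iota⁻¹) fun i r => ?_
  rw [Real.norm_eq_abs, abs_of_nonneg (S.term_nonneg i r)]
  exact S.term_le i r

theorem le_J (i : ℕ) (r : ℝ) : S.a i * Jk (S.R i) r ≤ S.J r := by
  exact (S.summable_J r).le_tsum i fun k _ => S.term_nonneg k r

theorem Jlo_nonneg (j : ℕ) (r : ℝ) : 0 ≤ S.Jlo j r := by
  exact Finset.sum_nonneg fun i _ => S.term_nonneg i r

theorem Jlo_le_J (j : ℕ) (r : ℝ) : S.Jlo j r ≤ S.J r := by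
  exact (S.summable_J r).sum_le_tsum _ fun k _ => S.term_nonneg k r

theorem Jlo_eq_zero (j : ℕ) (r : ℝ) (h : S.Q j ≤ r) : S.Jlo j r = 0 := by
  refine Finset.sum_eq_zero fun i hi => ?_
  rw [Jk_eq_zero (S.R_pos i) ((S.R_le_Q j i (Finset.mem_range.1 hi)).trans h), mul_zero]

/-- only the scales `R i > r` contribute -/
theorem J_decay (h : Summable fun i => S.a i * S.R i ^ (1 / 32 : ℝ)) :
    ∃ C : ℝ, ∀ r : ℝ, 1 ≤ r → S.J r ≤ C * r ^ (-(3 + 1 / 32 : ℝ)) := by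
  refine ⟨(∑' i, S.a i * S.R i ^ (1 / 32 : ℝ)) * iota⁻¹, fun r hr => ?_⟩
  rw [mul_assoc, ← tsum_mul_right]
  refine (S.summable_J r).tsum_le_tsum (fun i => ?_) (h.mul_right _)
  have hR := S.R_pos i
  have hi := iota_pos
  rw [mul_assoc]
  refine mul_le_mul_of_nonneg_left ?_ (S.a_pos i).le
  rcases le_total (S.R i) r with h1 | h1
  · rw [Jk_eq_zero hR h1]
    positivity
  · refine (Jk_le hR r).trans ?_
    have h2 : S.R i ^ (-(3 + 1 / 32 : ℝ)) ≤ r ^ (-(3 + 1 / 32 : ℝ)) :=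
      Real.rpow_le_rpow_of_nonpos (by linarith) h1 (by norm_num)
    have h3 : (S.R i ^ 3)⁻¹ = S.R i ^ (1 / 32 : ℝ) * S.R i ^ (-(3 + 1 / 32 : ℝ)) := by
      rw [← Real.rpow_add hR, show (1 / 32 : ℝ) + -(3 + 1 / 32) = -((3 : ℕ) : ℝ) by norm_num,
        Real.rpow_neg hR.le, Real.rpow_natCast]
    rw [mul_inv, h3, mul_left_comm]
    gcongr

variable {N : ℕ}

theorem W_nonneg (i : ℕ) (x : Fin N → Pt) : 0 ≤ S.W i x := by
  exact En_nonneg (Jk_nonneg (S.R_pos i)) x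

theorem W_le (i : ℕ) (x : Fin N → Pt) : S.W i x ≤ CW * P1 x := by
  exact Wk_le_P1 (by linarith [S.six_le_R i]) x

theorem En_Jlo (j : ℕ) (x : Fin N → Pt) :
    En (S.Jlo j) x = ∑ i ∈ Finset.range j, S.a i * S.W i x := by
  exact (En_sum (Finset.range j) (fun i r => S.a i * Jk (S.R i) r) x).trans
    (Finset.sum_congr rfl fun i _ => En_const_mul _ _ x)

theorem En_Jlo_le (j : ℕ) (x : Fin N → Pt) : En (S.Jlo j) x ≤ En S.J x := by
  exact En_mono (S.Jlo_le_J j) x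

theorem En_J_le (j : ℕ) (x : Fin N → Pt) :
    En S.J x ≤ En (S.Jlo j) x + S.tail j * (CW * P1 x) := by
  have h : HasSum (fun i => S.a i * S.W i x) (En S.J x) := by
    have := hasSum_En (φ := fun i r => S.a i * Jk (S.R i) r) S.summable_J x
    simp only [En_const_mul] at this
    exact this
  rw [← h.tsum_eq, ← h.summable.sum_add_tsum_nat_add j, En_Jlo, tail, ← tsum_mul_right]
  refine add_le_add le_rfl (((summable_nat_add_iff j).2 h.summable).tsum_le_tsum (fun i => ?_)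
    (((summable_nat_add_iff j).2 S.a_sum).mul_right _))
  exact mul_le_mul_of_nonneg_left (S.W_le _ x) (S.a_pos _).le

theorem En_J_le_tail (x : Fin N → Pt) : En S.J x ≤ S.tail 0 * (CW * P1 x) := by
  have h := S.En_J_le 0 x
  rwa [En_Jlo, Finset.sum_range_zero, zero_add] at h

theorem _root_.Crest.Agent.R149.P1_nonneg {A : Type*} [Fintype A] (x : A → Pt) : 0 ≤ P1 x :=
  Finset.sum_nonneg fun _ _ => Nat.cast_nonneg _

theorem En_φ (x : Fin N → Pt) : En S.φ x = En S.φ0 x - En S.J x := En_sub _ _ x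

/-- `En φ0 ≥ κ (P1 - N) / 2` (`En_step` with `c = 0`) and `En J ≤ κ P1 / 4` -/
theorem le_En_φ (x : Fin N → Pt) : S.κ * P1 x / 4 - S.κ * N / 2 ≤ En S.φ x := by
  have h1 : En (fun r => (if r < 1 then S.κ else 0) - if r < 1 then 0 else 0) x ≤ En S.φ0 x := by
    refine En_mono (fun r => ?_) x
    by_cases hr : r < 1
    · simpa [hr] using S.core0 r hr
    · simpa [hr] using S.nonneg0 r
  rw [En_step one_pos] at h1
  have h2 : ∑ a, (S.κ * ((kd 1 x a : ℝ) - 1) / 2 - 0 * td 1 x a / 2) =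
      S.κ * P1 x / 2 - S.κ * N / 2 := by
    simp only [P1, zero_mul, zero_div, sub_zero, ← Finset.sum_div, ← Finset.mul_sum,
      Finset.sum_sub_distrib, Finset.sum_const, Finset.card_univ, Fintype.card_fin, nsmul_eq_mul]
    ring
  have h3 := S.En_J_le_tail x
  have h4 := mul_le_mul_of_nonneg_right (S.tail_le_κ 0) (P1_nonneg x)
  rw [En_φ]
  linarith

theorem adm : Adm S.φ := by
  refine ⟨S.meas0.sub S.continuous_J.measurable, ⟨S.κ / 2, (half_pos S.κ_pos).le, fun N x => ?_⟩,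
    fun r hr => ?_⟩
  · have h1 := S.le_En_φ x
    have h2 := mul_nonneg S.κ_pos.le (P1_nonneg x)
    linarith
  · rw [φ, S.zero0 r hr]
    linarith [S.J_nonneg r]

theorem le_g {β ρ : ℝ} (hβ : 0 < β) (hρ : 0 ≤ ρ) :
    β * (S.κ / 32 * ρ ^ 2 - S.κ / 2 * ρ) - 1 ≤ g S.φ β ρ := by
  refine S.adm.le_g hβ (by linarith [S.κ_pos]) (fun L hL N x hx => ?_) hρ
  have h1 := S.le_En_φ x
  have h2 : S.κ / 32 * N ^ 2 / (L + 2) ^ 3 ≤ S.κ * P1 x / 4 := by
    rw [div_le_iff₀ (by positivity)]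
    have := mul_le_mul_of_nonneg_left (sq_le_P1 hL hx) S.κ_pos.le
    linarith
  linarith

variable {G β ρ μ π : ℝ}

theorem defect_ge (hG : 1 ≤ G) (hβ : 1 / 2 ≤ β) (hβ' : β ≤ 2) (hμ : |μ| ≤ G * S.κ)
    (hπ : |π| ≤ G * S.κ) {u : ℝ} (hu : 256 * (G + 1) ≤ u) :
    S.κ / 128 * u ^ 2 ≤ g S.φ β u - (μ * u - π) := by
  have hκ := S.κ_ge
  have hu0 : 512 ≤ u := by linarith
  have h1 := S.le_g (β := β) (ρ := u) (by linarith) (by linarith)
  have h2 : 0 ≤ S.κ / 32 * u ^ 2 - S.κ / 2 * u := by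
    have : 0 ≤ S.κ * u * (u / 32 - 1 / 2) := by
      have : 0 ≤ u / 32 - 1 / 2 := by linarith
      positivity
    linarith
  have h3 := mul_le_mul_of_nonneg_right hβ h2
  have h4 : μ * u ≤ G * S.κ * u := mul_le_mul_of_nonneg_right (abs_le.1 hμ).2 (by linarith)
  have h5 := (abs_le.1 hπ).1
  have h6 : S.κ * u * (256 * (G + 1)) ≤ S.κ * u * u :=
    mul_le_mul_of_nonneg_left hu (by positivity)
  have h7 : G * S.κ * 1 ≤ G * S.κ * u := mul_le_mul_of_nonneg_left (by linarith) (by positivity)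
  have h8 : S.κ * 1 ≤ S.κ * u := mul_le_mul_of_nonneg_left (by linarith) (by positivity)
  nlinarith

theorem neg_P1 (hG : 1 ≤ G) (hβ : 1 / 2 ≤ β) (hβ' : β ≤ 2) (hρ : 0 ≤ ρ) (hρ' : ρ ≤ G)
    (hμ : |μ| ≤ G * S.κ) (hπ : |π| ≤ G * S.κ) (hs : Supp (g S.φ β) μ π ρ) :
    Neg S.φ β ρ fun L => {x | 40 * G ^ 2 * L ^ 3 < P1 x} := by
  refine (neg_energy S.φ β ρ).mono ?_
  filter_upwards [eventually_ge_atTop 0] with L hL x hx
  have hκ := S.κ_ge
  have hL3 : 0 ≤ L ^ 3 := by positivity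
  have h0 : 40 * G ^ 2 * L ^ 3 < P1 x := hx.1
  have h1 := S.le_En_φ x
  have hN : (⌊ρ * L ^ 3⌋₊ : ℝ) ≤ G * L ^ 3 :=
    (Nat.floor_le (by positivity)).trans (mul_le_mul_of_nonneg_right hρ' hL3)
  have hG2 : G ≤ G ^ 2 := by nlinarith
  have hg : g S.φ β ρ + 2 ≤ 4 * (S.κ * G ^ 2) := by
    have a1 : μ * ρ ≤ G * S.κ * G := mul_le_mul (abs_le.1 hμ).2 hρ' hρ (by positivity)
    have a2 := (abs_le.1 hπ).1
    have a3 := mul_le_mul_of_nonneg_left hG2 S.κ_pos.le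
    have a4 : 1 * 1 ≤ S.κ * G ^ 2 := mul_le_mul hκ (by linarith) zero_le_one (by linarith)
    rw [hs.2]
    nlinarith
  have h2 : 8 * (S.κ * G ^ 2) * L ^ 3 ≤ En S.φ x := by
    have a1 := mul_le_mul_of_nonneg_left h0.le S.κ_pos.le
    have a2 := mul_le_mul_of_nonneg_left (hN.trans (mul_le_mul_of_nonneg_right hG2 hL3))
      S.κ_pos.le
    have a3 : 0 ≤ S.κ * (G ^ 2 * L ^ 3) := by positivity
    nlinarith
  have h3 : 0 ≤ En S.φ x := le_trans (by positivity) h2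
  have h4 := mul_le_mul_of_nonneg_right hβ h3
  have h5 := mul_le_mul_of_nonneg_right hg hL3
  show (g S.φ β ρ + 2) * L ^ 3 ≤ β * En S.φ x
  linarith

theorem sh_mem {j n : ℕ} (hn : n < S.ns j) : 0 ≤ S.sh j n ∧ S.sh j n ≤ S.l j := by
  have h0 : (0 : ℝ) < S.ns j := by exact_mod_cast (Nat.zero_le n).trans_lt hn
  have h1 : (n : ℝ) ≤ S.ns j := by exact_mod_cast hn.le
  have hl := S.l_pos j
  refine ⟨by unfold sh; positivity, ?_⟩
  unfold sh
  calc (n : ℝ) * (S.l j / S.ns j) ≤ S.ns j * (S.l j / S.ns j) := by gcongr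
    _ = S.l j := by field_simp

/-- `exists_shift` for `Jlo j` -/
theorem exists_sh (j : ℕ) {L : ℝ} {x : Fin N → Pt} (hx : x ∈ box (cube L) N) :
    ∃ n < S.ns j, Cr (S.Jlo j) (labs (S.l j) (S.sh j n) L x) x ≤
      6 * S.r j * (S.tail 0 * (CW * P1 x)) := by
  obtain ⟨n, hn, h⟩ := exists_shift (l := S.l j) (S.Jlo_nonneg j) (S.Jlo_eq_zero j) (S.Q_pos j)
    (by linarith [S.Q_le j, S.Q_pos j]) hx
  refine ⟨n, hn, h.trans ?_⟩
  exact mul_le_mul (by linarith [S.Q_div_le_r j]) ((S.En_Jlo_le j x).trans (S.En_J_le_tail x))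
    (En_nonneg (S.Jlo_nonneg j) x) (by linarith [S.r_nonneg j])

theorem Cr_J_le (j : ℕ) {ι : Type*} [DecidableEq ι] (τ : Fin N → ι) (x : Fin N → Pt) :
    Cr S.J τ x ≤ Cr (S.Jlo j) τ x + S.tail j * (CW * P1 x) := by
  have h1 := Cr_le_En (φ := fun r => S.J r - S.Jlo j r) (fun r => sub_nonneg.2 (S.Jlo_le_J j r)) τ x
  rw [Cr_sub, En_sub] at h1
  linarith [S.En_J_le j x]

end Sys

end Crest.Agent.R149
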