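import Crest.Agent.R149.Mult

/-! Row 149: the thermodynamic limit. -/

set_option autoImplicit false

namespace Crest.Agent.R149

open MeasureTheory Filter Set Crest.ProbabilityR.Continuum
open scoped ENNReal Topology

variable {φ : ℝ → ℝ} {β ρ : ℝ}

/-- superadditivity: `prod_le_Zr` with `φ' = φ`, `y = 0` and the tiles `slot L₀ (j i)` for an
injection `j : ι → (Fin 3 → Fin m)`; `Cr_nonpos`, `Zr_translate` -/
theorem Adm.fe_tiles (hφ : Adm φ) (hβ : 0 < β) {L₀ L : ℝ} (hL₀ : 0 < L₀) (hL : 0 < L) {m : ℕ}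
    (hm : m * (L₀ + 2) ≤ L) {ι : Type} [Fintype ι] (hι : Fintype.card ι ≤ m ^ 3) (ν : ι → ℕ) :
    fe φ β L (∑ i, ν i) ≤ ∑ i, fe φ β L₀ (ν i) := by
  classical
  obtain ⟨j⟩ : Nonempty (ι ↪ (Fin 3 → Fin m)) :=
    Function.Embedding.nonempty_of_card_le (by simpa using hι)
  have h := prod_le_Zr (β := β) (Λ := cube L) hφ.meas hφ.meas (fun i => slot L₀ (j i))
    (fun i => measurableSet_slot _ _)
    (fun i i' hne => Set.disjoint_left.2 fun y hy hy' => by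
      have := two_le_dist_slot hL₀.le (j.injective.ne hne) hy hy'
      rw [dist_self] at this
      linarith)
    (fun i y hy k => ⟨(slot_subset hL₀.le _ hy k).1, (slot_subset hL₀.le _ hy k).2.trans hm⟩)
    ν rfl (y := 0) fun τ _ x hx => by
      rw [En_eq_EnI_add_Cr φ τ x, zero_add]
      have : Cr φ τ x ≤ 0 := Cr_nonpos fun a b hab =>
        hφ.neg _ (two_le_dist_slot hL₀.le (j.injective.ne hab) (hx a) (hx b))
      exact mul_le_mul_of_nonneg_left (by linarith) hβ.le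
  rw [hφ.fe_le_iff hβ hL]
  refine le_trans (le_of_eq ?_) h
  rw [neg_zero, Real.exp_zero, ENNReal.ofReal_one, one_mul, ← Finset.sum_neg_distrib,
    Real.exp_sum, ENNReal.ofReal_prod_of_nonneg fun _ _ => (Real.exp_pos _).le]
  refine Finset.prod_congr rfl fun i _ => ?_
  rw [← hφ.Zr_eq hβ hL₀]
  exact (Zr_translate hφ.meas (measurableSet_cube L₀) _).symm

theorem Adm.le_chord (hφ : Adm φ) (hβ : 0 < β) {c c' : ℝ} (hc : 0 ≤ c)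
    (h : ∀ L : ℝ, 0 < L → ∀ (N : ℕ) (x : Fin N → Pt), x ∈ box (cube L) N →
      c * N ^ 2 / (L + 2) ^ 3 - c' * N ≤ En φ x) {v : ℝ} (hv : v ∈ chords φ β ρ) :
    β * (c * ρ ^ 2 - c' * ρ) - 1 ≤ v := by
  obtain ⟨L, t, N₁, N₂, hL, ht0, ht1, hN, rfl⟩ := hv
  have hfe : ∀ N : ℕ, β * (c * N ^ 2 / (L + 2) ^ 3 - c' * N) - L ^ 3 ≤ fe φ β L N := by
    intro N
    rw [hφ.le_fe_iff hβ hL, neg_sub]
    exact ZA_le_of_energy hL.le fun x hx => mul_le_mul_of_nonneg_left (h L hL N x hx.2) hβ.le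
  have hV : 0 < (L + 2) ^ 3 := by positivity
  have hLV : L ^ 3 ≤ (L + 2) ^ 3 := by gcongr; linarith
  have h1 := mul_le_mul_of_nonneg_left (hfe N₁) ht0
  have h2 := mul_le_mul_of_nonneg_left (hfe N₂) (sub_nonneg.2 ht1)
  generalize (L + 2) ^ 3 = V at *
  have h3 : (ρ * V) ^ 2 ≤ t * (N₁ : ℝ) ^ 2 + (1 - t) * (N₂ : ℝ) ^ 2 := by
    rw [← hN]
    nlinarith [mul_nonneg (mul_nonneg ht0 (sub_nonneg.2 ht1)) (sq_nonneg ((N₁ : ℝ) - N₂))]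
  have h4 : c * ρ ^ 2 * V ≤ t * (c * (N₁ : ℝ) ^ 2 / V) + (1 - t) * (c * (N₂ : ℝ) ^ 2 / V) := by
    have : t * (c * (N₁ : ℝ) ^ 2 / V) + (1 - t) * (c * (N₂ : ℝ) ^ 2 / V) =
        c * (t * (N₁ : ℝ) ^ 2 + (1 - t) * (N₂ : ℝ) ^ 2) / V := by ring
    rw [this, le_div_iff₀ hV]
    nlinarith [mul_le_mul_of_nonneg_left h3 hc]
  have h5 := mul_le_mul_of_nonneg_left h4 hβ.le
  have h6 : β * c' * (t * N₁ + (1 - t) * N₂) = β * c' * (ρ * V) := by rw [hN]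
  rw [le_div_iff₀ hV]
  nlinarith

/-- stability and `ZA_le_of_energy`: `fe ≥ -β B N - L³` -/
theorem Adm.bddBelow_chords (hφ : Adm φ) (hβ : 0 < β) (ρ : ℝ) : BddBelow (chords φ β ρ) := by
  obtain ⟨B, -, hB⟩ := hφ.stable
  exact ⟨_, fun v hv => hφ.le_chord hβ (c := 0) (c' := B) le_rfl
    (fun L _ N x _ => by simpa using hB N x) hv⟩

theorem chords_nonempty (φ : ℝ → ℝ) (β : ℝ) (hρ : 0 ≤ ρ) : (chords φ β ρ).Nonempty := by
  have h0 : (0 : ℝ) < ((⌈27 * ρ⌉₊ + 1 : ℕ) : ℝ) := by positivity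
  refine ⟨_, 1, 27 * ρ / ((⌈27 * ρ⌉₊ + 1 : ℕ) : ℝ), ⌈27 * ρ⌉₊ + 1, 0, one_pos, by positivity, ?_,
    ?_, rfl⟩
  · rw [div_le_one h0]
    push_cast
    linarith [Nat.le_ceil (27 * ρ)]
  · rw [div_mul_cancel₀ _ h0.ne']
    simp
    ring

theorem Adm.g_le_fe (hφ : Adm φ) (hβ : 0 < β) {L : ℝ} (hL : 0 < L) (N : ℕ) :
    (L + 2) ^ 3 * g φ β (N / (L + 2) ^ 3) ≤ fe φ β L N := by
  have hV : 0 < (L + 2) ^ 3 := by positivity
  rw [← le_div_iff₀' hV]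
  refine csInf_le (hφ.bddBelow_chords hβ _) ⟨L, 1, N, N, hL, zero_le_one, le_rfl, ?_, ?_⟩
  · rw [div_mul_cancel₀ _ hV.ne']
    ring
  · ring

theorem Adm.Zr_le_g (hφ : Adm φ) (hβ : 0 < β) {L : ℝ} (hL : 0 < L) (N : ℕ) :
    Zr φ β (cube L) N ≤
      ENNReal.ofReal (Real.exp (-((L + 2) ^ 3 * g φ β (N / (L + 2) ^ 3)))) :=
  (hφ.le_fe_iff hβ hL).1 (hφ.g_le_fe hβ hL N)

/-- a lower bound `c u² - c' u` of the energy passes to `g` (convexity of the square on a chord) -/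
theorem Adm.le_g (hφ : Adm φ) (hβ : 0 < β) {c c' : ℝ} (hc : 0 ≤ c)
    (h : ∀ L : ℝ, 0 < L → ∀ (N : ℕ) (x : Fin N → Pt), x ∈ box (cube L) N →
      c * N ^ 2 / (L + 2) ^ 3 - c' * N ≤ En φ x) (hρ : 0 ≤ ρ) :
    β * (c * ρ ^ 2 - c' * ρ) - 1 ≤ g φ β ρ :=
  le_csInf (chords_nonempty φ β hρ) fun _ hv => hφ.le_chord hβ hc h hv

theorem exists_spread (M s r : ℕ) (h : r ≤ M * s) :
    ∃ ν : Fin s → ℕ, ∑ i, ν i = r ∧ ∀ i, ν i ≤ M := by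
  induction s generalizing r with
  | zero => exact ⟨fun _ => 0, by simpa using (Nat.le_zero.1 h).symm, fun i => i.elim0⟩
  | succ s ih =>
    obtain ⟨ν, h1, h2⟩ := ih (r - M) (by rw [Nat.mul_succ] at h; omega)
    refine ⟨Fin.cons (min M r) ν, ?_, fun i => Fin.cases ?_ (fun i => ?_) i⟩
    · rw [Fin.sum_univ_succ]
      simp only [Fin.cons_zero, Fin.cons_succ, h1]
      omega
    · simp
    · simpa using h2 i

set_option maxHeartbeats 1000000 in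
/-- Tile the cube with `n = m³` cubes of side `L₀`, `m = ⌊L / (L₀+2)⌋₊`.  For `ρ > 0`: reserve
`s = ⌈θ n⌉₊` (or `s ≈ C L²`) flexible tiles; of the others `⌊t (n - s)⌋₊` get `N₁` and the rest
`N₂` particles; the remainder `r = N - …` satisfies `0 ≤ r ≤ s M` eventually (`M > ρ (L₀+2)³`
fixed) and is spread evenly (`r / s` or `r / s + 1`) over the flexible tiles, at a cost
`≤ s max_{n ≤ M+1} |fe L₀ n|`.  (`ι = Fin n₁ ⊕ Fin n₂ ⊕ Fin s`.)  For `ρ = 0`: `N = 0`, `v = 0`. -/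
theorem Adm.eventually_fe_le (hφ : Adm φ) (hβ : 0 < β) (hρ : 0 ≤ ρ) {v : ℝ}
    (hv : v ∈ chords φ β ρ) {ε : ℝ} (hε : 0 < ε) :
    ∀ᶠ L in atTop, fe φ β L ⌊ρ * L ^ 3⌋₊ ≤ (v + ε) * L ^ 3 := by
  obtain ⟨L₀, t, N₁, N₂, hL₀, ht0, ht1, hN, hv⟩ := hv
  have hℓ : 0 < L₀ + 2 := by linarith
  have hV : 0 < (L₀ + 2) ^ 3 := by positivity
  have hN₁ : (0 : ℝ) ≤ N₁ := Nat.cast_nonneg _
  have hN₂ : (0 : ℝ) ≤ N₂ := Nat.cast_nonneg _
  rcases hρ.eq_or_lt with rfl | hρ0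
  · have h1 : t * N₁ = 0 := by nlinarith [mul_nonneg ht0 hN₁, mul_nonneg (sub_nonneg.2 ht1) hN₂]
    have h2 : (1 - t) * N₂ = 0 := by
      nlinarith [mul_nonneg ht0 hN₁, mul_nonneg (sub_nonneg.2 ht1) hN₂]
    have h3 : t * fe φ β L₀ N₁ = 0 := by
      rcases mul_eq_zero.1 h1 with h | h
      · rw [h, zero_mul]
      · rw [Nat.cast_eq_zero.1 h, fe_zero, mul_zero]
    have h4 : (1 - t) * fe φ β L₀ N₂ = 0 := by
      rcases mul_eq_zero.1 h2 with h | h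
      · rw [h, zero_mul]
      · rw [Nat.cast_eq_zero.1 h, fe_zero, mul_zero]
    rw [h3, h4] at hv
    filter_upwards [eventually_ge_atTop 0] with L hL
    rw [zero_mul, Nat.floor_zero, fe_zero, hv]
    positivity
  set V := (L₀ + 2) ^ 3 with hVd
  set f₁ := fe φ β L₀ N₁
  set f₂ := fe φ β L₀ N₂
  have hu : 0 < ρ * V := by positivity
  have hvV : t * f₁ + (1 - t) * f₂ = v * V := by rw [hv, div_mul_cancel₀ _ hV.ne']
  obtain ⟨C, hC7, hC⟩ : ∃ C : ℕ, 7 ≤ C ∧ 1 + N₁ + N₂ ≤ ρ * V * C := by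
    refine ⟨⌈(1 + N₁ + N₂) / (ρ * V)⌉₊ + 7, by omega, ?_⟩
    have := Nat.le_ceil ((1 + N₁ + N₂) / (ρ * V))
    rw [div_le_iff₀ hu] at this
    push_cast
    nlinarith
  obtain ⟨M, hM⟩ : ∃ M : ℕ, 2 * (ρ * V) + N₁ + N₂ ≤ M := ⟨_, Nat.le_ceil _⟩
  set F := ∑ j ∈ Finset.range (M + 1), |fe φ β L₀ j| with hF
  have hF0 : 0 ≤ F := Finset.sum_nonneg fun _ _ => abs_nonneg _
  have hFj : ∀ j ≤ M, fe φ β L₀ j ≤ F := fun j hj => (le_abs_self _).trans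
    (Finset.single_le_sum (f := fun j => |fe φ β L₀ j|) (fun _ _ => abs_nonneg _)
      (Finset.mem_range.2 (Nat.lt_succ_of_le hj)))
  set K := |v| * V * (7 + C) + |f₁| + |f₂| + C * F with hK
  have hm : Tendsto (fun L : ℝ => ⌊L / (L₀ + 2)⌋₊) atTop atTop :=
    tendsto_nat_floor_atTop.comp (tendsto_id.atTop_div_const hℓ)
  filter_upwards [eventually_gt_atTop 0, hm.eventually_ge_atTop C,
    hm.eventually_ge_atTop ⌈K / (ε * V)⌉₊] with L hL hmC hmK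
  set m := ⌊L / (L₀ + 2)⌋₊ with hmd
  have hm1 : m * (L₀ + 2) ≤ L := by
    rw [← le_div_iff₀ hℓ]
    exact Nat.floor_le (by positivity)
  have hm2 : L ≤ (m + 1) * (L₀ + 2) := by
    rw [← div_le_iff₀ hℓ]
    exact (Nat.lt_floor_add_one _).le
  have hmr : (1 : ℝ) ≤ m := by exact_mod_cast (by omega : 1 ≤ m)
  have hL1 : (m : ℝ) ^ 3 * V ≤ L ^ 3 := by
    rw [hVd, ← mul_pow]
    gcongr
  have hL2 : L ^ 3 ≤ ((m : ℝ) ^ 3 + 7 * m ^ 2) * V := by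
    calc L ^ 3 ≤ ((m + 1) * (L₀ + 2)) ^ 3 := by gcongr
      _ = (m + 1) ^ 3 * V := by rw [hVd, mul_pow]
      _ ≤ _ := by
        gcongr
        nlinarith
  have hKm : K ≤ ε * V * m := by
    have h1 := (Nat.le_ceil (K / (ε * V))).trans (Nat.cast_le.2 hmK : (_ : ℝ) ≤ m)
    rw [div_le_iff₀ (by positivity)] at h1
    linarith
  obtain ⟨k, hk⟩ : ∃ k : ℕ, k + C * m ^ 2 = m ^ 3 :=
    ⟨m ^ 3 - C * m ^ 2, Nat.sub_add_cancel (by
      rw [pow_succ' m 2]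
      exact Nat.mul_le_mul_right _ hmC)⟩
  have hkr : (k : ℝ) + C * m ^ 2 = m ^ 3 := by exact_mod_cast hk
  have hk0 : (0 : ℝ) ≤ k := Nat.cast_nonneg _
  set n₁ := ⌊t * k⌋₊ with hn₁
  have hn1 : (n₁ : ℝ) ≤ t * k := Nat.floor_le (by positivity)
  have hn2 : t * k ≤ n₁ + 1 := (Nat.lt_floor_add_one _).le
  obtain ⟨n₂, hn₂⟩ : ∃ n₂ : ℕ, n₁ + n₂ = k := ⟨k - n₁, Nat.add_sub_cancel' (by
    have : (n₁ : ℝ) ≤ k := hn1.trans (mul_le_of_le_one_left hk0 ht1)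
    exact_mod_cast this)⟩
  have hn₂r : (n₂ : ℝ) = k - n₁ := by rw [← hn₂]; push_cast; ring
  set N := ⌊ρ * L ^ 3⌋₊ with hNd
  have hN1 : (N : ℝ) ≤ ρ * L ^ 3 := Nat.floor_le (by positivity)
  have hN2 : ρ * L ^ 3 ≤ N + 1 := (Nat.lt_floor_add_one _).le
  set θ := t * k - n₁ with hθ
  have hθ0 : 0 ≤ θ := by linarith
  have hθ1 : θ ≤ 1 := by linarith
  have hmain : (n₁ : ℝ) * N₁ + n₂ * N₂ = k * (ρ * V) - θ * N₁ + θ * N₂ := by
    rw [hn₂r, ← hN, hθ]; ring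
  have hm2' : (1 : ℝ) ≤ (m : ℝ) ^ 2 := one_le_pow₀ hmr
  have hρ1 := mul_le_mul_of_nonneg_left hL1 hρ
  have hρ2 := mul_le_mul_of_nonneg_left hL2 hρ
  have hθN₁ : θ * N₁ ≤ N₁ := mul_le_of_le_one_left hN₁ hθ1
  have hθN₂ : θ * N₂ ≤ N₂ := mul_le_of_le_one_left hN₂ hθ1
  have hθN₁' : 0 ≤ θ * N₁ := by positivity
  have hθN₂' : 0 ≤ θ * N₂ := by positivity
  have hC7r : (7 : ℝ) ≤ C := by exact_mod_cast hC7
  obtain ⟨r, hr⟩ : ∃ r : ℕ, n₁ * N₁ + (n₂ * N₂ + r) = N := by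
    refine ⟨N - (n₁ * N₁ + n₂ * N₂), ?_⟩
    have : ((n₁ * N₁ + n₂ * N₂ : ℕ) : ℝ) ≤ N := by
      push_cast
      have h1 : ρ * V * C * 1 ≤ ρ * V * C * (m : ℝ) ^ 2 := by gcongr
      have h2 : ρ * ((m : ℝ) ^ 3 * V) = k * (ρ * V) + ρ * V * C * (m : ℝ) ^ 2 := by
        rw [← hkr]; ring
      linarith
    have : n₁ * N₁ + n₂ * N₂ ≤ N := by exact_mod_cast this
    omega
  have hrr : (n₁ : ℝ) * N₁ + (n₂ * N₂ + r) = N := by exact_mod_cast hr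
  obtain ⟨ν, hν1, hν2⟩ := exists_spread M (C * m ^ 2) r (by
    have : (r : ℝ) ≤ M * (C * (m : ℝ) ^ 2) := by
      have hs1 : (1 : ℝ) ≤ C * (m : ℝ) ^ 2 := one_le_mul_of_one_le_of_one_le (by linarith) hm2'
      have h1 : (2 * (ρ * V) + N₁ + N₂) * (C * (m : ℝ) ^ 2) ≤ M * (C * (m : ℝ) ^ 2) := by gcongr
      have h2 : ρ * (((m : ℝ) ^ 3 + 7 * m ^ 2) * V) =
          k * (ρ * V) + ρ * V * (C * (m : ℝ) ^ 2) + ρ * V * (7 * (m : ℝ) ^ 2) := by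
        rw [← hkr]; ring
      have h3 : ρ * V * (7 * (m : ℝ) ^ 2) ≤ ρ * V * (C * (m : ℝ) ^ 2) := by gcongr
      have h4 : (N₁ : ℝ) * 1 ≤ N₁ * (C * (m : ℝ) ^ 2) := by gcongr
      have h5 : (0 : ℝ) ≤ N₂ * (C * (m : ℝ) ^ 2) := by positivity
      linarith
    exact_mod_cast this)
  have ht := hφ.fe_tiles hβ hL₀ hL hm1 (ι := Fin n₁ ⊕ Fin n₂ ⊕ Fin (C * m ^ 2))
    (by simp only [Fintype.card_sum, Fintype.card_fin]; omega)
    (Sum.elim (fun _ => N₁) (Sum.elim (fun _ => N₂) ν))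
  simp only [Fintype.sum_sum_type, Sum.elim_inl, Sum.elim_inr, Finset.sum_const, Finset.card_univ,
    Fintype.card_fin, smul_eq_mul, nsmul_eq_mul, hν1] at ht
  rw [hr] at ht
  have hfl : ∑ i, fe φ β L₀ (ν i) ≤ C * (m : ℝ) ^ 2 * F := by
    refine (Finset.sum_le_sum fun i _ => hFj _ (hν2 i)).trans (le_of_eq ?_)
    simp
  have hcost : (n₁ : ℝ) * f₁ + n₂ * f₂ = k * (v * V) - θ * f₁ + θ * f₂ := by
    rw [hn₂r, ← hvV, hθ]; ring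
  have hc1 : -(θ * f₁) ≤ |f₁| * (m : ℝ) ^ 2 := by
    calc -(θ * f₁) = θ * -f₁ := by ring
      _ ≤ θ * |f₁| := mul_le_mul_of_nonneg_left (neg_le_abs f₁) hθ0
      _ ≤ (m : ℝ) ^ 2 * |f₁| := mul_le_mul_of_nonneg_right (hθ1.trans hm2') (abs_nonneg _)
      _ = _ := mul_comm _ _
  have hc2 : θ * f₂ ≤ |f₂| * (m : ℝ) ^ 2 := by
    calc θ * f₂ ≤ θ * |f₂| := mul_le_mul_of_nonneg_left (le_abs_self f₂) hθ0
      _ ≤ (m : ℝ) ^ 2 * |f₂| := mul_le_mul_of_nonneg_right (hθ1.trans hm2') (abs_nonneg _)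
      _ = _ := mul_comm _ _
  have hc3 : k * (v * V) ≤ v * L ^ 3 + |v| * V * (7 + C) * (m : ℝ) ^ 2 := by
    have h1 : 0 ≤ L ^ 3 - k * V := by
      have : (k : ℝ) * V ≤ (m : ℝ) ^ 3 * V := by
        gcongr
        have : (0 : ℝ) ≤ C * (m : ℝ) ^ 2 := by positivity
        linarith
      linarith
    have h2 : L ^ 3 - k * V ≤ V * (7 + C) * (m : ℝ) ^ 2 := by
      rw [← hkr] at hL2
      linarith
    have h3 : -v * (L ^ 3 - k * V) ≤ |v| * (V * (7 + C) * (m : ℝ) ^ 2) :=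
      mul_le_mul (neg_le_abs v) h2 h1 (abs_nonneg v)
    linarith
  have hc4 : K * (m : ℝ) ^ 2 ≤ ε * L ^ 3 := by
    calc K * (m : ℝ) ^ 2 ≤ ε * V * m * (m : ℝ) ^ 2 := by gcongr
      _ = ε * ((m : ℝ) ^ 3 * V) := by ring
      _ ≤ _ := by gcongr
  rw [hK] at hc4
  change _ ≤ (n₁ : ℝ) * f₁ + (n₂ * f₂ + _) at ht
  linarith

theorem Adm.eventually_fe_le_g (hφ : Adm φ) (hβ : 0 < β) (hρ : 0 ≤ ρ) {ε : ℝ} (hε : 0 < ε) :
    ∀ᶠ L in atTop, fe φ β L ⌊ρ * L ^ 3⌋₊ ≤ (g φ β ρ + ε) * L ^ 3 := by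
  obtain ⟨v, hv, hlt⟩ := exists_lt_of_csInf_lt (chords_nonempty φ β hρ)
    (show sInf (chords φ β ρ) < g φ β ρ + ε / 2 from lt_add_of_pos_right _ (half_pos hε))
  filter_upwards [hφ.eventually_fe_le hβ hρ hv (half_pos hε), eventually_ge_atTop 0] with L h hL
  exact h.trans (mul_le_mul_of_nonneg_right (by linarith) (by positivity))

theorem tendsto_floor_div_cube (hρ : 0 ≤ ρ) :
    Tendsto (fun L : ℝ => (⌊ρ * L ^ 3⌋₊ : ℝ) / L ^ 3) atTop (𝓝 ρ) :=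
  (tendsto_nat_floor_mul_div_atTop hρ).comp (tendsto_pow_atTop three_ne_zero)

theorem tendsto_add_two_cube : Tendsto (fun L : ℝ => (L + 2) ^ 3 / L ^ 3) atTop (𝓝 1) := by
  have h : Tendsto (fun L : ℝ => (1 + 2 * L⁻¹) ^ 3) atTop (𝓝 ((1 + 2 * 0) ^ 3)) :=
    (tendsto_const_nhds.add (tendsto_inv_atTop_zero.const_mul 2)).pow 3
  rw [show ((1 : ℝ) + 2 * 0) ^ 3 = 1 by norm_num] at h
  refine h.congr' ?_
  filter_upwards [eventually_gt_atTop 0] with L hL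
  field_simp

/-- the chord between `(L, ⌊ρ₁ L³⌋)` and `(L, ⌊ρ₂ L³⌋)` -/
theorem Adm.exists_chord (hφ : Adm φ) (hβ : 0 < β) {ρ₁ ρ₂ : ℝ} (h0 : 0 ≤ ρ₁) (h1 : ρ₁ ≤ ρ)
    (h2 : ρ < ρ₂) : ∃ s : ℝ → ℝ, Tendsto s atTop (𝓝 ((ρ - ρ₁) / (ρ₂ - ρ₁))) ∧
      ∀ᶠ L in atTop, 0 ≤ s L ∧ g φ β ρ * ((L + 2) ^ 3 / L ^ 3) ≤
        (1 - s L) * (fe φ β L ⌊ρ₁ * L ^ 3⌋₊ / L ^ 3) + s L * (fe φ β L ⌊ρ₂ * L ^ 3⌋₊ / L ^ 3) := by
  have h12 : 0 < ρ₂ - ρ₁ := by linarith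
  have t1 := tendsto_floor_div_cube h0
  have t2 := tendsto_floor_div_cube (ρ := ρ₂) (by linarith)
  have td := t2.sub t1
  have ts := ((tendsto_add_two_cube.const_mul ρ).sub t1).div td h12.ne'
  rw [mul_one] at ts
  refine ⟨_, ts, ?_⟩
  have hlt : (ρ - ρ₁) / (ρ₂ - ρ₁) < 1 := by
    rw [div_lt_one h12]
    linarith
  filter_upwards [ts.eventually (gt_mem_nhds hlt), td.eventually (lt_mem_nhds h12),
    eventually_gt_atTop 0] with L hs hd hL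
  simp only [Pi.div_apply] at hs ⊢
  set N₁ := ⌊ρ₁ * L ^ 3⌋₊ with hN₁
  set N₂ := ⌊ρ₂ * L ^ 3⌋₊ with hN₂
  set s := (ρ * ((L + 2) ^ 3 / L ^ 3) - N₁ / L ^ 3) / (N₂ / L ^ 3 - N₁ / L ^ 3) with hsdef
  have hL3 : 0 < L ^ 3 := by positivity
  have hs0 : 0 ≤ s := by
    refine div_nonneg ?_ hd.le
    have a1 : (N₁ : ℝ) ≤ ρ₁ * L ^ 3 := Nat.floor_le (by positivity)
    have a2 : L ^ 3 ≤ (L + 2) ^ 3 := by gcongr; linarith
    have a3 : ρ₁ * L ^ 3 ≤ ρ * (L + 2) ^ 3 := mul_le_mul h1 a2 hL3.le (h0.trans h1)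
    rw [← mul_div_assoc, ← sub_div]
    exact div_nonneg (by linarith) hL3.le
  have he : (1 - s) * N₁ + (1 - (1 - s)) * N₂ = ρ * (L + 2) ^ 3 := by
    have e1 : s * (N₂ / L ^ 3 - N₁ / L ^ 3) = ρ * ((L + 2) ^ 3 / L ^ 3) - N₁ / L ^ 3 :=
      div_mul_cancel₀ _ hd.ne'
    have e2 : s * (N₂ - N₁) = ρ * (L + 2) ^ 3 - N₁ := by
      have := congrArg (· * L ^ 3) e1
      field_simp at this
      linarith
    linarith
  have hg : g φ β ρ ≤ ((1 - s) * fe φ β L N₁ + (1 - (1 - s)) * fe φ β L N₂) / (L + 2) ^ 3 :=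
    csInf_le (hφ.bddBelow_chords hβ ρ) ⟨L, 1 - s, N₁, N₂, hL, by linarith, by linarith, he, rfl⟩
  refine ⟨hs0, ?_⟩
  rw [le_div_iff₀ (by positivity)] at hg
  rw [← mul_div_assoc, ← mul_div_assoc, ← mul_div_assoc, ← add_div]
  refine div_le_div_of_nonneg_right ?_ hL3.le
  linarith

/-- Lower bound: for `ρ > 0` use the chord between `(L, ⌊ρ L³⌋)` and `(L, ⌊2 ρ L³⌋)`, whose second
weight tends to `0`, and `eventually_fe_le` at `2 ρ`. -/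
theorem Adm.tendsto_fe (hφ : Adm φ) (hβ : 0 < β) (hρ : 0 ≤ ρ) :
    Tendsto (fun L : ℝ => fe φ β L ⌊ρ * L ^ 3⌋₊ / L ^ 3) atTop (𝓝 (g φ β ρ)) := by
  obtain ⟨s, hs, hch⟩ := hφ.exists_chord hβ hρ le_rfl (lt_add_one ρ)
  rw [sub_self, zero_div] at hs
  have hlow : Tendsto (fun L : ℝ => (g φ β ρ * ((L + 2) ^ 3 / L ^ 3) -
      s L * (g φ β (ρ + 1) + 1)) / (1 - s L)) atTop (𝓝 (g φ β ρ)) := by
    have := ((tendsto_add_two_cube.const_mul (g φ β ρ)).sub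
      (hs.mul_const (g φ β (ρ + 1) + 1))).div (hs.const_sub 1) (by norm_num)
    rw [mul_one, zero_mul, sub_zero, sub_zero, div_one] at this
    exact this
  rw [tendsto_order]
  refine ⟨fun a ha => ?_, fun a ha => ?_⟩
  · filter_upwards [hlow.eventually (lt_mem_nhds ha), hch, hs.eventually (gt_mem_nhds one_pos),
      hφ.eventually_fe_le_g hβ (ρ := ρ + 1) (by linarith) one_pos, eventually_gt_atTop 0]
      with L h1 h2 h3 h4 hL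
    refine h1.trans_le ?_
    rw [div_le_iff₀ (by linarith)]
    have h5 : fe φ β L ⌊(ρ + 1) * L ^ 3⌋₊ / L ^ 3 ≤ g φ β (ρ + 1) + 1 := by
      rwa [div_le_iff₀ (by positivity)]
    have h6 := mul_le_mul_of_nonneg_left h5 h2.1
    linarith [h2.2]
  · filter_upwards [hφ.eventually_fe_le_g hβ hρ (half_pos (sub_pos.2 ha)), eventually_gt_atTop 0]
      with L h hL
    rw [← div_le_iff₀ (by positivity)] at h
    linarith

/-- chords between `(L, ⌊ρ₁ L³⌋)` and `(L, ⌊ρ₂ L³⌋)`, `L → ∞` -/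
theorem Adm.convexOn_g (hφ : Adm φ) (hβ : 0 < β) : ConvexOn ℝ (Ici 0) (g φ β) := by
  refine LinearOrder.convexOn_of_lt (convex_Ici 0) fun x hx y hy hxy a b ha hb hab => ?_
  simp only [smul_eq_mul]
  obtain rfl : a = 1 - b := by linarith
  have h1 : x ≤ (1 - b) * x + b * y := by nlinarith
  have h2 : (1 - b) * x + b * y < y := by nlinarith
  obtain ⟨s, hs, hch⟩ := hφ.exists_chord hβ hx h1 h2
  have e : ((1 - b) * x + b * y - x) / (y - x) = b := by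
    rw [div_eq_iff (sub_pos.2 hxy).ne']
    ring
  rw [e] at hs
  have t1 := tendsto_add_two_cube.const_mul (g φ β ((1 - b) * x + b * y))
  rw [mul_one] at t1
  exact le_of_tendsto_of_tendsto t1 (((hs.const_sub 1).mul (hφ.tendsto_fe hβ hx)).add
    (hs.mul (hφ.tendsto_fe hβ hy))) (hch.mono fun L h => h.2)

theorem Adm.concaveOn_g (hφ : Adm φ) (hρ : 0 ≤ ρ) :
    ConcaveOn ℝ (Ioi 0) fun β => g φ β ρ := by
  refine ⟨convex_Ioi 0, fun x hx y hy a b ha hb hab => ?_⟩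
  have hm : a • x + b • y ∈ Ioi (0 : ℝ) := convex_Ioi 0 hx hy ha hb hab
  refine le_of_tendsto_of_tendsto (((hφ.tendsto_fe hx hρ).const_mul a).add
    ((hφ.tendsto_fe hy hρ).const_mul b)) (hφ.tendsto_fe hm hρ) ?_
  filter_upwards [eventually_gt_atTop 0] with L hL
  have h := (hφ.concaveOn_fe hL ⌊ρ * L ^ 3⌋₊).2 hx hy ha hb hab
  simp only [smul_eq_mul] at h ⊢
  rw [← mul_div_assoc, ← mul_div_assoc, ← add_div]
  exact div_le_div_of_nonneg_right h (by positivity)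

theorem Adm.tendsto_partitionFn (hφ : Adm φ) (hβ : 0 < β) (hρ : 0 ≤ ρ) :
    Tendsto (fun L : ℝ => -(1 / (β * L ^ 3)) * Real.log (partitionFn φ L ⌊ρ * L ^ 3⌋₊ β))
      atTop (𝓝 (g φ β ρ / β)) := by
  refine ((hφ.tendsto_fe hβ hρ).div_const β).congr fun L => ?_
  rw [partitionFn_eq hφ.meas, fe]
  ring

end Crest.Agent.R149
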