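import Crest.Agent.R149.SysB

/-! Row 149: trial states with `k` particles near every site of a periodic packing. -/

set_option autoImplicit false

namespace Crest.Agent.R149

open MeasureTheory Filter Set Crest.ProbabilityR.Continuum
open scoped ENNReal Topology

theorem cnt_fst {A ι κ : Type*} [Fintype A] [DecidableEq ι] [DecidableEq κ] [Fintype κ]
    (τ : A → ι × κ) (d : ι) : cnt (fun a => (τ a).1) d = ∑ y, cnt τ (d, y) := by
  unfold cnt
  rw [Finset.card_eq_sum_card_fiberwise (f := fun a => (τ a).2) (t := Finset.univ)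
    (fun _ _ => Finset.mem_coe.2 (Finset.mem_univ _))]
  refine Finset.sum_congr rfl fun y _ => ?_
  congr 1
  ext a
  simp [Prod.ext_iff]

theorem Sys.trial_fe (S : Sys) {β l τ y : ℝ} (hβ : 0 < β) (hl : 0 < l) (X : Finset Pt)
    (hmem : ∀ y ∈ X, Metric.ball y τ ⊆ cube l)
    (hsep : ∀ y ∈ X, ∀ z ∈ X, y ≠ z → ∀ y' ∈ Metric.ball y τ, ∀ z' ∈ Metric.ball z τ,
      y' ≠ z' ∧ S.φ0 (dist y' z') = 0) (k : ℕ)
    (hy : ENNReal.ofReal (Real.exp (-y)) ≤ Zr S.φ0 β (Metric.ball 0 τ) k) (I : ℕ) :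
    ∃ D : ℝ, ∀ m : ℕ, 0 < m → fe S.φ β (m * (l + 2)) (m ^ 3 * X.card * k) ≤
      m ^ 3 * X.card * y - β * ((∑ i ∈ Finset.range I, S.a i) * (m ^ 3 *
        ((1 - CJ * (l + 2) / S.R 0) * (((k : ℝ) * X.card) ^ 2 / (2 * (l + 2) ^ 3)) -
          (k : ℝ) * X.card * (iota * S.R 0 ^ 3)⁻¹ / 2)) - D * m ^ 2) := by
  classical
  have hh : 0 < l + 2 := by linarith
  choose C hC0 hC using fun i => le_Wk hh (S.R_pos i)
  refine ⟨∑ i ∈ Finset.range I, S.a i * (C i * ((k : ℝ) * X.card) ^ 2), fun m hm => ?_⟩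
  have hm' : (0 : ℝ) < m := by exact_mod_cast hm
  obtain ⟨T, hT⟩ : ∃ T : (Fin 3 → Fin m) × X → Set Pt,
      T = fun p => {z | z - (pos (l + 2) p.1 + p.2) ∈ Metric.ball (0 : Pt) τ} := ⟨_, rfl⟩
  have hTb : ∀ p, ∀ z ∈ T p, z - pos (l + 2) p.1 ∈ Metric.ball (p.2 : Pt) τ := by
    intro p z hz
    simp only [hT, mem_ofPred_eq, Metric.mem_ball, dist_zero_right] at hz
    rw [Metric.mem_ball, dist_eq_norm, sub_sub]
    exact hz
  have hTs : ∀ p, T p ⊆ slot l p.1 := fun p z hz => hmem _ p.2.2 (hTb p z hz)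
  have hTsep : ∀ p q, p ≠ q → ∀ z ∈ T p, ∀ w ∈ T q, z ≠ w ∧ S.φ0 (dist z w) = 0 := by
    rintro ⟨d, u⟩ ⟨d', u'⟩ hpq z hz w hw
    by_cases hd : d = d'
    · subst hd
      have hu : (u : Pt) ≠ u' := fun h => hpq (by rw [Subtype.ext h])
      have hz' : z - pos (l + 2) d ∈ Metric.ball (u : Pt) τ := hTb (d, u) z hz
      have hw' : w - pos (l + 2) d ∈ Metric.ball (u' : Pt) τ := hTb (d, u') w hw
      obtain ⟨h1, h2⟩ := hsep u u.2 u' u'.2 hu _ hz' _ hw'
      refine ⟨fun h => h1 (by rw [h]), ?_⟩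
      rwa [dist_sub_right] at h2
    · have h2 := two_le_dist_slot hl.le hd (hTs (d, u) hz) (hTs (d', u') hw)
      refine ⟨fun h => ?_, S.zero0 _ h2⟩
      rw [h, dist_self] at h2
      linarith
  have hN : ∑ _p : (Fin 3 → Fin m) × X, k = m ^ 3 * X.card * k := by
    simp [Finset.sum_const, Finset.card_univ, Fintype.card_prod]
  obtain ⟨E0, hE0⟩ : ∃ E0 : ℝ, E0 = (∑ i ∈ Finset.range I, S.a i) * (m ^ 3 *
        ((1 - CJ * (l + 2) / S.R 0) * (((k : ℝ) * X.card) ^ 2 / (2 * (l + 2) ^ 3)) -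
          (k : ℝ) * X.card * (iota * S.R 0 ^ 3)⁻¹ / 2)) -
      (∑ i ∈ Finset.range I, S.a i * (C i * ((k : ℝ) * X.card) ^ 2)) * m ^ 2 := ⟨_, rfl⟩
  rw [← hE0]
  have key := prod_le_Zr (Λ := cube (m * (l + 2))) (β := β) (y := -(β * E0)) S.adm.meas S.meas0 T
    (fun p => by
      rw [hT]
      exact Metric.isOpen_ball.measurableSet.preimage (measurable_sub_const _))
    (fun p q hpq => disjoint_left.2 fun z hz hw => (hTsep p q hpq z hz z hw).1 rfl)
    (fun p => (hTs p).trans (slot_subset hl.le p.1)) (fun _ => k) hN (by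
      intro σ hσ x hx
      have h1 : Cr S.φ0 σ x ≤ 0 :=
        Cr_nonpos fun a b hab => (hTsep _ _ hab _ (hx a) _ (hx b)).2.le
      have h2 : E0 ≤ En S.J x := by
        refine le_trans ?_ (S.En_Jlo_le I x)
        rw [S.En_Jlo, hE0, Finset.sum_mul, Finset.sum_mul, ← Finset.sum_sub_distrib]
        refine Finset.sum_le_sum fun i _ => ?_
        rw [mul_assoc (S.a i), ← mul_sub]
        refine mul_le_mul_of_nonneg_left ?_ (S.a_pos i).le
        have h3 := hC i m _ (fun a => (σ a).1) x 0 ((k : ℝ) * X.card)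
          (fun _ => (k : ℝ) * X.card) (fun a j => slot_coord (hTs _ (hx a)) j)
          (fun _ => by positivity)
          (fun d => by
            rw [cnt_fst, hσ]
            simp [mul_comm])
          (fun _ => le_rfl) (fun _ _ _ => le_rfl)
        simp only [Finset.sum_const, Finset.card_univ, Fintype.card_pi, Fintype.card_fin,
          Finset.prod_const, nsmul_eq_mul] at h3
        push_cast at h3
        refine le_trans ?_ h3
        have hR : S.R 0 ≤ S.R i := S.R_mono (Nat.zero_le i)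
        have hR0 := S.R_pos 0
        have h4 : CJ * (l + 2) / S.R i ≤ CJ * (l + 2) / S.R 0 :=
          div_le_div_of_nonneg_left (mul_nonneg CJ_nonneg hh.le) hR0 hR
        have h5 : (iota * S.R i ^ 3)⁻¹ ≤ (iota * S.R 0 ^ 3)⁻¹ := by
          have := iota_pos
          gcongr
        have h6 := mul_le_mul_of_nonneg_right h4
          (show (0 : ℝ) ≤ m ^ 3 * ((k : ℝ) * X.card) ^ 2 / (2 * (l + 2) ^ 3) by positivity)
        have h7 := mul_le_mul_of_nonneg_left h5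
          (show (0 : ℝ) ≤ m ^ 3 * X.card * k by positivity)
        have e1 : (m : ℝ) ^ 3 * ((1 - CJ * (l + 2) / S.R 0) *
            (((k : ℝ) * X.card) ^ 2 / (2 * (l + 2) ^ 3)) -
            (k : ℝ) * X.card * (iota * S.R 0 ^ 3)⁻¹ / 2) =
            (1 - CJ * (l + 2) / S.R 0) * (m ^ 3 * ((k : ℝ) * X.card) ^ 2 / (2 * (l + 2) ^ 3)) -
            m ^ 3 * X.card * k * (iota * S.R 0 ^ 3)⁻¹ / 2 := by ring
        rw [e1]
        linarith
      rw [S.En_φ, En_eq_EnI_add_Cr S.φ0 σ x]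
      nlinarith)
  rw [S.adm.fe_le_iff hβ (by positivity)]
  refine le_trans ?_ key
  have hp : ∏ p, Zr S.φ0 β (T p) k = Zr S.φ0 β (Metric.ball 0 τ) k ^ (m ^ 3 * X.card) := by
    simp only [hT, Zr_translate S.meas0 Metric.isOpen_ball.measurableSet, Finset.prod_const,
      Finset.card_univ, Fintype.card_prod, Fintype.card_pi, Fintype.card_fin, Fintype.card_coe]
  rw [hp]
  refine le_trans ?_ (mul_le_mul' le_rfl (pow_le_pow_left' hy _))
  rw [← ENNReal.ofReal_pow (Real.exp_pos _).le, ← Real.exp_nat_mul]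
  refine ofReal_exp_le (le_of_eq ?_)
  push_cast
  ring

/-- Let `h = l + 2`, `L = m h`, `N = m³ |X| k` (so `⌊k p' L³⌋₊ = N` and `Adm.tendsto_fe` applies
along `L = m h`).  Use `prod_le_Zr` with `φ' = φ0`, `ι = (Fin 3 → Fin m) × X`, the tiles
`ball (pos h d + y) τ ⊆ slot l d`, `ν = k`, `Zr_translate`.  On these tiles `Cr φ0 = 0`
(`two_le_dist_slot`, `hsep`), and `En J ≥ En (Jlo I) = ∑_{i<I} a i * W i` with `le_Wk` for the
labels `(τ a).1`, the constant `z = k |X|` and `R 0 ≤ R i`.  Let `m → ∞`, then `I → ∞`. -/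
theorem Sys.trial (S : Sys) {β l τ p' y : ℝ} (hβ : 0 < β) (hl : 0 < l) (X : Finset Pt)
    (hcard : (X.card : ℝ) = p' * (l + 2) ^ 3) (hmem : ∀ y ∈ X, Metric.ball y τ ⊆ cube l)
    (hsep : ∀ y ∈ X, ∀ z ∈ X, y ≠ z → ∀ y' ∈ Metric.ball y τ, ∀ z' ∈ Metric.ball z τ,
      y' ≠ z' ∧ S.φ0 (dist y' z') = 0) (k : ℕ)
    (hy : ENNReal.ofReal (Real.exp (-y)) ≤ Zr S.φ0 β (Metric.ball 0 τ) k) :
    g S.φ β (k * p') ≤ p' * y - β * S.tail 0 *
      ((1 - CJ * (l + 2) / S.R 0) * (k * p') ^ 2 / 2 - k * p' * (iota * S.R 0 ^ 3)⁻¹ / 2) := by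
  have hh : 0 < l + 2 := by linarith
  have hp : p' = X.card / (l + 2) ^ 3 := by rw [hcard]; field_simp
  have hρ : 0 ≤ (k : ℝ) * p' := by rw [hp]; positivity
  set T : ℝ := (1 - CJ * (l + 2) / S.R 0) * (k * p') ^ 2 / 2 - k * p' * (iota * S.R 0 ^ 3)⁻¹ / 2
    with hT
  have hI : ∀ I : ℕ, g S.φ β (k * p') ≤ p' * y - β * (∑ i ∈ Finset.range I, S.a i) * T := by
    intro I
    obtain ⟨D, hD⟩ := S.trial_fe hβ hl X hmem hsep k hy I
    have h1 : Tendsto (fun m : ℕ => (m : ℝ) * (l + 2)) atTop atTop :=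
      tendsto_natCast_atTop_atTop.atTop_mul_const hh
    have h2 := (S.adm.tendsto_fe hβ hρ).comp h1
    have h3 : Tendsto (fun m : ℕ => p' * y - β * (∑ i ∈ Finset.range I, S.a i) * T +
        β * D / (l + 2) ^ 3 / (m : ℝ)) atTop
        (𝓝 (p' * y - β * (∑ i ∈ Finset.range I, S.a i) * T + 0)) :=
      tendsto_const_nhds.add (tendsto_const_div_atTop_nhds_zero_nat _)
    rw [add_zero] at h3
    refine le_of_tendsto_of_tendsto h2 h3 ?_
    filter_upwards [eventually_gt_atTop 0] with m hm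
    have hm' : (0 : ℝ) < m := by exact_mod_cast hm
    have hfl : ⌊(k : ℝ) * p' * ((m : ℝ) * (l + 2)) ^ 3⌋₊ = m ^ 3 * X.card * k := by
      have : (k : ℝ) * p' * ((m : ℝ) * (l + 2)) ^ 3 = ((m ^ 3 * X.card * k : ℕ) : ℝ) := by
        push_cast
        rw [hcard]
        ring
      rw [this, Nat.floor_natCast]
    simp only [Function.comp]
    rw [hfl, div_le_iff₀ (by positivity)]
    refine (hD m hm).trans (le_of_eq ?_)
    rw [hT, hcard]
    field_simp
    ring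
  have h4 : Tendsto (fun I : ℕ => p' * y - β * (∑ i ∈ Finset.range I, S.a i) * T) atTop
      (𝓝 (p' * y - β * S.tail 0 * T)) := by
    rw [S.tail_zero]
    exact tendsto_const_nhds.sub
      ((S.a_sum.hasSum.tendsto_sum_nat.const_mul β).mul_const T)
  exact ge_of_tendsto' h4 hI

/-- `trial` with `l = l 0`; `(l 0 + 2) / R 0 ≤ 2 r 0`, `(R 0 ^ 3)⁻¹ ≤ r 0`, `M.r0`, `M.a_eq` -/
theorem Mod.trial (M : Mod) {β y : ℝ} (hβ : 1 / 2 ≤ β) (hβ' : β ≤ 2) {k : ℕ} (hk : k ≤ 4)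
    (hy : ENNReal.ofReal (Real.exp (-(M.lam * y))) ≤ Zr M.φ0 β (Metric.ball 0 M.τ) k) :
    M.Γ β k ≤ y - β * M.A * k ^ 2 / 2 + M.A / 10 ^ 7 := by
  have hβ0 : 0 < β := by linarith
  have hlam : 0 < M.lam := by
    have h1 := M.lam_ge
    have h2 := M.e_pos
    by_contra h
    nlinarith
  have hp : 0 < M.p' := by linarith [M.p'_ge]
  have h := M.toSys.trial hβ0 (M.toSys.l_pos 0) M.X M.X_card M.X_mem M.X_sep k hy
  rw [M.toSys.tail_zero, M.a_eq] at h
  unfold Mod.Γ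
  rw [div_le_iff₀ (by positivity)]
  refine h.trans ?_
  have hR := M.toSys.six_le_R 0
  have hl := M.toSys.two_le_l 0
  have hr := M.toSys.l_div_le_r 0
  have hr0 := M.r0
  have hι := iota_pos
  have hCJ := CJ_nonneg
  set r := M.toSys.r 0
  set u := CJ * (M.l 0 + 2) / M.R 0 with hu
  set v := (iota * M.R 0 ^ 3)⁻¹ with hv
  have hr1 : (M.l 0 + 2) / M.R 0 ≤ 2 * r := by
    refine le_trans ?_ (mul_le_mul_of_nonneg_left hr zero_le_two)
    rw [← mul_div_assoc]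
    gcongr
    linarith
  have hu1 : u ≤ 2 * (CJ * r) := by
    rw [hu, mul_div_assoc]
    nlinarith
  have hr2 : (M.R 0 ^ 3)⁻¹ ≤ r := by
    refine le_trans ?_ hr
    rw [inv_eq_one_div, div_le_div_iff₀ (by positivity) (by linarith)]
    have h1 : M.R 0 ≤ M.R 0 ^ 3 := le_self_pow₀ (by linarith) (by norm_num)
    nlinarith
  have hv1 : v ≤ iota⁻¹ * r := by
    rw [hv, mul_inv]
    gcongr
  have hrn : 0 ≤ r := M.toSys.r_nonneg 0
  have hu0 : 0 ≤ u := by positivity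
  have hv0 : 0 ≤ v := by positivity
  have hι' : 0 ≤ iota⁻¹ * r := by positivity
  have hC' : 0 ≤ CJ * r := by positivity
  have hu2 : u ≤ 2 / 10 ^ 9 := by nlinarith
  have hv2 : v ≤ 1 / 10 ^ 9 := by nlinarith
  have hk' : (k : ℝ) ≤ 4 := by exact_mod_cast hk
  have hk0 : (0 : ℝ) ≤ k := Nat.cast_nonneg k
  have hA := M.A_pos
  have hp' := M.p'_ge
  have e1 : M.p' * (M.lam * y) - β * (M.lam * M.A / M.p') *
      ((1 - u) * (k * M.p') ^ 2 / 2 - k * M.p' * v / 2) =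
      (y - β * M.A * k ^ 2 / 2) * (M.lam * M.p') +
        M.lam * M.A * (β * (u * k ^ 2 * M.p' / 2 + k * v / 2)) := by
    field_simp
    ring
  rw [e1, add_mul]
  have h5 : β * (u * k ^ 2 * M.p' / 2 + k * v / 2) ≤ M.p' / 10 ^ 7 := by
    have h6 : u * k ^ 2 ≤ 2 / 10 ^ 9 * 4 ^ 2 := by gcongr
    have h7 : k * v ≤ 4 * (1 / 10 ^ 9) := by gcongr
    have h8 : u * k ^ 2 * M.p' / 2 + k * v / 2 ≤ M.p' / (2 * 10 ^ 7) := by nlinarith
    have h9 : 0 ≤ u * k ^ 2 * M.p' / 2 + k * v / 2 := by positivity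
    calc β * (u * k ^ 2 * M.p' / 2 + k * v / 2) ≤ 2 * (M.p' / (2 * 10 ^ 7)) := by gcongr
      _ = M.p' / 10 ^ 7 := by ring
  have h10 := mul_le_mul_of_nonneg_left h5 (show 0 ≤ M.lam * M.A by positivity)
  have e2 : M.A / 10 ^ 7 * (M.lam * M.p') = M.lam * M.A * (M.p' / 10 ^ 7) := by ring
  linarith

end Crest.Agent.R149
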